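import Mathlib

/-!
# P076: sharpness of `H^{n/(2(n+1))}` among radial weights (Schrödinger convergence)

Definitions.  Convention: frequencies `η = ξ / 2π`, `s = 2 π t`; `e x = exp (2 π i x)`.
-/

namespace Vale.Agent.P076

open MeasureTheory Complex Finset
open scoped RealInnerProductSpace

noncomputable section

/-- `exp (2 π i x)` -/
def e (x : ℝ) : ℂ := Complex.exp (((2 * Real.pi * x : ℝ) : ℂ) * I)

/-- the space -/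
abbrev E (n : ℕ) := EuclideanSpace ℝ (Fin n)

/-- the regularised evolution of data `H` given on the Fourier side -/
def S {n : ℕ} (H : E n → ℂ) (a s : ℝ) (x : E n) : ℂ :=
  ∫ η : E n, e (⟪x, η⟫ - s * ‖η‖ ^ 2) * ((Real.exp (-(a * ‖η‖ ^ 2)) : ℝ) : ℂ) * H η

/-- one-dimensional evolution -/
def I1 (g : ℝ → ℂ) (x s : ℝ) : ℂ := ∫ η : ℝ, e (x * η - s * η ^ 2) * g η

/-- indicator of `[c - r, c + r]` -/
def box (c r : ℝ) (η : ℝ) : ℂ := (Set.Icc (c - r) (c + r)).indicator (fun _ => (1 : ℂ)) η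

/-- first coordinate: one box of half-width `N^{m+2}/8` around `N^{2m+4}` -/
def g0 (N m : ℕ) (η : ℝ) : ℂ := box ((N : ℝ) ^ (2 * m + 4)) ((N : ℝ) ^ (m + 2) / 8) η

/-- other coordinates: boxes of half-width `1/32` around `N^{m+3} ℓ`, `0 ≤ ℓ < N^{m+1}` -/
def g1 (N m : ℕ) (η : ℝ) : ℂ :=
  ∑ l ∈ range (N ^ (m + 1)), box ((N : ℝ) ^ (m + 3) * l) (1 / 32) η

/-- the product data on `ℝ^{m+1}` -/
def G (N m : ℕ) (η : E (m + 1)) : ℂ := g0 N m (η 0) * ∏ j : Fin m, g1 N m (η j.succ)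

/-- terms of the quadratic Gauss sum -/
def gs (q : ℕ) (a b : ℤ) (l : ℕ) : ℂ :=
  e ((b : ℝ) * l / q - (a : ℝ) * (l : ℝ) ^ 2 / (4 * q))

/-- Weyl bound for incomplete sums -/
def Wb (q : ℕ) : ℝ := Real.sqrt (q * (6 + 4 * Real.log q))

/-- the good set -/
def good (N m : ℕ) : Set (E (m + 1)) :=
  {x | (∀ i, 0 ≤ x i ∧ x i ≤ 1) ∧ ∃ q a : ℕ, 25 * N ^ m ≤ 4 * q ∧ q ≤ (100 * N) ^ m ∧
    1 ≤ a ∧ a ≤ 2 * q * N ^ 2 ∧ Nat.Coprime a (2 * q) ∧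
    |(x 0 : ℝ) - (a : ℝ) / (2 * (q : ℝ) * (N : ℝ) ^ 2)| ≤ 1 / (2 * (q : ℝ) * (N : ℝ) ^ 2) ∧
    ∀ j : Fin m, ∃ b : ℤ, |(q : ℝ) * (N : ℝ) ^ (m + 3) * (x j.succ : ℝ) - b| ≤ 1 / (100 * (N : ℝ))}

end

end Vale.Agent.P076
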