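import Mathlib
import Vale.Agent.P076.Defs

/-!
# P076 module BASIC: elementary facts on `e`
-/

namespace Vale.Agent.P076

open MeasureTheory Complex Finset

theorem e_add (x y : ℝ) : e (x + y) = e x * e y := by
  unfold e
  rw [← Complex.exp_add]
  congr 1
  push_cast
  ring

theorem e_zero : e 0 = 1 := by
  unfold e
  simp

theorem norm_e (x : ℝ) : ‖e x‖ = 1 := Complex.norm_exp_ofReal_mul_I _

theorem e_neg (x : ℝ) : e (-x) = (starRingEnd ℂ) (e x) := by
  unfold e
  rw [← Complex.exp_conj, map_mul, Complex.conj_ofReal, Complex.conj_I]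
  congr 1
  push_cast
  ring

theorem e_int (k : ℤ) : e (k : ℝ) = 1 := by
  unfold e
  rw [Complex.exp_eq_one_iff]
  exact ⟨k, by push_cast; ring⟩

theorem e_add_int (x : ℝ) (k : ℤ) : e (x + k) = e x := by
  rw [e_add, e_int, mul_one]

theorem e_eq_one_iff (x : ℝ) : e x = 1 ↔ ∃ k : ℤ, x = k := by
  constructor
  · intro h
    unfold e at h
    rw [Complex.exp_eq_one_iff] at h
    obtain ⟨k, hk⟩ := h
    refine ⟨k, ?_⟩
    have h1 : (2 * Real.pi * I : ℂ) * (x : ℂ) = (2 * Real.pi * I : ℂ) * (k : ℂ) := by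
      rw [mul_comm _ (k : ℂ), ← hk]
      push_cast
      ring
    have h2 : (x : ℂ) = (k : ℂ) := mul_left_cancel₀ Complex.two_pi_I_ne_zero h1
    exact_mod_cast h2
  · rintro ⟨k, rfl⟩
    exact e_int k

theorem continuous_e : Continuous e := by
  unfold e
  fun_prop

private theorem basic_norm_e_sub_one (x : ℝ) : ‖e x - 1‖ = 2 * |Real.sin (Real.pi * x)| := by
  have h : e x = Complex.exp (I * ((2 * Real.pi * x : ℝ) : ℂ)) := by
    unfold e
    rw [mul_comm]
  rw [h, Complex.norm_exp_I_mul_ofReal_sub_one, Real.norm_eq_abs, abs_mul, abs_two]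
  congr 3
  ring

theorem norm_e_sub_e_le (x y : ℝ) : ‖e x - e y‖ ≤ 2 * Real.pi * |x - y| := by
  have h1 : e x - e y = e y * (e (x - y) - 1) := by
    rw [mul_sub, ← e_add, mul_one, add_sub_cancel]
  rw [h1, norm_mul, norm_e, one_mul, basic_norm_e_sub_one]
  have h2 : |Real.sin (Real.pi * (x - y))| ≤ |Real.pi * (x - y)| := Real.abs_sin_le_abs
  rw [abs_mul, abs_of_pos Real.pi_pos] at h2
  linarith

theorem re_e (x : ℝ) : (e x).re = Real.cos (2 * Real.pi * x) :=
  Complex.exp_ofReal_mul_I_re _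

/-- `|e x - 1| = 2 |sin π x| ≥ 4 dist (x, ℤ)` -/
theorem le_norm_e_sub_one (x : ℝ) (k : ℤ) (h : |x - k| ≤ 1 / 2) : 4 * |x - k| ≤ ‖e x - 1‖ := by
  have h1 : e x = e (x - k) := by
    rw [← e_add_int (x - k) k, sub_add_cancel]
  rw [h1, basic_norm_e_sub_one]
  set t := x - k with ht
  have h2 : Real.sin (Real.pi * |t|) ≤ |Real.sin (Real.pi * t)| := by
    rcases abs_cases t with ⟨h3, _⟩ | ⟨h3, _⟩
    · rw [h3]
      exact le_abs_self _
    · rw [h3, mul_neg, Real.sin_neg]
      exact neg_le_abs _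
  have h3 := Real.mul_le_sin (x := Real.pi * |t|) (by positivity) (by
    have := Real.pi_pos
    nlinarith)
  have h4 : 2 / Real.pi * (Real.pi * |t|) = 2 * |t| := by
    field_simp
  rw [h4] at h3
  linarith

/-- geometric sums -/
theorem norm_geom_le (x : ℝ) (k : ℤ) (h : |x - k| ≤ 1 / 2) (h0 : x ≠ k) (c : ℝ) (M : ℕ) :
    ‖∑ l ∈ range M, e (c + x * l)‖ ≤ 1 / (2 * |x - k|) := by
  have hpos : 0 < |x - k| := abs_pos.2 (sub_ne_zero.2 h0)
  have h1 := le_norm_e_sub_one x k h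
  have h2 : 0 < ‖e x - 1‖ := by linarith
  have h3 : ∀ l : ℕ, e (c + x * l) = e c * e x ^ l := by
    intro l
    induction l with
    | zero => simp
    | succ l ih =>
      have h4 : c + x * ((l + 1 : ℕ) : ℝ) = (c + x * l) + x := by push_cast; ring
      rw [h4, e_add, ih, pow_succ]
      ring
  have h4 : (∑ l ∈ range M, e (c + x * l)) * (e x - 1) = e c * (e x ^ M - 1) := by
    rw [← geom_sum_mul, ← mul_assoc, Finset.mul_sum]
    congr 1
    exact Finset.sum_congr rfl fun l _ => h3 l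
  have h5 : ‖∑ l ∈ range M, e (c + x * l)‖ * ‖e x - 1‖ ≤ 2 := by
    rw [← norm_mul, h4, norm_mul, norm_e, one_mul]
    refine (norm_sub_le _ _).trans ?_
    rw [norm_pow, norm_e, one_pow, norm_one]
    norm_num
  rw [le_div_iff₀ (by positivity)]
  have h6 : 0 ≤ ‖∑ l ∈ range M, e (c + x * l)‖ := norm_nonneg _
  nlinarith [mul_le_mul_of_nonneg_left h1 h6]

end Vale.Agent.P076
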