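import Mathlib
import Vale.Agent.P076.Basic

/-!
# P076 module ABEL: Abel summation, lower bound
-/

namespace Vale.Agent.P076

open MeasureTheory Complex Finset

theorem abel_lower (g A : ℕ → ℂ) (L : ℕ) (al V X Y : ℝ) (hL : 0 < L)
    (hA : al ≤ ‖A (L - 1)‖) (hal : 0 ≤ al)
    (hV : ∑ l ∈ range (L - 1), ‖A (l + 1) - A l‖ ≤ V)
    (hX : X ≤ ‖∑ l ∈ range L, g l‖) (hY : ∀ M ≤ L, ‖∑ l ∈ range M, g l‖ ≤ Y) :
    al * X - V * Y ≤ ‖∑ l ∈ range L, g l * A l‖ := by
  have h0 : ∑ l ∈ range L, g l * A l = A (L - 1) * (∑ l ∈ range L, g l)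
      - ∑ l ∈ range (L - 1), (A (l + 1) - A l) * ∑ i ∈ range (l + 1), g i := by
    have h := Finset.sum_range_by_parts A g L
    simp only [smul_eq_mul] at h
    rw [← h]
    exact sum_congr rfl fun l _ => mul_comm _ _
  have hY0 : 0 ≤ Y := by
    have := hY 0 (Nat.zero_le _)
    simpa using this
  have h1 : ‖∑ l ∈ range (L - 1), (A (l + 1) - A l) * ∑ i ∈ range (l + 1), g i‖ ≤ V * Y := by
    calc ‖∑ l ∈ range (L - 1), (A (l + 1) - A l) * ∑ i ∈ range (l + 1), g i‖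
        ≤ ∑ l ∈ range (L - 1), ‖(A (l + 1) - A l) * ∑ i ∈ range (l + 1), g i‖ :=
          norm_sum_le _ _
      _ ≤ ∑ l ∈ range (L - 1), ‖A (l + 1) - A l‖ * Y := by
          refine sum_le_sum fun l hl => ?_
          rw [norm_mul]
          have hl' : l < L - 1 := mem_range.1 hl
          exact mul_le_mul_of_nonneg_left (hY (l + 1) (by omega)) (norm_nonneg _)
      _ = (∑ l ∈ range (L - 1), ‖A (l + 1) - A l‖) * Y := by rw [sum_mul]
      _ ≤ V * Y := mul_le_mul_of_nonneg_right hV hY0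
  have h2 : al * X ≤ ‖A (L - 1) * (∑ l ∈ range L, g l)‖ := by
    rw [norm_mul]
    rcases le_total X 0 with hX0 | hX0
    · exact (mul_nonpos_of_nonneg_of_nonpos hal hX0).trans
        (mul_nonneg (norm_nonneg _) (norm_nonneg _))
    · exact mul_le_mul hA hX hX0 (norm_nonneg _)
  have h3 := norm_sub_norm_le (A (L - 1) * (∑ l ∈ range L, g l))
    (∑ l ∈ range (L - 1), (A (l + 1) - A l) * ∑ i ∈ range (l + 1), g i)
  rw [← h0] at h3
  linarith

end Vale.Agent.P076
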