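import Mathlib
import Vale.Agent.P076.Basic

/-!
# P076 module OSC: integrals without oscillation, one-dimensional pieces
-/

namespace Vale.Agent.P076

open MeasureTheory Complex Finset

theorem osc_lower {r : ℝ} (hr : 0 ≤ r) {psi : ℝ → ℝ} (hc : Continuous psi)
    (h : ∀ y ∈ Set.Icc (-r) r, |psi y| ≤ 1 / 6) : r ≤ ‖∫ y in (-r)..r, e (psi y)‖ := by
  have hce : Continuous fun y => e (psi y) := continuous_e.comp hc
  have hre : (∫ y in (-r)..r, e (psi y)).re = ∫ y in (-r)..r, (e (psi y)).re := by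
    have h1 := Complex.reCLM.intervalIntegral_comp_comm
      (hce.intervalIntegrable (μ := volume) (-r) r)
    simp only [Complex.reCLM_apply] at h1
    exact h1.symm
  have hle : (∫ y in (-r)..r, (1 / 2 : ℝ)) ≤ ∫ y in (-r)..r, (e (psi y)).re := by
    refine intervalIntegral.integral_mono_on (by linarith) ?_ ?_ fun y hy => ?_
    · exact continuous_const.intervalIntegrable _ _
    · exact (Complex.continuous_re.comp hce).intervalIntegrable _ _
    · rw [re_e, ← Real.cos_abs, ← Real.cos_pi_div_three]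
      have hpi := Real.pi_pos
      have h2 : |2 * Real.pi * psi y| ≤ Real.pi / 3 := by
        rw [abs_mul, abs_of_pos (by positivity : 0 < 2 * Real.pi)]
        nlinarith [h y hy]
      exact Real.cos_le_cos_of_nonneg_of_le_pi (abs_nonneg _) (by linarith) h2
  have h3 : (∫ y in (-r)..r, (1 / 2 : ℝ)) = r := by
    rw [intervalIntegral.integral_const, smul_eq_mul]
    ring
  calc r ≤ (∫ y in (-r)..r, e (psi y)).re := by
        rw [h3] at hle
        rw [hre]
        exact hle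
    _ ≤ ‖∫ y in (-r)..r, e (psi y)‖ := Complex.re_le_norm _

/-- evolution of one box: substitution `η = c + y` -/
theorem I1_box {c r : ℝ} (hr : 0 ≤ r) (x s : ℝ) :
    I1 (box c r) x s = e (x * c - s * c ^ 2) * ∫ y in (-r)..r, e (y * (x - 2 * s * c) - s * y ^ 2) := by
  have h1 : I1 (box c r) x s = ∫ η in (c - r)..(c + r), e (x * η - s * η ^ 2) := by
    unfold I1 box
    rw [intervalIntegral.integral_of_le (by linarith), ← integral_Icc_eq_integral_Ioc,
      ← integral_indicator measurableSet_Icc]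
    refine integral_congr_ae (Filter.Eventually.of_forall fun η => ?_)
    by_cases h : η ∈ Set.Icc (c - r) (c + r)
    · simp only [Set.indicator_of_mem h, mul_one]
    · simp only [Set.indicator_of_notMem h, mul_zero]
  have h2 := intervalIntegral.integral_comp_add_left (a := -r) (b := r)
    (fun η => e (x * η - s * η ^ 2)) c
  rw [h1, ← sub_eq_add_neg] at *
  rw [← h2, ← intervalIntegral.integral_const_mul]
  refine intervalIntegral.integral_congr fun y _ => ?_
  rw [← e_add]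
  congr 1
  ring

theorem I1_g0 (N m : ℕ) {x s : ℝ} (hs : 0 ≤ s) (hs1 : 2 * s * (N : ℝ) ^ (2 * m + 4) ≤ 1)
    (hx : |x - 2 * s * (N : ℝ) ^ (2 * m + 4)| * (N : ℝ) ^ (m + 2) ≤ 1) :
    (N : ℝ) ^ (m + 2) / 8 ≤ ‖I1 (g0 N m) x s‖ := by
  have hr : (0 : ℝ) ≤ (N : ℝ) ^ (m + 2) / 8 := by positivity
  have h1 : I1 (g0 N m) x s = I1 (box ((N : ℝ) ^ (2 * m + 4)) ((N : ℝ) ^ (m + 2) / 8)) x s := rfl
  rw [h1, I1_box hr, norm_mul, norm_e, one_mul]
  refine osc_lower hr (by fun_prop) fun y hy => ?_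
  have hy' : |y| ≤ (N : ℝ) ^ (m + 2) / 8 := abs_le.2 ⟨hy.1, hy.2⟩
  have hsq : ((N : ℝ) ^ (m + 2)) ^ 2 = (N : ℝ) ^ (2 * m + 4) := by
    rw [← pow_mul]
    congr 1
    ring
  set R : ℝ := (N : ℝ) ^ (m + 2) with hR
  rw [← hsq] at hs1 hx ⊢
  have hR0 : 0 ≤ R := by positivity
  have h2 : |y * (x - 2 * s * R ^ 2)| ≤ 1 / 8 := by
    rw [abs_mul]
    calc |y| * |x - 2 * s * R ^ 2| ≤ (R / 8) * |x - 2 * s * R ^ 2| :=
          mul_le_mul_of_nonneg_right hy' (abs_nonneg _)
      _ = (|x - 2 * s * R ^ 2| * R) / 8 := by ring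
      _ ≤ 1 / 8 := by linarith
  have h3 : |s * y ^ 2| ≤ 1 / 128 := by
    rw [abs_mul, abs_of_nonneg hs, abs_of_nonneg (sq_nonneg y), ← sq_abs y]
    have h4 : |y| ^ 2 ≤ (R / 8) ^ 2 := pow_le_pow_left₀ (abs_nonneg y) hy' 2
    have h5 := mul_le_mul_of_nonneg_left h4 hs
    nlinarith
  calc |y * (x - 2 * s * R ^ 2) - s * y ^ 2|
      ≤ |y * (x - 2 * s * R ^ 2)| + |s * y ^ 2| := abs_sub _ _
    _ ≤ 1 / 6 := by linarith

end Vale.Agent.P076
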