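import Mathlib
import Vale.Agent.P076.Osc

/-!
# P076 module AMP: amplitudes of the terms in the arithmetic coordinates
-/

namespace Vale.Agent.P076

open MeasureTheory Complex Finset

/-- amplitude of the `l`-th term -/
noncomputable def Amp (N m : ℕ) (th x s : ℝ) (l : ℕ) : ℂ :=
  e (th * l) * ∫ y in (-(1 / 32) : ℝ)..(1 / 32), e (y * (x - 2 * s * ((N : ℝ) ^ (m + 3) * l)) - s * y ^ 2)

theorem amp_integrable_box (c r x s : ℝ) :
    Integrable (fun η : ℝ => e (x * η - s * η ^ 2) * box c r η) := by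
  have h : (fun η : ℝ => e (x * η - s * η ^ 2) * box c r η) =
      (Set.Icc (c - r) (c + r)).indicator (fun η => e (x * η - s * η ^ 2)) := by
    funext η
    unfold box
    by_cases hη : η ∈ Set.Icc (c - r) (c + r)
    · rw [Set.indicator_of_mem hη, Set.indicator_of_mem hη, mul_one]
    · rw [Set.indicator_of_notMem hη, Set.indicator_of_notMem hη, mul_zero]
  rw [h, integrable_indicator_iff measurableSet_Icc]
  have hc : Continuous fun η : ℝ => e (x * η - s * η ^ 2) :=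
    continuous_e.comp (by fun_prop)
  exact hc.continuousOn.integrableOn_compact isCompact_Icc

/-- evolution of `g1`: with `N^{m+3} x = b / q + th` and `s N^{2m+6} = a / (4 q)` -/
theorem I1_g1 (N m q : ℕ) (hq : 0 < q) (a b : ℤ) {x s th : ℝ}
    (hx : (N : ℝ) ^ (m + 3) * x = b / q + th) (hs : s * ((N : ℝ) ^ (m + 3)) ^ 2 = a / (4 * q)) :
    I1 (g1 N m) x s = ∑ l ∈ range (N ^ (m + 1)), gs q a b l * Amp N m th x s l := by
  have h1 : I1 (g1 N m) x s =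
      ∑ l ∈ range (N ^ (m + 1)), I1 (box ((N : ℝ) ^ (m + 3) * l) (1 / 32)) x s := by
    unfold I1 g1
    simp_rw [Finset.mul_sum]
    rw [integral_finsetSum]
    intro l _
    exact amp_integrable_box _ _ x s
  rw [h1]
  refine Finset.sum_congr rfl fun l _ => ?_
  rw [I1_box (by norm_num : (0 : ℝ) ≤ 1 / 32)]
  unfold Amp gs
  rw [← mul_assoc (e _) (e _), ← e_add]
  congr 2
  have hq' : (q : ℝ) ≠ 0 := by exact_mod_cast hq.ne'
  have e1 : x * ((N : ℝ) ^ (m + 3) * l) = (b / q + th) * l := by rw [← hx]; ring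
  have e2 : s * ((N : ℝ) ^ (m + 3) * l) ^ 2 = a / (4 * q) * (l : ℝ) ^ 2 := by rw [← hs]; ring
  rw [e1, e2]
  ring

theorem amp_phase (N m : ℕ) (hN : 1 ≤ N) {x s : ℝ} (hx0 : 0 ≤ x) (hx1 : x ≤ 1) (hs : 0 ≤ s)
    (hs1 : 2 * s * (N : ℝ) ^ (2 * m + 4) ≤ 1) {l : ℕ} (hl : l < N ^ (m + 1)) :
    |x - 2 * s * ((N : ℝ) ^ (m + 3) * l)| ≤ 1 ∧ s ≤ 1 / 2 := by
  have hN' : (1 : ℝ) ≤ N := by exact_mod_cast hN
  have hl' : (l : ℝ) ≤ (N : ℝ) ^ (m + 1) := by exact_mod_cast hl.le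
  have h1 : (N : ℝ) ^ (m + 3) * l ≤ (N : ℝ) ^ (2 * m + 4) := by
    calc (N : ℝ) ^ (m + 3) * l ≤ (N : ℝ) ^ (m + 3) * (N : ℝ) ^ (m + 1) :=
          mul_le_mul_of_nonneg_left hl' (by positivity)
      _ = (N : ℝ) ^ (2 * m + 4) := by rw [← pow_add]; congr 1; ring
  have h2 : 2 * s * ((N : ℝ) ^ (m + 3) * l) ≤ 1 :=
    (mul_le_mul_of_nonneg_left h1 (by positivity)).trans hs1
  have h3 : 0 ≤ 2 * s * ((N : ℝ) ^ (m + 3) * l) := by positivity
  have h4 : (1 : ℝ) ≤ (N : ℝ) ^ (2 * m + 4) := one_le_pow₀ hN'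
  refine ⟨?_, ?_⟩
  · rw [abs_le]; constructor <;> linarith
  · nlinarith

theorem amp_cont (A s : ℝ) : Continuous fun y : ℝ => y * A - s * y ^ 2 := by fun_prop

theorem Amp_lower (N m : ℕ) (hN : 1 ≤ N) {th x s : ℝ} (hx0 : 0 ≤ x) (hx1 : x ≤ 1) (hs : 0 ≤ s)
    (hs1 : 2 * s * (N : ℝ) ^ (2 * m + 4) ≤ 1) {l : ℕ} (hl : l < N ^ (m + 1)) :
    1 / 32 ≤ ‖Amp N m th x s l‖ := by
  obtain ⟨h1, h2⟩ := amp_phase N m hN hx0 hx1 hs hs1 hl
  unfold Amp
  rw [norm_mul, norm_e, one_mul]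
  refine osc_lower (by norm_num) (amp_cont _ s) fun y hy => ?_
  have hy1 : |y| ≤ 1 / 32 := abs_le.2 ⟨hy.1, hy.2⟩
  have hy2 : y ^ 2 ≤ 1 / 1024 := by
    have := sq_le_sq' hy.1 hy.2
    linarith
  have h3 : |y * (x - 2 * s * ((N : ℝ) ^ (m + 3) * l))| ≤ 1 / 32 := by
    rw [abs_mul]
    calc |y| * |x - 2 * s * ((N : ℝ) ^ (m + 3) * l)| ≤ 1 / 32 * 1 :=
          mul_le_mul hy1 h1 (abs_nonneg _) (by norm_num)
      _ = 1 / 32 := by norm_num
  have h4 : |s * y ^ 2| ≤ 1 / 2048 := by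
    rw [abs_of_nonneg (by positivity)]
    calc s * y ^ 2 ≤ 1 / 2 * (1 / 1024) := mul_le_mul h2 hy2 (sq_nonneg _) (by norm_num)
      _ = 1 / 2048 := by norm_num
  calc |y * (x - 2 * s * ((N : ℝ) ^ (m + 3) * l)) - s * y ^ 2|
      ≤ |y * (x - 2 * s * ((N : ℝ) ^ (m + 3) * l))| + |s * y ^ 2| := abs_sub _ _
    _ ≤ 1 / 6 := by linarith

theorem amp_int_abs : ∫ y in (-(1 / 32) : ℝ)..(1 / 32), |y| = (1 / 32) ^ 2 := by
  have hi : ∀ u v : ℝ, IntervalIntegrable (fun y : ℝ => |y|) volume u v := fun u v =>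
    continuous_abs.intervalIntegrable u v
  rw [← intervalIntegral.integral_add_adjacent_intervals (hi _ 0) (hi 0 _)]
  have h1 : ∫ y in (-(1 / 32) : ℝ)..0, |y| = ∫ y in (-(1 / 32) : ℝ)..0, -y := by
    refine intervalIntegral.integral_congr fun y hy => ?_
    rw [Set.uIcc_of_le (by norm_num)] at hy
    exact abs_of_nonpos hy.2
  have h2 : ∫ y in (0 : ℝ)..(1 / 32), |y| = ∫ y in (0 : ℝ)..(1 / 32), y := by
    refine intervalIntegral.integral_congr fun y hy => ?_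
    rw [Set.uIcc_of_le (by norm_num)] at hy
    exact abs_of_nonneg hy.1
  rw [h1, h2, intervalIntegral.integral_neg, integral_id, integral_id]
  norm_num

theorem amp_J_le (A s : ℝ) :
    ‖∫ y in (-(1 / 32) : ℝ)..(1 / 32), e (y * A - s * y ^ 2)‖ ≤ 2 * (1 / 32) := by
  have h := intervalIntegral.norm_integral_le_of_norm_le_const (a := (-(1 / 32) : ℝ))
    (b := 1 / 32) (C := 1) (f := fun y => e (y * A - s * y ^ 2)) (fun y _ => (norm_e _).le)
  refine h.trans ?_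
  norm_num

theorem amp_J_diff (A B s : ℝ) :
    ‖(∫ y in (-(1 / 32) : ℝ)..(1 / 32), e (y * A - s * y ^ 2)) -
      ∫ y in (-(1 / 32) : ℝ)..(1 / 32), e (y * B - s * y ^ 2)‖ ≤
      2 * Real.pi * |A - B| * (1 / 32) ^ 2 := by
  have hc : ∀ A : ℝ, IntervalIntegrable (fun y : ℝ => e (y * A - s * y ^ 2)) volume
      (-(1 / 32)) (1 / 32) := fun A =>
    (continuous_e.comp (amp_cont A s)).intervalIntegrable _ _
  rw [← intervalIntegral.integral_sub (hc A) (hc B)]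
  have h := intervalIntegral.norm_integral_le_of_norm_le (μ := volume) (a := (-(1 / 32) : ℝ))
    (b := 1 / 32) (f := fun y => e (y * A - s * y ^ 2) - e (y * B - s * y ^ 2))
    (g := fun y => 2 * Real.pi * |A - B| * |y|) (by norm_num)
    (Filter.Eventually.of_forall fun y _ => ?_)
    ((continuous_const.mul continuous_abs).intervalIntegrable _ _)
  · rw [intervalIntegral.integral_const_mul, amp_int_abs] at h
    exact h
  · refine (norm_e_sub_e_le _ _).trans ?_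
    have e1 : y * A - s * y ^ 2 - (y * B - s * y ^ 2) = y * (A - B) := by ring
    rw [e1, abs_mul]
    apply le_of_eq; ring

/-- total variation, with `|th| N^{m+1} ≤ 1/600` (the variation is at most
`2 π (2 κ / 600 + κ^2) < 0.22 κ`, `κ = 1/32`) -/
theorem Amp_var (N m : ℕ) (hN : 1 ≤ N) {th x s : ℝ} (hx0 : 0 ≤ x) (hx1 : x ≤ 1) (hs : 0 ≤ s)
    (hs1 : 2 * s * (N : ℝ) ^ (2 * m + 4) ≤ 1) (hth : |th| * (N : ℝ) ^ (m + 1) ≤ 1 / 600) :
    ∑ l ∈ range (N ^ (m + 1) - 1), ‖Amp N m th x s (l + 1) - Amp N m th x s l‖ ≤ 1 / 4 * (1 / 32) := by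
  have hterm : ∀ l ∈ range (N ^ (m + 1) - 1),
      ‖Amp N m th x s (l + 1) - Amp N m th x s l‖ ≤
        2 * Real.pi * |th| * (2 * (1 / 32)) +
          2 * Real.pi * (2 * s * (N : ℝ) ^ (m + 3)) * (1 / 32) ^ 2 := by
    intro l _
    unfold Amp
    set J1 := ∫ y in (-(1 / 32) : ℝ)..(1 / 32),
      e (y * (x - 2 * s * ((N : ℝ) ^ (m + 3) * ((l + 1 : ℕ) : ℝ))) - s * y ^ 2) with hJ1
    set J0 := ∫ y in (-(1 / 32) : ℝ)..(1 / 32),
      e (y * (x - 2 * s * ((N : ℝ) ^ (m + 3) * (l : ℝ))) - s * y ^ 2) with hJ0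
    have e1 : e (th * ((l + 1 : ℕ) : ℝ)) * J1 - e (th * (l : ℝ)) * J0 =
        (e (th * ((l + 1 : ℕ) : ℝ)) - e (th * (l : ℝ))) * J1 + e (th * (l : ℝ)) * (J1 - J0) := by
      ring
    rw [e1]
    refine (norm_add_le _ _).trans (add_le_add ?_ ?_)
    · rw [norm_mul]
      refine mul_le_mul ?_ (amp_J_le _ _) (norm_nonneg _) (by positivity)
      refine (norm_e_sub_e_le _ _).trans (le_of_eq ?_)
      have : th * ((l + 1 : ℕ) : ℝ) - th * (l : ℝ) = th := by push_cast; ring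
      rw [this]
    · rw [norm_mul, norm_e, one_mul]
      refine (amp_J_diff _ _ s).trans (le_of_eq ?_)
      have : x - 2 * s * ((N : ℝ) ^ (m + 3) * ((l + 1 : ℕ) : ℝ)) -
          (x - 2 * s * ((N : ℝ) ^ (m + 3) * (l : ℝ))) = -(2 * s * (N : ℝ) ^ (m + 3)) := by
        push_cast; ring
      rw [this, abs_neg, abs_of_nonneg (by positivity)]
  refine (Finset.sum_le_sum hterm).trans ?_
  rw [Finset.sum_const, card_range, nsmul_eq_mul]
  have hM : ((N ^ (m + 1) - 1 : ℕ) : ℝ) ≤ (N : ℝ) ^ (m + 1) := by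
    have : N ^ (m + 1) - 1 ≤ N ^ (m + 1) := Nat.sub_le _ _
    exact_mod_cast this
  have hpi := Real.pi_lt_d2
  have hpi0 := Real.pi_pos
  have hX : 0 ≤ 2 * Real.pi * |th| * (2 * (1 / 32)) +
      2 * Real.pi * (2 * s * (N : ℝ) ^ (m + 3)) * (1 / 32) ^ 2 := by positivity
  refine (mul_le_mul_of_nonneg_right hM hX).trans ?_
  have e2 : (N : ℝ) ^ (m + 1) * (2 * Real.pi * |th| * (2 * (1 / 32)) +
      2 * Real.pi * (2 * s * (N : ℝ) ^ (m + 3)) * (1 / 32) ^ 2) =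
      Real.pi / 8 * (|th| * (N : ℝ) ^ (m + 1)) +
        Real.pi / 512 * (2 * s * (N : ℝ) ^ (2 * m + 4)) := by
    have : (N : ℝ) ^ (2 * m + 4) = (N : ℝ) ^ (m + 1) * (N : ℝ) ^ (m + 3) := by
      rw [← pow_add]; congr 1; ring
    rw [this]; ring
  rw [e2]
  have h1 : Real.pi / 8 * (|th| * (N : ℝ) ^ (m + 1)) ≤ Real.pi / 8 * (1 / 600) :=
    mul_le_mul_of_nonneg_left hth (by positivity)
  have h2 : Real.pi / 512 * (2 * s * (N : ℝ) ^ (2 * m + 4)) ≤ Real.pi / 512 * 1 :=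
    mul_le_mul_of_nonneg_left hs1 (by positivity)
  linarith

end Vale.Agent.P076
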