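import Mathlib
import Vale.Agent.P076.Defs

/-!
# P076: interface between the example at one scale and the gliding hump
-/

namespace Vale.Agent.P076

open MeasureTheory Complex Finset

/-- one normalised example -/
structure Blk (m : ℕ) (c C : ℝ) (N : ℕ) (H : E (m + 1) → ℂ) (T : Finset ℝ)
    (A : Set (E (m + 1))) : Prop where
  meas : Measurable H
  int : Integrable H
  memLp : MemLp H 2
  norm : ∫ η, ‖H η‖ ^ 2 ≤ 1
  supp0 : ∀ η, H η ≠ 0 → |η 0 - (N : ℝ) ^ (2 * m + 4)| ≤ (N : ℝ) ^ (m + 2) / 8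
  supp : ∀ η, H η ≠ 0 → ‖η‖ ≤ C * (N : ℝ) ^ (2 * m + 4)
  T_pos : ∀ s ∈ T, 0 < s
  T_le : ∀ s ∈ T, s ≤ 1 / N
  A_meas : MeasurableSet A
  A_ge : ENNReal.ofReal c ≤ volume A
  A_sub : ∀ x ∈ A, ∀ i, 0 ≤ x i ∧ x i ≤ 1
  low : ∀ x ∈ A, ∃ s ∈ T, c * (N : ℝ) ^ (m + 1) ≤ ‖S H 0 s x‖

end Vale.Agent.P076
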