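import Mathlib
import Vale.Agent.P076.Defs

/-!
# P076 module LARGE: the main term dominates for large `N`

Multiply by `√(2q)`: it is enough that `2 q + (5/4) q √(12 + 8 log q) ≤ N^{m+1} / 4` for
`1 ≤ q ≤ (100 N)^m`, i.e. `100^m (2 + (5/4) √(12 + 8 m log (100 N))) ≤ N / 4`, true for large `N`.
-/

namespace Vale.Agent.P076

open MeasureTheory Complex Finset

private theorem large_aux (A B : ℝ) :
    ∃ N0 : ℕ, 1 ≤ N0 ∧ ∀ N : ℕ, N0 ≤ N → A + B * Real.log N ≤ 1 / 4 * (N : ℝ) := by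
  have h1 : (fun x : ℝ => A + B * Real.log x) =o[Filter.atTop] (id : ℝ → ℝ) := by
    have ha : (fun _ : ℝ => A) =o[Filter.atTop] (id : ℝ → ℝ) :=
      Asymptotics.isLittleO_const_id_atTop A
    exact ha.add (Real.isLittleO_log_id_atTop.const_mul_left B)
  have h2 := h1.def (c := 1 / 4) (by norm_num)
  have h3 := (tendsto_natCast_atTop_atTop (R := ℝ)).eventually h2
  obtain ⟨N0, hN0⟩ := Filter.eventually_atTop.1 h3
  refine ⟨max N0 1, le_max_right _ _, fun N hN => ?_⟩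
  have h4 := hN0 N ((le_max_left _ _).trans hN)
  have h5 : ‖(id (N : ℝ) : ℝ)‖ = (N : ℝ) := by
    rw [id, Real.norm_eq_abs, abs_of_nonneg (Nat.cast_nonneg N)]
  rw [h5] at h4
  exact (Real.le_norm_self _).trans h4

theorem large (m : ℕ) : ∃ N0 : ℕ, 1 ≤ N0 ∧ ∀ N ≥ N0, ∀ q : ℕ, 1 ≤ q → q ≤ (100 * N) ^ m →
    Real.sqrt (2 * q) + 5 / 4 * Wb q ≤ 1 / 4 * ((N : ℝ) ^ (m + 1) / Real.sqrt (2 * q)) := by
  obtain ⟨N0, h01, hN0⟩ := large_aux (100 ^ m * (17 + 10 * m * Real.log 100)) (100 ^ m * (10 * m))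
  refine ⟨N0, h01, fun N hN q hq1 hq => ?_⟩
  have hN1 : (1 : ℝ) ≤ N := by exact_mod_cast h01.trans hN
  have hq1' : (1 : ℝ) ≤ q := by exact_mod_cast hq1
  have hq0 : (0 : ℝ) < q := by linarith
  have hq' : (q : ℝ) ≤ 100 ^ m * (N : ℝ) ^ m := by
    have h : (q : ℝ) ≤ ((100 * N) ^ m : ℕ) := by exact_mod_cast hq
    refine h.trans (le_of_eq ?_)
    push_cast
    rw [mul_pow]
  have hlog0 : 0 ≤ Real.log q := Real.log_nonneg hq1'
  have hlogq : Real.log q ≤ m * (Real.log 100 + Real.log N) := by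
    have h1 : Real.log q ≤ Real.log (100 ^ m * (N : ℝ) ^ m) := Real.log_le_log hq0 hq'
    rw [← mul_pow, Real.log_pow, Real.log_mul (by norm_num) (by linarith)] at h1
    exact h1
  have hs : 0 < Real.sqrt (2 * q) := Real.sqrt_pos.2 (by linarith)
  have hs2 : Real.sqrt (2 * q) * Real.sqrt (2 * q) = 2 * q := Real.mul_self_sqrt (by linarith)
  have hW : Real.sqrt (2 * q) * Wb q ≤ q * (12 + 8 * Real.log q) := by
    unfold Wb
    rw [← Real.sqrt_mul (by linarith : (0 : ℝ) ≤ 2 * q)]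
    refine Real.sqrt_le_iff.2 ⟨by positivity, ?_⟩
    have h2 : (0 : ℝ) ≤ q * q * ((12 + 8 * Real.log q) * (11 + 8 * Real.log q)) := by positivity
    nlinarith [h2]
  have hmain : 2 * (q : ℝ) + 5 / 4 * (Real.sqrt (2 * q) * Wb q) ≤ 1 / 4 * (N : ℝ) ^ (m + 1) := by
    have h1 : 2 * (q : ℝ) + 5 / 4 * (Real.sqrt (2 * q) * Wb q)
        ≤ q * (17 + 10 * Real.log q) := by linarith
    have h2 : (q : ℝ) * (17 + 10 * Real.log q)
        ≤ (100 ^ m * (N : ℝ) ^ m) * (17 + 10 * (m * (Real.log 100 + Real.log N))) :=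
      mul_le_mul hq' (by linarith) (by positivity) (by positivity)
    have h3 := hN0 N hN
    have h4 : (N : ℝ) ^ m * (100 ^ m * (17 + 10 * m * Real.log 100)
        + 100 ^ m * (10 * m) * Real.log N) ≤ (N : ℝ) ^ m * (1 / 4 * N) :=
      mul_le_mul_of_nonneg_left h3 (by positivity)
    have h5 : (N : ℝ) ^ (m + 1) = (N : ℝ) ^ m * N := pow_succ _ _
    rw [h5]
    nlinarith [h1, h2, h4]
  rw [← mul_div_assoc, le_div_iff₀ hs]
  have h6 : (Real.sqrt (2 * q) + 5 / 4 * Wb q) * Real.sqrt (2 * q)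
      = Real.sqrt (2 * q) * Real.sqrt (2 * q) + 5 / 4 * (Real.sqrt (2 * q) * Wb q) := by ring
  rw [h6, hs2]
  exact hmain

end Vale.Agent.P076
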