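import Mathlib
import Vale.Agent.P076.Basic

/-!
# P076 module GAUSS: periodicity and the complete quadratic Gauss sum

`|S|^2 = ∑_{l, l'} g l conj (g l')`; put `l = l' + h` (mod `2 q`, by `gs_periodic`), and
`g (l' + h) conj (g l') = e (b h / q - a h^2 / (4 q)) e (- a h l' / (2 q))`; the sum over `l'` mod `2 q`
is `0` unless `2 q ∣ a h`, i.e. `2 q ∣ h` (coprimality).
-/

namespace Vale.Agent.P076

open MeasureTheory Complex Finset

theorem gs_periodic (q : ℕ) (hq : 0 < q) (a b : ℤ) (l : ℕ) : gs q a b (l + 2 * q) = gs q a b l := by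
  have hq' : (q : ℝ) ≠ 0 := by positivity
  unfold gs
  have h : (b : ℝ) * ((l + 2 * q : ℕ) : ℝ) / q - (a : ℝ) * ((l + 2 * q : ℕ) : ℝ) ^ 2 / (4 * q) =
      ((b : ℝ) * l / q - (a : ℝ) * (l : ℝ) ^ 2 / (4 * q)) + ((2 * b - a * l - a * q : ℤ) : ℝ) := by
    push_cast
    field_simp
    ring
  rw [h, e_add_int]

lemma gauss_shift {M : ℕ} {f : ℕ → ℂ} (hf : ∀ l, f (l + M) = f l) (h : ℕ) :
    ∑ l ∈ range M, f (l + h) = ∑ l ∈ range M, f l := by
  induction h with
  | zero => simp
  | succ h ih =>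
    have h1 : ∑ l ∈ range (M + 1), f (l + h) = ∑ l ∈ range M, f (l + (h + 1)) + f h := by
      rw [sum_range_succ', Nat.zero_add]
      refine congrArg (· + f h) (sum_congr rfl fun l _ => ?_)
      rw [add_right_comm, add_assoc]
    have h2 : ∑ l ∈ range (M + 1), f (l + h) = ∑ l ∈ range M, f (l + h) + f h := by
      rw [sum_range_succ, add_comm M h, hf]
    rw [← ih]
    exact add_right_cancel (h1.symm.trans h2)

lemma gauss_pow (x : ℝ) (l : ℕ) : e (x * l) = e x ^ l := by
  induction l with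
  | zero => simp [e_zero]
  | succ l ih =>
    rw [pow_succ, ← ih, ← e_add]
    push_cast
    ring_nf

lemma gauss_geom {M : ℕ} (k : ℤ) (hM : 0 < M) :
    ∑ l ∈ range M, e ((k : ℝ) / M * l) = if (M : ℤ) ∣ k then (M : ℂ) else 0 := by
  have hM' : (M : ℝ) ≠ 0 := by positivity
  have hpow : e ((k : ℝ) / M) ^ M = 1 := by
    rw [← gauss_pow, div_mul_cancel₀ _ hM', e_int]
  simp only [gauss_pow]
  split_ifs with h
  · obtain ⟨j, rfl⟩ := h
    have h1 : e (((M * j : ℤ) : ℝ) / M) = 1 := by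
      push_cast
      rw [mul_div_cancel_left₀ _ hM', e_int]
    rw [h1]
    simp
  · have h1 : e ((k : ℝ) / M) ≠ 1 := by
      intro h1
      obtain ⟨j, hj⟩ := (e_eq_one_iff _).1 h1
      rw [div_eq_iff hM'] at hj
      refine h ⟨j, ?_⟩
      have : (k : ℝ) = ((M * j : ℤ) : ℝ) := by
        push_cast
        linarith
      exact_mod_cast this
    have h2 := geom_sum_mul (e ((k : ℝ) / M)) M
    rw [hpow, sub_self] at h2
    rcases mul_eq_zero.1 h2 with h3 | h3
    · exact h3
    · exact absurd (sub_eq_zero.1 h3) h1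

lemma gauss_prod (q : ℕ) (hq : 0 < q) (a b : ℤ) (l h : ℕ) :
    gs q a b (l + h) * (starRingEnd ℂ) (gs q a b l) =
      gs q a b h * e (((-(a * h) : ℤ) : ℝ) / ((2 * q : ℕ) : ℝ) * l) := by
  have hq' : (q : ℝ) ≠ 0 := by positivity
  unfold gs
  rw [← e_neg, ← e_add, ← e_add]
  congr 1
  push_cast
  field_simp
  ring

theorem gauss (q : ℕ) (hq : 0 < q) (a : ℕ) (b : ℤ) (h : Nat.Coprime a (2 * q)) :
    ‖∑ l ∈ range (2 * q), gs q a b l‖ ^ 2 = 2 * q := by
  have hM : 0 < 2 * q := by omega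
  have key : (∑ l ∈ range (2 * q), gs q a b l) *
      (starRingEnd ℂ) (∑ l ∈ range (2 * q), gs q a b l) = ((2 * q : ℕ) : ℂ) := by
    have h1 : (∑ l ∈ range (2 * q), gs q a b l) *
        (starRingEnd ℂ) (∑ l ∈ range (2 * q), gs q a b l) =
        ∑ l ∈ range (2 * q), ∑ k ∈ range (2 * q),
          gs q a b (l + k) * (starRingEnd ℂ) (gs q a b l) := by
      rw [map_sum, mul_sum]
      refine sum_congr rfl fun l _ => ?_
      rw [← sum_mul]
      congr 1
      rw [← gauss_shift (gs_periodic q hq a b) l]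
      exact sum_congr rfl fun k _ => by rw [add_comm]
    rw [h1, sum_comm]
    have h2 : ∀ k ∈ range (2 * q), ∑ l ∈ range (2 * q),
        gs q a b (l + k) * (starRingEnd ℂ) (gs q a b l) =
        if k = 0 then ((2 * q : ℕ) : ℂ) else 0 := by
      intro k hk
      rw [mem_range] at hk
      have h3 : ∑ l ∈ range (2 * q), gs q a b (l + k) * (starRingEnd ℂ) (gs q a b l) =
          gs q a b k * ∑ l ∈ range (2 * q),
            e (((-((a : ℤ) * k) : ℤ) : ℝ) / ((2 * q : ℕ) : ℝ) * l) := by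
        rw [mul_sum]
        exact sum_congr rfl fun l _ => gauss_prod q hq a b l k
      rw [h3, gauss_geom _ hM]
      by_cases hk0 : k = 0
      · subst hk0
        simp [gs, e_zero]
      · have h4 : ¬ (((2 * q : ℕ) : ℤ) ∣ -((a : ℤ) * k)) := by
          rw [dvd_neg]
          intro h5
          have h6 : 2 * q ∣ a * k := by exact_mod_cast h5
          have h7 : 2 * q ∣ k := h.symm.dvd_of_dvd_mul_left h6
          exact hk0 (Nat.eq_zero_of_dvd_of_lt h7 hk)
        rw [if_neg h4, if_neg hk0, mul_zero]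
    rw [sum_congr rfl h2, sum_ite_eq' (range (2 * q)) 0, if_pos (mem_range.2 hM)]
  rw [Complex.mul_conj, Complex.normSq_eq_norm_sq] at key
  have h5 : (‖∑ l ∈ range (2 * q), gs q a b l‖ ^ 2 : ℝ) = ((2 * q : ℕ) : ℝ) := by
    exact_mod_cast key
  rw [h5]
  push_cast
  ring

end Vale.Agent.P076
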