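import Mathlib
import Vale.Agent.P076.Basic

/-!
# P076 module WEYL: incomplete quadratic sums

`|∑_{l<M} g l|^2 ≤ M + 2 ∑_{h=1}^{M-1} |∑_{l<M-h} g (l+h) conj (g l)|`, and the inner sum is
`|∑_l e (- a h l / (2 q))| ≤ 1 / (2 ‖a h / (2 q)‖)` (`norm_geom_le`).  For `h = 1, ..., 2 q - 1` the
residues `a h mod 2 q` are distinct and nonzero (coprimality), so the total is at most
`M + ∑_{k=1}^{2q-1} 1 / ‖k / (2q)‖ ≤ 2 q + 2 ∑_{k=1}^{q} 2 q / k ≤ 2 q + 4 q (1 + log q)`.
-/

namespace Vale.Agent.P076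

open MeasureTheory Complex Finset

/-- Weyl differencing, exact form -/
theorem weyl_diff (g : ℕ → ℂ) (hg : ∀ l, ‖g l‖ = 1) (M : ℕ) :
    ‖∑ l ∈ range M, g l‖ ^ 2 = M + 2 * (∑ h ∈ range M, ∑ l ∈ range (M - 1 - h),
      g (l + (h + 1)) * (starRingEnd ℂ) (g l)).re := by
  induction M with
  | zero => simp
  | succ M ih =>
    have hT : ∑ h ∈ range (M + 1), ∑ l ∈ range (M + 1 - 1 - h),
        g (l + (h + 1)) * (starRingEnd ℂ) (g l) =
        (∑ h ∈ range M, ∑ l ∈ range (M - 1 - h), g (l + (h + 1)) * (starRingEnd ℂ) (g l)) +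
          g M * (starRingEnd ℂ) (∑ l ∈ range M, g l) := by
      rw [sum_range_succ]
      have e0 : M + 1 - 1 - M = 0 := by omega
      rw [e0, range_zero, sum_empty, add_zero, map_sum, mul_sum,
        ← sum_range_reflect (fun l => g M * (starRingEnd ℂ) (g l)) M, ← sum_add_distrib]
      refine sum_congr rfl fun h hh => ?_
      rw [mem_range] at hh
      have e1 : M + 1 - 1 - h = (M - 1 - h) + 1 := by omega
      rw [e1, sum_range_succ]
      have e2 : M - 1 - h + (h + 1) = M := by omega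
      rw [e2]
    rw [hT, sum_range_succ]
    have h1 : ‖(∑ l ∈ range M, g l) + g M‖ ^ 2 = ‖∑ l ∈ range M, g l‖ ^ 2 + ‖g M‖ ^ 2 +
        2 * (g M * (starRingEnd ℂ) (∑ l ∈ range M, g l)).re := by
      rw [← Complex.normSq_eq_norm_sq, Complex.normSq_add, Complex.normSq_eq_norm_sq,
        Complex.normSq_eq_norm_sq]
      congr 2
      rw [← Complex.conj_re]
      congr 1
      rw [map_mul, Complex.conj_conj, mul_comm]
    rw [h1, ih, hg, Complex.add_re]
    push_cast
    ring

/-- the weight of a residue -/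
noncomputable def wps (q t : ℕ) : ℝ := if t ≤ q then (q : ℝ) / t else (q : ℝ) / (2 * q - t)

theorem wps_nonneg (q t : ℕ) (ht : t ≤ 2 * q) : 0 ≤ wps q t := by
  unfold wps
  have : (t : ℝ) ≤ 2 * q := by exact_mod_cast ht
  split_ifs
  · positivity
  · exact div_nonneg (by positivity) (by linarith)

theorem sum_wps (q : ℕ) (hq : 0 < q) :
    ∑ t ∈ range (2 * q - 1), wps q (t + 1) ≤ 2 * q * (1 + Real.log q) := by
  have hH : ∑ t ∈ range q, (q : ℝ) / ((t + 1 : ℕ) : ℝ) ≤ q * (1 + Real.log q) := by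
    have h1 := harmonic_le_one_add_log q
    have h2 : ((harmonic q : ℚ) : ℝ) = ∑ t ∈ range q, (1 : ℝ) / ((t + 1 : ℕ) : ℝ) := by
      unfold harmonic
      push_cast
      refine sum_congr rfl fun t _ => ?_
      rw [one_div]
    rw [h2] at h1
    have h3 : ∑ t ∈ range q, (q : ℝ) / ((t + 1 : ℕ) : ℝ) =
        q * ∑ t ∈ range q, (1 : ℝ) / ((t + 1 : ℕ) : ℝ) := by
      rw [mul_sum]
      refine sum_congr rfl fun t _ => ?_
      rw [mul_one_div]
    rw [h3]
    exact mul_le_mul_of_nonneg_left h1 (Nat.cast_nonneg q)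
  have e0 : 2 * q - 1 = q + (q - 1) := by omega
  rw [e0, sum_range_add]
  have p1 : ∑ t ∈ range q, wps q (t + 1) = ∑ t ∈ range q, (q : ℝ) / ((t + 1 : ℕ) : ℝ) := by
    refine sum_congr rfl fun t ht => ?_
    rw [mem_range] at ht
    unfold wps
    rw [if_pos (by omega)]
  have p2 : ∑ t ∈ range (q - 1), wps q (q + t + 1) ≤
      ∑ t ∈ range q, (q : ℝ) / ((t + 1 : ℕ) : ℝ) := by
    have h1 : ∑ t ∈ range (q - 1), wps q (q + t + 1) =
        ∑ t ∈ range (q - 1), (q : ℝ) / ((t + 1 : ℕ) : ℝ) := by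
      rw [← sum_range_reflect (fun t => (q : ℝ) / ((t + 1 : ℕ) : ℝ)) (q - 1)]
      refine sum_congr rfl fun t ht => ?_
      rw [mem_range] at ht
      unfold wps
      rw [if_neg (by omega)]
      congr 1
      have h2 : ((q - 1 - 1 - t + 1 : ℕ) : ℝ) + ((q + t + 1 : ℕ) : ℝ) = 2 * q := by
        have h3 : (q - 1 - 1 - t + 1) + (q + t + 1) = 2 * q := by omega
        exact_mod_cast h3
      linarith
    rw [h1]
    refine sum_le_sum_of_subset_of_nonneg ?_ fun t _ _ => by positivity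
    exact range_mono (by omega)
  rw [p1]
  linarith

/-- the inner sums -/
theorem weyl_inner (q : ℕ) (hq : 0 < q) (a : ℕ) (b : ℤ) (h' m : ℕ)
    (ht : (a * h') % (2 * q) ≠ 0) :
    ‖∑ l ∈ range m, gs q a b (l + h') * (starRingEnd ℂ) (gs q a b l)‖ ≤
      wps q ((a * h') % (2 * q)) := by
  have hq0 : (0 : ℝ) < q := by exact_mod_cast hq
  obtain ⟨t, htd⟩ : ∃ t, t = (a * h') % (2 * q) := ⟨_, rfl⟩
  obtain ⟨d, hd⟩ : ∃ d, d = (a * h') / (2 * q) := ⟨_, rfl⟩
  have hdec : a * h' = 2 * q * d + t := by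
    rw [htd, hd]
    exact (Nat.div_add_mod _ _).symm
  have htq : t < 2 * q := by
    rw [htd]
    exact Nat.mod_lt _ (by omega)
  have ht1 : 1 ≤ t := by
    rw [htd]
    omega
  rw [← htd]
  have hterm : ∀ l : ℕ, gs q a b (l + h') * (starRingEnd ℂ) (gs q a b l) =
      e (((b : ℝ) * h' / q - (a : ℝ) * (h' : ℝ) ^ 2 / (4 * q)) +
        (-(((a * h' : ℕ) : ℝ) / (2 * q))) * l) := by
    intro l
    unfold gs
    rw [← e_neg, ← e_add]
    congr 1
    push_cast
    field_simp
    ring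
  simp_rw [hterm]
  have hcast : ((a * h' : ℕ) : ℝ) = 2 * q * d + t := by exact_mod_cast hdec
  have ht0 : (0 : ℝ) < t := by exact_mod_cast ht1
  have htq' : (t : ℝ) < 2 * q := by exact_mod_cast htq
  by_cases hc : t ≤ q
  · have hc' : (t : ℝ) ≤ q := by exact_mod_cast hc
    have e1 : -(((a * h' : ℕ) : ℝ) / (2 * q)) - ((-(d : ℤ) : ℤ) : ℝ) = -(t / (2 * q)) := by
      rw [hcast]
      push_cast
      field_simp
      ring
    have habs : |-(((a * h' : ℕ) : ℝ) / (2 * q)) - ((-(d : ℤ) : ℤ) : ℝ)| = t / (2 * q) := by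
      rw [e1, abs_neg, abs_of_nonneg (by positivity)]
    have key := norm_geom_le (-(((a * h' : ℕ) : ℝ) / (2 * q))) (-(d : ℤ)) (by
      rw [habs, div_le_div_iff₀ (by positivity) (by norm_num)]
      linarith) (by
      intro h0
      rw [h0, sub_self, abs_zero] at habs
      have : 0 < (t : ℝ) / (2 * q) := by positivity
      linarith) ((b : ℝ) * h' / q - (a : ℝ) * (h' : ℝ) ^ 2 / (4 * q)) m
    rw [habs] at key
    refine key.trans (le_of_eq ?_)
    unfold wps
    rw [if_pos hc]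
    field_simp
  · have hc' : (q : ℝ) < t := by exact_mod_cast not_le.1 hc
    have e1 : -(((a * h' : ℕ) : ℝ) / (2 * q)) - ((-(d : ℤ) - 1 : ℤ) : ℝ) =
        (2 * q - t) / (2 * q) := by
      rw [hcast]
      push_cast
      field_simp
      ring
    have hpos : (0 : ℝ) < 2 * q - t := by linarith
    have habs : |-(((a * h' : ℕ) : ℝ) / (2 * q)) - ((-(d : ℤ) - 1 : ℤ) : ℝ)| =
        (2 * q - t) / (2 * q) := by
      rw [e1, abs_of_nonneg (by positivity)]
    have key := norm_geom_le (-(((a * h' : ℕ) : ℝ) / (2 * q))) (-(d : ℤ) - 1) (by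
      rw [habs, div_le_div_iff₀ (by positivity) (by norm_num)]
      linarith) (by
      intro h0
      rw [h0, sub_self, abs_zero] at habs
      have : 0 < (2 * (q : ℝ) - t) / (2 * q) := by positivity
      linarith) ((b : ℝ) * h' / q - (a : ℝ) * (h' : ℝ) ^ 2 / (4 * q)) m
    rw [habs] at key
    refine key.trans (le_of_eq ?_)
    unfold wps
    rw [if_neg hc]
    field_simp

theorem weyl (q : ℕ) (hq : 0 < q) (a : ℕ) (b : ℤ) (h : Nat.Coprime a (2 * q)) (M : ℕ)
    (hM : M ≤ 2 * q) : ‖∑ l ∈ range M, gs q a b l‖ ≤ Wb q := by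
  have hq0 : (0 : ℝ) < q := by exact_mod_cast hq
  have hlog : 0 ≤ Real.log q := Real.log_natCast_nonneg q
  unfold Wb
  refine Real.le_sqrt_of_sq_le ?_
  rw [weyl_diff (gs q a b) (fun l => norm_e _) M]
  rcases M with _ | M'
  · simp only [Nat.cast_zero, range_zero, sum_empty, Complex.zero_re, mul_zero, add_zero]
    positivity
  rw [sum_range_succ]
  have e0 : M' + 1 - 1 - M' = 0 := by omega
  rw [e0, range_zero, sum_empty, add_zero]
  have hne : ∀ k ∈ range M', (a * (k + 1)) % (2 * q) ≠ 0 := by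
    intro k hk h0
    rw [mem_range] at hk
    have h1 : 2 * q ∣ a * (k + 1) := Nat.dvd_of_mod_eq_zero h0
    have h2 : 2 * q ∣ k + 1 := h.symm.dvd_of_dvd_mul_left h1
    have := Nat.le_of_dvd (by omega) h2
    omega
  have h1 : (∑ k ∈ range M', ∑ l ∈ range (M' + 1 - 1 - k),
      gs q a b (l + (k + 1)) * (starRingEnd ℂ) (gs q a b l)).re ≤
      ∑ k ∈ range M', wps q ((a * (k + 1)) % (2 * q)) := by
    refine (Complex.re_le_norm _).trans ((norm_sum_le _ _).trans (sum_le_sum fun k hk => ?_))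
    exact weyl_inner q hq a b (k + 1) _ (hne k hk)
  have h2 : ∑ k ∈ range M', wps q ((a * (k + 1)) % (2 * q)) ≤
      ∑ t ∈ range (2 * q - 1), wps q (t + 1) := by
    have h3 : ∑ k ∈ range M', wps q ((a * (k + 1)) % (2 * q)) =
        ∑ t ∈ (range M').image (fun k => (a * (k + 1)) % (2 * q) - 1), wps q (t + 1) := by
      rw [sum_image]
      · refine sum_congr rfl fun k hk => ?_
        have := hne k hk
        congr 1
        omega
      · intro k hk k' hk' hkk
        have n1 := hne k hk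
        have n2 := hne k' hk'
        simp only [coe_range, Set.mem_Iio] at hk hk'
        have h4 : (a * (k + 1)) % (2 * q) = (a * (k' + 1)) % (2 * q) := by
          simp only at hkk
          omega
        have h5 : a * (k + 1) ≡ a * (k' + 1) [MOD 2 * q] := h4
        have h6 : k + 1 ≡ k' + 1 [MOD 2 * q] :=
          Nat.ModEq.cancel_left_of_coprime (by rw [Nat.gcd_comm]; exact h) h5
        have h7 := Nat.ModEq.eq_of_lt_of_lt h6 (by omega) (by omega)
        omega
    rw [h3]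
    refine sum_le_sum_of_subset_of_nonneg ?_ fun t ht _ => ?_
    · intro t ht
      rw [mem_image] at ht
      obtain ⟨k, hk, rfl⟩ := ht
      have := hne k hk
      have h8 : (a * (k + 1)) % (2 * q) < 2 * q := Nat.mod_lt _ (by omega)
      rw [mem_range]
      omega
    · rw [mem_range] at ht
      exact wps_nonneg q (t + 1) (by omega)
  have h3 := sum_wps q hq
  have h4 : ((M' + 1 : ℕ) : ℝ) ≤ 2 * q := by exact_mod_cast hM
  have h5 : (q : ℝ) * (6 + 4 * Real.log q) = 2 * q + 2 * (2 * q * (1 + Real.log q)) := by ring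
  rw [h5]
  linarith

end Vale.Agent.P076
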