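import Mathlib
import Vale.Agent.P076.Gauss
import Vale.Agent.P076.Weyl

/-!
# P076 module PART: partial sums of any length

Split `M = 2 q k + r`, `r < 2 q`: the sum is `k S + (incomplete sum of length r)`, `|S| = √(2q)`.
-/

namespace Vale.Agent.P076

open MeasureTheory Complex Finset

private theorem part_split (q : ℕ) (hq : 0 < q) (a : ℕ) (b : ℤ) (k r : ℕ) :
    ∑ l ∈ range (2 * q * k + r), gs q a b l =
      k * ∑ l ∈ range (2 * q), gs q a b l + ∑ l ∈ range r, gs q a b l := by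
  induction k with
  | zero => simp
  | succ k ih =>
    have h1 : 2 * q * (k + 1) + r = 2 * q + (2 * q * k + r) := by ring
    rw [h1, Finset.sum_range_add]
    have h2 : ∀ x ∈ range (2 * q * k + r), gs q a b (2 * q + x) = gs q a b x := by
      intro x _
      rw [add_comm (2 * q) x]
      exact gs_periodic q hq a b x
    rw [Finset.sum_congr rfl h2, ih]
    push_cast
    ring

private theorem part_norm (q : ℕ) (hq : 0 < q) (a : ℕ) (b : ℤ) (h : Nat.Coprime a (2 * q)) :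
    ‖∑ l ∈ range (2 * q), gs q a b l‖ = Real.sqrt (2 * q) := by
  rw [← gauss q hq a b h, Real.sqrt_sq (norm_nonneg _)]

theorem part_upper (q : ℕ) (hq : 0 < q) (a : ℕ) (b : ℤ) (h : Nat.Coprime a (2 * q)) (M : ℕ) :
    ‖∑ l ∈ range M, gs q a b l‖ ≤ M / Real.sqrt (2 * q) + Wb q := by
  have hq0 : (0 : ℝ) < 2 * q := by positivity
  have hs : 0 < Real.sqrt (2 * q) := Real.sqrt_pos.2 hq0
  have h1 : M = 2 * q * (M / (2 * q)) + M % (2 * q) := (Nat.div_add_mod M (2 * q)).symm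
  have h2 : M % (2 * q) < 2 * q := Nat.mod_lt _ (by omega)
  obtain ⟨k, hk⟩ : ∃ k, k = M / (2 * q) := ⟨_, rfl⟩
  obtain ⟨r, hr⟩ : ∃ r, r = M % (2 * q) := ⟨_, rfl⟩
  rw [← hk, ← hr] at h1
  rw [← hr] at h2
  have h3 := weyl q hq a b h r h2.le
  have h4 : ‖∑ l ∈ range M, gs q a b l‖ ≤ k * Real.sqrt (2 * q) + Wb q := by
    rw [h1, part_split q hq a b k r]
    refine (norm_add_le _ _).trans (add_le_add ?_ h3)
    rw [norm_mul, part_norm q hq a b h, Complex.norm_natCast]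
  refine h4.trans (add_le_add ?_ le_rfl)
  rw [le_div_iff₀ hs, mul_assoc, Real.mul_self_sqrt hq0.le]
  have h5 : (2 * q * k + r : ℕ) = M := h1.symm
  have h6 : ((2 * q * k + r : ℕ) : ℝ) = M := by rw [h5]
  push_cast at h6
  have h7 : (0 : ℝ) ≤ r := Nat.cast_nonneg r
  linarith

theorem part_lower (q : ℕ) (hq : 0 < q) (a : ℕ) (b : ℤ) (h : Nat.Coprime a (2 * q)) (M : ℕ) :
    M / Real.sqrt (2 * q) - Real.sqrt (2 * q) - Wb q ≤ ‖∑ l ∈ range M, gs q a b l‖ := by
  have hq0 : (0 : ℝ) < 2 * q := by positivity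
  have hs : 0 < Real.sqrt (2 * q) := Real.sqrt_pos.2 hq0
  have h1 : M = 2 * q * (M / (2 * q)) + M % (2 * q) := (Nat.div_add_mod M (2 * q)).symm
  have h2 : M % (2 * q) < 2 * q := Nat.mod_lt _ (by omega)
  obtain ⟨k, hk⟩ : ∃ k, k = M / (2 * q) := ⟨_, rfl⟩
  obtain ⟨r, hr⟩ : ∃ r, r = M % (2 * q) := ⟨_, rfl⟩
  rw [← hk, ← hr] at h1
  rw [← hr] at h2
  have h3 := weyl q hq a b h r h2.le
  have h4 : k * Real.sqrt (2 * q) - Wb q ≤ ‖∑ l ∈ range M, gs q a b l‖ := by
    rw [h1, part_split q hq a b k r]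
    have h5 := norm_sub_norm_le ((k : ℂ) * ∑ l ∈ range (2 * q), gs q a b l)
      (-∑ l ∈ range r, gs q a b l)
    rw [norm_neg, sub_neg_eq_add, norm_mul, part_norm q hq a b h, Complex.norm_natCast] at h5
    linarith
  refine le_trans ?_ h4
  have h6 : ((2 * q * k + r : ℕ) : ℝ) = M := by rw [← h1]
  push_cast at h6
  have h7 : (r : ℝ) ≤ 2 * q := by exact_mod_cast h2.le
  have h8 : (M : ℝ) / Real.sqrt (2 * q) ≤ k * Real.sqrt (2 * q) + Real.sqrt (2 * q) := by
    rw [div_le_iff₀ hs, add_mul, mul_assoc, Real.mul_self_sqrt hq0.le]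
    linarith
  linarith

end Vale.Agent.P076
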