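import Mathlib
import Vale.Agent.P076.Part
import Vale.Agent.P076.Abel
import Vale.Agent.P076.Amp
import Vale.Agent.P076.Large

/-!
# P076 module COORD: lower bound for the arithmetic coordinates

`I1_g1`, `abel_lower` with `al = 1/32`, `V = 1/4 * (1/32)`, `X`, `Y` from `part_lower`, `part_upper`,
`large` in the form `h`.
-/

namespace Vale.Agent.P076

open MeasureTheory Complex Finset

theorem coord1 (N m q a : ℕ) (b : ℤ) (hN : 1 ≤ N) (hq : 0 < q) (hc : Nat.Coprime a (2 * q))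
    (h : Real.sqrt (2 * q) + 5 / 4 * Wb q ≤ 1 / 4 * ((N : ℝ) ^ (m + 1) / Real.sqrt (2 * q)))
    {x s th : ℝ} (hx0 : 0 ≤ x) (hx1 : x ≤ 1) (hs : 0 ≤ s)
    (hs1 : 2 * s * (N : ℝ) ^ (2 * m + 4) ≤ 1) (hs2 : s * ((N : ℝ) ^ (m + 3)) ^ 2 = a / (4 * q))
    (hx : (N : ℝ) ^ (m + 3) * x = b / q + th) (hth : |th| * (N : ℝ) ^ (m + 1) ≤ 1 / 600) :
    1 / 64 * ((N : ℝ) ^ (m + 1) / Real.sqrt (2 * q)) ≤ ‖I1 (g1 N m) x s‖ := by
  have hL : 0 < N ^ (m + 1) := pow_pos (by omega) _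
  have hs2' : s * ((N : ℝ) ^ (m + 3)) ^ 2 = ((a : ℤ) : ℝ) / (4 * q) := by
    rw [hs2, Int.cast_natCast]
  rw [I1_g1 N m q hq (a : ℤ) b hx hs2']
  have hsq : 0 < Real.sqrt (2 * q) := Real.sqrt_pos.2 (by positivity)
  have hY : ∀ M ≤ N ^ (m + 1), ‖∑ l ∈ range M, gs q (a : ℤ) b l‖
      ≤ ((N ^ (m + 1) : ℕ) : ℝ) / Real.sqrt (2 * q) + Wb q := by
    intro M hM
    refine (part_upper q hq a b hc M).trans ?_
    have h1 : (M : ℝ) ≤ ((N ^ (m + 1) : ℕ) : ℝ) := by exact_mod_cast hM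
    have h2 := div_le_div_of_nonneg_right h1 hsq.le
    linarith
  have hA := abel_lower (gs q (a : ℤ) b) (Amp N m th x s) (N ^ (m + 1)) (1 / 32)
    (1 / 4 * (1 / 32)) _ _ hL
    (Amp_lower N m hN hx0 hx1 hs hs1 (Nat.sub_lt hL Nat.one_pos)) (by norm_num)
    (Amp_var N m hN hx0 hx1 hs hs1 hth) (part_lower q hq a b hc (N ^ (m + 1))) hY
  refine le_trans ?_ hA
  push_cast
  linarith

end Vale.Agent.P076
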