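import Mathlib
import Vale.Agent.P076.Defs

/-!
# P076 module DIR: simultaneous Dirichlet approximation (pigeonhole)

`P^m + 1` points `k y` (`0 ≤ k ≤ P^m`), `P^m` boxes of side `1/P` for the fractional parts.
-/

namespace Vale.Agent.P076

theorem dirichlet (m P : ℕ) (hP : 1 ≤ P) (y : Fin m → ℝ) :
    ∃ q : ℕ, 1 ≤ q ∧ q ≤ P ^ m ∧ ∀ j, ∃ b : ℤ, |(q : ℝ) * y j - b| ≤ 1 / P := by
  have hP0 : (0 : ℝ) < P := by exact_mod_cast hP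
  have hlt : ∀ x : ℝ, ⌊(P : ℝ) * Int.fract x⌋₊ < P := by
    intro x
    rw [Nat.floor_lt (mul_nonneg hP0.le (Int.fract_nonneg x))]
    have := Int.fract_lt_one x
    nlinarith
  let F : Fin (P ^ m + 1) → (Fin m → Fin P) := fun k j =>
    ⟨⌊(P : ℝ) * Int.fract ((k : ℕ) * y j)⌋₊, hlt _⟩
  have hcard : Fintype.card (Fin m → Fin P) < Fintype.card (Fin (P ^ m + 1)) := by
    simp
  obtain ⟨k1, k2, hne, hF⟩ := Fintype.exists_ne_map_eq_of_card_lt F hcard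
  wlog hlt' : k1 < k2 generalizing k1 k2
  · exact this k2 k1 hne.symm hF.symm (lt_of_le_of_ne (not_lt.1 hlt') hne.symm)
  have hk : (k1 : ℕ) < (k2 : ℕ) := hlt'
  have hk2 : (k2 : ℕ) ≤ P ^ m := Nat.lt_succ_iff.1 k2.2
  refine ⟨(k2 : ℕ) - (k1 : ℕ), by omega, by omega, fun j => ?_⟩
  refine ⟨⌊((k2 : ℕ) : ℝ) * y j⌋ - ⌊((k1 : ℕ) : ℝ) * y j⌋, ?_⟩
  have h1 : ⌊(P : ℝ) * Int.fract ((k1 : ℕ) * y j)⌋₊ = ⌊(P : ℝ) * Int.fract ((k2 : ℕ) * y j)⌋₊ :=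
    congrArg (fun f : Fin m → Fin P => (f j : ℕ)) hF
  rw [Nat.cast_sub hk.le, Int.cast_sub]
  have h2 : (((k2 : ℕ) : ℝ) - ((k1 : ℕ) : ℝ)) * y j -
      ((⌊((k2 : ℕ) : ℝ) * y j⌋ : ℝ) - (⌊((k1 : ℕ) : ℝ) * y j⌋ : ℝ)) =
      Int.fract (((k2 : ℕ) : ℝ) * y j) - Int.fract (((k1 : ℕ) : ℝ) * y j) := by
    unfold Int.fract
    ring
  rw [h2]
  set u := Int.fract (((k2 : ℕ) : ℝ) * y j) with hu
  set v := Int.fract (((k1 : ℕ) : ℝ) * y j) with hv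
  have hu0 : 0 ≤ (P : ℝ) * u := mul_nonneg hP0.le (Int.fract_nonneg _)
  have hv0 : 0 ≤ (P : ℝ) * v := mul_nonneg hP0.le (Int.fract_nonneg _)
  have h3 := Nat.floor_le hu0
  have h4 := Nat.floor_le hv0
  have h5 := Nat.lt_floor_add_one ((P : ℝ) * u)
  have h6 := Nat.lt_floor_add_one ((P : ℝ) * v)
  rw [h1] at h4 h6
  have h7 : |(u - v) * P| ≤ 1 := by
    rw [abs_le]
    constructor <;> nlinarith
  rw [abs_mul, abs_of_pos hP0] at h7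
  rw [le_div_iff₀ hP0]
  exact h7

end Vale.Agent.P076
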