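import Mathlib
import Vale.Agent.P076.Defs

/-!
# P076 module NEAR: measure of near-integers
-/

namespace Vale.Agent.P076

open MeasureTheory

/-- `x ∈ [0, 1]` with `k x` within `ε` of an integer: union over `0 ≤ b ≤ k` of intervals of length
`2 ε / k` -/
theorem near_one (k : ℕ) (hk : 1 ≤ k) (ε : ℝ) (h0 : 0 ≤ ε) (h1 : ε ≤ 1 / 2) :
    volume {x : ℝ | 0 ≤ x ∧ x ≤ 1 ∧ ∃ b : ℤ, |(k : ℝ) * x - b| ≤ ε} ≤ ENNReal.ofReal (4 * ε) := by
  have hk1 : (1 : ℝ) ≤ k := by exact_mod_cast hk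
  have hk0 : (0 : ℝ) < k := by linarith
  have hsub : {x : ℝ | 0 ≤ x ∧ x ≤ 1 ∧ ∃ b : ℤ, |(k : ℝ) * x - b| ≤ ε} ⊆
      ⋃ b ∈ Finset.range (k + 1), Set.Icc (((b : ℝ) - ε) / k) (((b : ℝ) + ε) / k) := by
    rintro x ⟨hx0, hx1, b, hb⟩
    rw [abs_le] at hb
    have hkx0 : 0 ≤ (k : ℝ) * x := by positivity
    have hkx1 : (k : ℝ) * x ≤ k := by nlinarith
    have hb0 : 0 ≤ b := by
      by_contra h
      have h2 : b ≤ -1 := by omega
      have h3 : (b : ℝ) ≤ -1 := by exact_mod_cast h2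
      linarith [hb.2]
    have hbk : b ≤ k := by
      by_contra h
      have h2 : (k : ℤ) + 1 ≤ b := by omega
      have h3 : (k : ℝ) + 1 ≤ b := by exact_mod_cast h2
      linarith [hb.1]
    obtain ⟨c, rfl⟩ := Int.eq_ofNat_of_zero_le hb0
    rw [Set.mem_iUnion₂]
    refine ⟨c, Finset.mem_range.2 (by omega), ?_⟩
    rw [Int.cast_natCast] at hb
    constructor
    · rw [div_le_iff₀ hk0]
      linarith [hb.1]
    · rw [le_div_iff₀ hk0]
      linarith [hb.2]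
  refine (measure_mono hsub).trans ((measure_biUnion_finset_le _ _).trans ?_)
  have h2 : ∀ b ∈ Finset.range (k + 1),
      volume (Set.Icc (((b : ℝ) - ε) / k) (((b : ℝ) + ε) / k)) = ENNReal.ofReal (2 * ε / k) := by
    intro b _
    rw [Real.volume_Icc]
    congr 1
    ring
  rw [Finset.sum_congr rfl h2, Finset.sum_const, Finset.card_range, nsmul_eq_mul,
    ← ENNReal.ofReal_natCast, ← ENNReal.ofReal_mul (by positivity)]
  apply ENNReal.ofReal_le_ofReal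
  rw [← mul_div_assoc, div_le_iff₀ hk0]
  push_cast
  nlinarith

theorem near_prod (m k : ℕ) (hk : 1 ≤ k) (ε : ℝ) (h0 : 0 ≤ ε) (h1 : ε ≤ 1 / 2) :
    volume {x : Fin m → ℝ | ∀ j, 0 ≤ x j ∧ x j ≤ 1 ∧ ∃ b : ℤ, |(k : ℝ) * x j - b| ≤ ε} ≤
      ENNReal.ofReal ((4 * ε) ^ m) := by
  have h2 : {x : Fin m → ℝ | ∀ j, 0 ≤ x j ∧ x j ≤ 1 ∧ ∃ b : ℤ, |(k : ℝ) * x j - b| ≤ ε} =
      Set.pi Set.univ
        (fun _ : Fin m => {x : ℝ | 0 ≤ x ∧ x ≤ 1 ∧ ∃ b : ℤ, |(k : ℝ) * x - b| ≤ ε}) := by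
    ext x
    simp [Set.mem_pi]
  rw [h2, volume_pi_pi, Finset.prod_const, Finset.card_univ, Fintype.card_fin,
    ENNReal.ofReal_pow (by positivity)]
  exact pow_le_pow_left₀ zero_le (near_one k hk ε h0 h1) m

end Vale.Agent.P076
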