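import Mathlib
import Vale.Agent.P076.Defs

/-!
# P076 module TOT: few integers have a small totient ratio

`1 - 1/p ≥ 4^{-1/p}` for `p ≥ 2` (convexity of `4^{-u}` on `[0, 1/2]`), so
`φ(q)/q = ∏_{p ∣ q} (1 - 1/p) ≥ 4^{-σ(q)}`, `σ(q) = ∑_{p ∣ q} 1/p`; and
`∑_{q ≤ Q} σ(q) ≤ Q ∑_p 1/p² ≤ Q` (crude: `∑_{k ≥ 2} 1/k² ≤ 1`), Markov.
-/

namespace Vale.Agent.P076

theorem tot_aux (u : ℝ) (h0 : 0 ≤ u) (h1 : u ≤ 1 / 2) : (4 : ℝ) ^ (-u) ≤ 1 - u := by
  have h := Real.geom_mean_le_arith_mean2_weighted (w₁ := 1 - 2 * u) (w₂ := 2 * u) (p₁ := 1)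
    (p₂ := 1 / 2) (by linarith) (by linarith) (by norm_num) (by norm_num) (by ring)
  rw [Real.one_rpow, one_mul] at h
  have h2 : (4 : ℝ) ^ (-u) = (1 / 2 : ℝ) ^ (2 * u) := by
    rw [Real.rpow_mul (by norm_num), Real.rpow_neg (by norm_num), ← Real.inv_rpow (by norm_num)]
    norm_num
  rw [h2]
  linarith

theorem totient_ratio (q : ℕ) (hq : 1 ≤ q) :
    (4 : ℝ) ^ (-(∑ p ∈ q.primeFactors, (1 : ℝ) / p)) * q ≤ Nat.totient q := by
  have h1 : (Nat.totient q : ℝ) = q * ∏ p ∈ q.primeFactors, (1 - (p : ℝ)⁻¹) := by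
    have := Nat.totient_eq_mul_prod_factors q
    have h2 : ((Nat.totient q : ℚ) : ℝ) = ((q * ∏ p ∈ q.primeFactors, (1 - (p : ℚ)⁻¹) : ℚ) : ℝ) := by
      rw [this]
    push_cast at h2
    exact h2
  rw [h1, mul_comm]
  apply mul_le_mul_of_nonneg_left _ (Nat.cast_nonneg q)
  rw [← Finset.sum_neg_distrib, Real.rpow_sum_of_pos (by norm_num)]
  apply Finset.prod_le_prod
  · intro p _
    positivity
  · intro p hp
    have hp2 : (2 : ℝ) ≤ p := by exact_mod_cast (Nat.prime_of_mem_primeFactors hp).two_le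
    have h3 : (1 : ℝ) / p ≤ 1 / 2 := one_div_le_one_div_of_le (by norm_num) hp2
    have h4 := tot_aux (1 / p) (by positivity) h3
    rw [← one_div]
    exact h4

theorem tot_sum_sq (Q : ℕ) : ∑ k ∈ Finset.Icc 2 Q, (1 : ℝ) / (k : ℝ) ^ 2 ≤ 1 := by
  have h : ∀ n : ℕ, ∑ k ∈ Finset.Icc 2 (n + 1), (1 : ℝ) / (k : ℝ) ^ 2 ≤ 1 - 1 / ((n : ℝ) + 1) := by
    intro n
    induction n with
    | zero => simp
    | succ n ih =>
      rw [Finset.sum_Icc_succ_top (by omega)]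
      have h1 : (1 : ℝ) / ((n + 1 + 1 : ℕ) : ℝ) ^ 2 ≤ 1 / ((n : ℝ) + 1) - 1 / ((n : ℝ) + 1 + 1) := by
        push_cast
        rw [div_sub_div _ _ (by positivity) (by positivity),
          div_le_div_iff₀ (by positivity) (by positivity)]
        have hn : (0 : ℝ) ≤ n := Nat.cast_nonneg n
        nlinarith
      push_cast at h1 ⊢
      linarith
  rcases Q with _ | n
  · simp
  · refine (h n).trans ?_
    have : (0 : ℝ) ≤ 1 / ((n : ℝ) + 1) := by positivity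
    linarith

theorem tot_sum (Q : ℕ) :
    ∑ q ∈ Finset.Icc 1 Q, ∑ p ∈ q.primeFactors, (1 : ℝ) / p ≤ Q := by
  have h1 : ∀ q ∈ Finset.Icc 1 Q, ∑ p ∈ q.primeFactors, (1 : ℝ) / p ≤
      ∑ p ∈ Finset.Icc 2 Q, if p ∣ q then (1 : ℝ) / p else 0 := by
    intro q hq
    rw [Finset.mem_Icc] at hq
    rw [← Finset.sum_filter]
    apply Finset.sum_le_sum_of_subset_of_nonneg
    · intro p hp
      rw [Finset.mem_filter, Finset.mem_Icc]
      have h2 := Nat.dvd_of_mem_primeFactors hp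
      exact ⟨⟨(Nat.prime_of_mem_primeFactors hp).two_le, (Nat.le_of_dvd hq.1 h2).trans hq.2⟩, h2⟩
    · intro p _ _
      positivity
  refine (Finset.sum_le_sum h1).trans ?_
  rw [Finset.sum_comm]
  have h2 : ∀ p ∈ Finset.Icc 2 Q, ∑ q ∈ Finset.Icc 1 Q, (if p ∣ q then (1 : ℝ) / p else 0) ≤
      Q * ((1 : ℝ) / (p : ℝ) ^ 2) := by
    intro p hp
    rw [Finset.mem_Icc] at hp
    have hp0 : (0 : ℝ) < p := by exact_mod_cast (by omega : 0 < p)
    rw [← Finset.sum_filter, Finset.sum_const, nsmul_eq_mul]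
    have h3 : (Finset.Icc 1 Q).filter (fun q => p ∣ q) = (Finset.Ioc 0 Q).filter (fun q => p ∣ q) := by
      ext q
      simp only [Finset.mem_filter, Finset.mem_Icc, Finset.mem_Ioc]
      omega
    rw [h3, Nat.Ioc_filter_dvd_card_eq_div]
    have h4 : ((Q / p : ℕ) : ℝ) ≤ (Q : ℝ) / p := Nat.cast_div_le
    calc ((Q / p : ℕ) : ℝ) * (1 / p) ≤ (Q : ℝ) / p * (1 / p) :=
          mul_le_mul_of_nonneg_right h4 (by positivity)
      _ = _ := by
          field_simp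
  refine (Finset.sum_le_sum h2).trans ?_
  rw [← Finset.mul_sum]
  calc (Q : ℝ) * ∑ k ∈ Finset.Icc 2 Q, (1 : ℝ) / (k : ℝ) ^ 2 ≤ Q * 1 :=
        mul_le_mul_of_nonneg_left (tot_sum_sq Q) (Nat.cast_nonneg Q)
    _ = Q := mul_one _

theorem card_bad (Q : ℕ) (B : ℝ) (hB : 0 < B) :
    (((Finset.Icc 1 Q).filter fun q => (Nat.totient q : ℝ) < (4 : ℝ) ^ (-B) * q).card : ℝ) ≤ Q / B := by
  rw [le_div_iff₀ hB]
  have h1 : ∀ q ∈ (Finset.Icc 1 Q).filter fun q => (Nat.totient q : ℝ) < (4 : ℝ) ^ (-B) * q,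
      B ≤ ∑ p ∈ q.primeFactors, (1 : ℝ) / p := by
    intro q hq
    rw [Finset.mem_filter, Finset.mem_Icc] at hq
    obtain ⟨⟨hq1, _⟩, h2⟩ := hq
    have h3 := totient_ratio q hq1
    have hq0 : (0 : ℝ) < q := by exact_mod_cast hq1
    have h4 : (4 : ℝ) ^ (-(∑ p ∈ q.primeFactors, (1 : ℝ) / p)) < (4 : ℝ) ^ (-B) :=
      lt_of_mul_lt_mul_right (h3.trans_lt h2) hq0.le
    have h5 := (Real.rpow_lt_rpow_left_iff (by norm_num : (1 : ℝ) < 4)).1 h4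
    linarith
  calc (((Finset.Icc 1 Q).filter fun q => (Nat.totient q : ℝ) < (4 : ℝ) ^ (-B) * q).card : ℝ) * B
      = ∑ q ∈ (Finset.Icc 1 Q).filter fun q => (Nat.totient q : ℝ) < (4 : ℝ) ^ (-B) * q, B := by
        rw [Finset.sum_const, nsmul_eq_mul]
    _ ≤ ∑ q ∈ (Finset.Icc 1 Q).filter fun q => (Nat.totient q : ℝ) < (4 : ℝ) ^ (-B) * q,
        ∑ p ∈ q.primeFactors, (1 : ℝ) / p := Finset.sum_le_sum h1
    _ ≤ ∑ q ∈ Finset.Icc 1 Q, ∑ p ∈ q.primeFactors, (1 : ℝ) / p := by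
        apply Finset.sum_le_sum_of_subset_of_nonneg (Finset.filter_subset _ _)
        intro q _ _
        positivity
    _ ≤ Q := tot_sum Q

end Vale.Agent.P076
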