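import Mathlib
import Vale.Agent.P076.Dir
import Vale.Agent.P076.Near
import Vale.Agent.P076.Tot

/-!
# P076 module GOOD1: the arithmetic coordinates, at least half of the cube

`P = 100 N`, `Q = P^m`, `B = 4 * 4^m`.  For `x' ∈ [0,1]^m` Dirichlet (applied to `N^{m+3} x'`) gives
`q ≤ Q`.  Remove the `x'` approximated by some `q` with `4 q < 25 N^m`: measure at most
`(25/4) N^m (4/P)^m ≤ 1/4` (`m ≥ 1`), and by some bad `q` (`φ(q) < 4^{-B} q`): at most
`(Q/B) (4/P)^m = 1/4`.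
-/

namespace Vale.Agent.P076

open MeasureTheory

/-- good denominators -/
noncomputable def Qs (N m : ℕ) : Finset ℕ := (Finset.Icc 1 ((100 * N) ^ m)).filter fun q =>
  25 * N ^ m ≤ 4 * q ∧ (4 : ℝ) ^ (-(4 * 4 ^ m : ℝ)) * q ≤ Nat.totient q

/-- `x'` approximated by `q` -/
def Bq (N m q : ℕ) : Set (Fin m → ℝ) :=
  {x | ∀ j, 0 ≤ x j ∧ x j ≤ 1 ∧ ∃ b : ℤ, |(q : ℝ) * (N : ℝ) ^ (m + 3) * x j - b| ≤ 1 / (100 * (N : ℝ))}

theorem Bq_measurable (N m q : ℕ) : MeasurableSet (Bq N m q) := by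
  have h : Bq N m q = ⋂ j, ({x : Fin m → ℝ | 0 ≤ x j} ∩ {x : Fin m → ℝ | x j ≤ 1} ∩
      ⋃ b : ℤ, {x : Fin m → ℝ | |(q : ℝ) * (N : ℝ) ^ (m + 3) * x j - b| ≤ 1 / (100 * (N : ℝ))}) := by
    ext x
    simp only [Bq, Set.mem_ofPred_eq, Set.mem_iInter, Set.mem_inter_iff, Set.mem_iUnion, and_assoc]
  rw [h]
  refine MeasurableSet.iInter fun j => ?_
  refine ((measurableSet_le measurable_const (measurable_pi_apply j)).inter
    (measurableSet_le (measurable_pi_apply j) measurable_const)).inter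
    (MeasurableSet.iUnion fun b => ?_)
  exact measurableSet_le (by fun_prop) measurable_const

theorem good1_Bq_vol (N m q : ℕ) (hN : 1 ≤ N) (hq : 1 ≤ q) :
    volume (Bq N m q) ≤ ENNReal.ofReal ((4 * (1 / (100 * (N : ℝ)))) ^ m) := by
  have hN' : (1 : ℝ) ≤ N := by exact_mod_cast hN
  have h := near_prod m (q * N ^ (m + 3)) (Nat.mul_pos hq (Nat.pow_pos hN))
    (1 / (100 * (N : ℝ))) (by positivity) (by
      rw [div_le_div_iff₀ (by positivity) (by norm_num)]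
      linarith)
  refine le_trans (measure_mono ?_) h
  intro x hx j
  obtain ⟨h1, h2, b, h3⟩ := hx j
  refine ⟨h1, h2, b, ?_⟩
  push_cast
  exact h3

theorem good1_cube (m : ℕ) : volume {x : Fin m → ℝ | ∀ j, 0 ≤ x j ∧ x j ≤ 1} = 1 := by
  have h : {x : Fin m → ℝ | ∀ j, 0 ≤ x j ∧ x j ≤ 1} =
      Set.pi Set.univ (fun _ => Set.Icc (0 : ℝ) 1) := by
    ext x
    rw [Set.mem_univ_pi]
    rfl
  rw [h, volume_pi_pi]
  simp

theorem good1 (N m : ℕ) (hN : 1 ≤ N) (hm : 1 ≤ m) :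
    ENNReal.ofReal (1 / 2) ≤ volume (⋃ q ∈ Qs N m, Bq N m q) := by
  classical
  have hN' : (1 : ℝ) ≤ N := by exact_mod_cast hN
  have hN0 : (0 : ℝ) < N := by linarith
  set cube : Set (Fin m → ℝ) := {x : Fin m → ℝ | ∀ j, 0 ≤ x j ∧ x j ≤ 1} with hcube
  set S1 : Finset ℕ := (Finset.Icc 1 ((100 * N) ^ m)).filter fun q => 4 * q < 25 * N ^ m with hS1
  set S2 : Finset ℕ := (Finset.Icc 1 ((100 * N) ^ m)).filter fun q =>
    (Nat.totient q : ℝ) < (4 : ℝ) ^ (-(4 * 4 ^ m : ℝ)) * q with hS2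
  have hcov : cube ⊆ (⋃ q ∈ Qs N m, Bq N m q) ∪ ((⋃ q ∈ S1, Bq N m q) ∪ ⋃ q ∈ S2, Bq N m q) := by
    intro x hx
    obtain ⟨q, hq1, hq2, hb⟩ := dirichlet m (100 * N) (by omega)
      (fun j => (N : ℝ) ^ (m + 3) * x j)
    have hB : x ∈ Bq N m q := by
      intro j
      obtain ⟨b, hb⟩ := hb j
      refine ⟨(hx j).1, (hx j).2, b, ?_⟩
      push_cast at hb
      rw [← mul_assoc] at hb
      exact hb
    have hIcc : q ∈ Finset.Icc 1 ((100 * N) ^ m) := Finset.mem_Icc.2 ⟨hq1, hq2⟩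
    by_cases h1 : 4 * q < 25 * N ^ m
    · refine Or.inr (Or.inl ?_)
      simp only [Set.mem_iUnion]
      exact ⟨q, Finset.mem_filter.2 ⟨hIcc, h1⟩, hB⟩
    · by_cases h2 : (Nat.totient q : ℝ) < (4 : ℝ) ^ (-(4 * 4 ^ m : ℝ)) * q
      · refine Or.inr (Or.inr ?_)
        simp only [Set.mem_iUnion]
        exact ⟨q, Finset.mem_filter.2 ⟨hIcc, h2⟩, hB⟩
      · refine Or.inl ?_
        simp only [Set.mem_iUnion]
        exact ⟨q, Finset.mem_filter.2 ⟨hIcc, not_lt.1 h1, not_lt.1 h2⟩, hB⟩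
  set v : ℝ := (4 * (1 / (100 * (N : ℝ)))) ^ m with hv
  have hv0 : 0 ≤ v := by positivity
  have hvol : ∀ s ⊆ Finset.Icc 1 ((100 * N) ^ m), ∀ K : ℝ, (s.card : ℝ) ≤ K → K * v ≤ 1 / 4 →
      volume (⋃ q ∈ s, Bq N m q) ≤ ENNReal.ofReal (1 / 4) := by
    intro s hs K hK hKv
    calc volume (⋃ q ∈ s, Bq N m q) ≤ ∑ q ∈ s, volume (Bq N m q) :=
          measure_biUnion_finset_le _ _
      _ ≤ ∑ _q ∈ s, ENNReal.ofReal v := Finset.sum_le_sum fun q hq =>
          good1_Bq_vol N m q hN (Finset.mem_Icc.1 (hs hq)).1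
      _ = ENNReal.ofReal ((s.card : ℝ) * v) := by
          rw [Finset.sum_const, nsmul_eq_mul, ENNReal.ofReal_mul (by positivity),
            ENNReal.ofReal_natCast]
      _ ≤ _ := ENNReal.ofReal_le_ofReal
          ((mul_le_mul_of_nonneg_right hK hv0).trans hKv)
  have h1 : volume (⋃ q ∈ S1, Bq N m q) ≤ ENNReal.ofReal (1 / 4) := by
    refine hvol S1 (Finset.filter_subset _ _) (25 / 4 * (N : ℝ) ^ m) ?_ ?_
    · have hsub : S1 ⊆ Finset.Icc 1 (25 * N ^ m / 4) := by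
        intro q hq
        rw [hS1, Finset.mem_filter, Finset.mem_Icc] at hq
        rw [Finset.mem_Icc]
        omega
      have h2 := Finset.card_le_card hsub
      rw [Nat.card_Icc, Nat.add_sub_cancel] at h2
      have h3 : ((25 * N ^ m / 4 : ℕ) : ℝ) ≤ ((25 * N ^ m : ℕ) : ℝ) / 4 := Nat.cast_div_le
      push_cast at h3
      have h4 : (S1.card : ℝ) ≤ ((25 * N ^ m / 4 : ℕ) : ℝ) := by exact_mod_cast h2
      linarith
    · have e1 : 25 / 4 * (N : ℝ) ^ m * v = 25 / 4 * (1 / 25) ^ m := by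
        rw [hv, mul_assoc, ← mul_pow]
        congr 2
        field_simp
        norm_num
      rw [e1]
      have e2 : ((1 : ℝ) / 25) ^ m ≤ (1 / 25) ^ 1 :=
        pow_le_pow_of_le_one (by norm_num) (by norm_num) hm
      linarith
  have h2 : volume (⋃ q ∈ S2, Bq N m q) ≤ ENNReal.ofReal (1 / 4) := by
    refine hvol S2 (Finset.filter_subset _ _) (((100 * N) ^ m : ℕ) / (4 * 4 ^ m : ℝ)) ?_ ?_
    · exact card_bad ((100 * N) ^ m) (4 * 4 ^ m) (by positivity)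
    · have e1 : (((100 * N) ^ m : ℕ) : ℝ) / (4 * 4 ^ m : ℝ) * v = 1 / 4 := by
        rw [hv]
        push_cast
        rw [div_mul_eq_mul_div, ← mul_pow]
        have : 100 * (N : ℝ) * (4 * (1 / (100 * (N : ℝ)))) = 4 := by field_simp
        rw [this]
        field_simp
      rw [e1]
  have h3 : (1 : ENNReal) ≤ volume (⋃ q ∈ Qs N m, Bq N m q) +
      (ENNReal.ofReal (1 / 4) + ENNReal.ofReal (1 / 4)) := by
    rw [← good1_cube m]
    refine (measure_mono hcov).trans ((measure_union_le _ _).trans ?_)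
    exact add_le_add le_rfl ((measure_union_le _ _).trans (add_le_add h1 h2))
  have h4 : ENNReal.ofReal (1 / 4) + ENNReal.ofReal (1 / 4) = ENNReal.ofReal (1 / 2) := by
    rw [← ENNReal.ofReal_add (by norm_num) (by norm_num)]
    norm_num
  rw [h4] at h3
  have h5 : (1 : ENNReal) = ENNReal.ofReal (1 / 2) + ENNReal.ofReal (1 / 2) := by
    rw [← ENNReal.ofReal_add (by norm_num) (by norm_num)]
    norm_num
  rw [h5] at h3
  exact (ENNReal.add_le_add_iff_right ENNReal.ofReal_ne_top).1 h3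

end Vale.Agent.P076
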