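import Mathlib
import Vale.Agent.P076.Defs

/-!
# P076 module XZERO: the first coordinate

`K = 2 q N^2`; the `a ≤ K` coprime to `2 q` are odd, their number is `N^2 φ(2q)`, and the intervals
`[(a-1)/K, (a+1)/K] ⊆ [0,1]` have disjoint interiors and length `2/K`.
-/

namespace Vale.Agent.P076

open MeasureTheory

/-- good first coordinates for the denominator `q` -/
def X0 (N q : ℕ) : Set ℝ := {x : ℝ | 0 ≤ x ∧ x ≤ 1 ∧ ∃ a : ℕ, 1 ≤ a ∧ a ≤ 2 * q * N ^ 2 ∧
    Nat.Coprime a (2 * q) ∧
    |x - (a : ℝ) / (2 * (q : ℝ) * (N : ℝ) ^ 2)| ≤ 1 / (2 * (q : ℝ) * (N : ℝ) ^ 2)}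

theorem X0_measurable (N q : ℕ) : MeasurableSet (X0 N q) := by
  have h : X0 N q = Set.Icc 0 1 ∩ ⋃ a ∈ {a : ℕ | 1 ≤ a ∧ a ≤ 2 * q * N ^ 2 ∧
      Nat.Coprime a (2 * q)}, {x : ℝ | |x - (a : ℝ) / (2 * (q : ℝ) * (N : ℝ) ^ 2)|
        ≤ 1 / (2 * (q : ℝ) * (N : ℝ) ^ 2)} := by
    ext x
    simp only [X0, Set.mem_ofPred_eq, Set.mem_inter_iff, Set.mem_Icc, Set.mem_iUnion, exists_prop]
    constructor
    · rintro ⟨h0, h1, a, ha1, ha2, ha3, ha4⟩
      exact ⟨⟨h0, h1⟩, a, ⟨ha1, ha2, ha3⟩, ha4⟩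
    · rintro ⟨⟨h0, h1⟩, a, ⟨ha1, ha2, ha3⟩, ha4⟩
      exact ⟨h0, h1, a, ha1, ha2, ha3, ha4⟩
  rw [h]
  refine measurableSet_Icc.inter ?_
  refine MeasurableSet.biUnion (Set.to_countable _) (fun a _ => ?_)
  refine IsClosed.measurableSet ?_
  exact isClosed_le (by fun_prop) continuous_const

private theorem xzero_count (L M : ℕ) :
    ((Finset.range (M * L)).filter (fun x => L.Coprime x)).card = M * Nat.totient L := by
  induction M with
  | zero => simp
  | succ M ih =>
    have h1 : Finset.range ((M + 1) * L) = Finset.range (M * L) ∪ Finset.Ico (M * L) (M * L + L) := by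
      ext x
      simp only [Finset.mem_range, Finset.mem_union, Finset.mem_Ico]
      have : (M + 1) * L = M * L + L := by ring
      rw [this]
      omega
    have hd : Disjoint ((Finset.range (M * L)).filter (fun x => L.Coprime x))
        ((Finset.Ico (M * L) (M * L + L)).filter (fun x => L.Coprime x)) := by
      refine Finset.disjoint_filter_filter ?_
      rw [Finset.disjoint_left]
      intro x hx hx2
      rw [Finset.mem_range] at hx
      rw [Finset.mem_Ico] at hx2
      omega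
    rw [h1, Finset.filter_union, Finset.card_union_of_disjoint hd, ih,
      Nat.filter_coprime_Ico_eq_totient]
    ring

theorem X0_volume (N q : ℕ) (hN : 1 ≤ N) (hq : 1 ≤ q) :
    ENNReal.ofReal ((Nat.totient q : ℝ) / q) ≤ volume (X0 N q) := by
  set K : ℝ := 2 * (q : ℝ) * (N : ℝ) ^ 2 with hK
  have hN' : (1 : ℝ) ≤ N := by exact_mod_cast hN
  have hq' : (1 : ℝ) ≤ q := by exact_mod_cast hq
  have hKpos : 0 < K := by positivity
  set A : Finset ℕ := (Finset.range (N ^ 2 * (2 * q))).filter (fun x => (2 * q).Coprime x) with hA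
  have hAcard : A.card = N ^ 2 * Nat.totient (2 * q) := xzero_count _ _
  have hAodd : ∀ a ∈ A, a % 2 = 1 := by
    intro a ha
    have h1 : (2 * q).Coprime a := (Finset.mem_filter.1 ha).2
    have h2 : Nat.Coprime 2 a := Nat.Coprime.coprime_dvd_left (Dvd.intro _ rfl) h1
    rcases Nat.mod_two_eq_zero_or_one a with h3 | h3
    · exfalso
      have h4 : 2 ∣ a := Nat.dvd_of_mod_eq_zero h3
      have h5 := Nat.Coprime.eq_one_of_dvd h2 h4
      omega
    · exact h3
  have hKA : ∀ a ∈ A, (a : ℝ) + 1 ≤ K := by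
    intro a ha
    have h1 : a < N ^ 2 * (2 * q) := Finset.mem_range.1 (Finset.mem_filter.1 ha).1
    have h2 : a + 1 ≤ N ^ 2 * (2 * q) := h1
    have h3 : ((a + 1 : ℕ) : ℝ) ≤ ((N ^ 2 * (2 * q) : ℕ) : ℝ) := by exact_mod_cast h2
    push_cast at h3
    rw [hK]
    linarith
  have hsub : (⋃ a ∈ A, Set.Ioo (((a : ℝ) - 1) / K) (((a : ℝ) + 1) / K)) ⊆ X0 N q := by
    intro x hx
    simp only [Set.mem_iUnion, exists_prop] at hx
    obtain ⟨a, ha, hx1, hx2⟩ := hx
    have hodd := hAodd a ha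
    have ha1 : 1 ≤ a := by omega
    have ha1' : (1 : ℝ) ≤ a := by exact_mod_cast ha1
    have hle := hKA a ha
    have h0 : 0 ≤ ((a : ℝ) - 1) / K := div_nonneg (by linarith) hKpos.le
    have h1 : ((a : ℝ) + 1) / K ≤ 1 := by
      rw [div_le_one hKpos]; exact hle
    refine ⟨by linarith, by linarith, a, ha1, ?_, (Finset.mem_filter.1 ha).2.symm, ?_⟩
    · have := Finset.mem_range.1 (Finset.mem_filter.1 ha).1
      have h2 : N ^ 2 * (2 * q) = 2 * q * N ^ 2 := by ring
      omega
    · rw [← hK, abs_le]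
      have e1 : ((a : ℝ) - 1) / K = a / K - 1 / K := by ring
      have e2 : ((a : ℝ) + 1) / K = a / K + 1 / K := by ring
      constructor <;> linarith
  refine le_trans ?_ (measure_mono hsub)
  rw [measure_biUnion_finset]
  · have hvol : ∀ a ∈ A, volume (Set.Ioo (((a : ℝ) - 1) / K) (((a : ℝ) + 1) / K))
        = ENNReal.ofReal (2 / K) := by
      intro a _
      rw [Real.volume_Ioo]
      congr 1
      ring
    rw [Finset.sum_congr rfl hvol, Finset.sum_const, hAcard, nsmul_eq_mul,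
      ← ENNReal.ofReal_natCast, ← ENNReal.ofReal_mul (by positivity)]
    refine ENNReal.ofReal_le_ofReal ?_
    have htot : Nat.totient q ≤ Nat.totient (2 * q) :=
      Nat.le_of_dvd (Nat.totient_pos.2 (by omega)) (Nat.totient_dvd_of_dvd (Dvd.intro_left 2 rfl))
    have htot' : (Nat.totient q : ℝ) ≤ Nat.totient (2 * q) := by exact_mod_cast htot
    have e3 : ((N ^ 2 * Nat.totient (2 * q) : ℕ) : ℝ) * (2 / K)
        = (Nat.totient (2 * q) : ℝ) / q := by
      rw [hK]
      push_cast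
      field_simp
    rw [e3]
    gcongr
  · intro a ha b hb hab
    have hao := hAodd a ha
    have hbo := hAodd b hb
    show Disjoint (Set.Ioo (((a : ℝ) - 1) / K) (((a : ℝ) + 1) / K))
      (Set.Ioo (((b : ℝ) - 1) / K) (((b : ℝ) + 1) / K))
    rw [Set.Ioo_disjoint_Ioo]
    rcases lt_or_gt_of_ne hab with h | h
    · have h2 : a + 2 ≤ b := by omega
      have h2' : (a : ℝ) + 2 ≤ b := by exact_mod_cast h2
      refine le_trans (min_le_left _ _) (le_trans ?_ (le_max_right _ _))
      gcongr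
      linarith
    · have h2 : b + 2 ≤ a := by omega
      have h2' : (b : ℝ) + 2 ≤ a := by exact_mod_cast h2
      refine le_trans (min_le_right _ _) (le_trans ?_ (le_max_left _ _))
      gcongr
      linarith
  · intro a _
    exact measurableSet_Ioo

end Vale.Agent.P076
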