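import Mathlib
import Vale.Agent.P076.Good1
import Vale.Agent.P076.XZero

/-!
# P076 module GOOD: measure of the good set

`MeasurableEquiv.piFinSuccAbove` / `Fin.cons`: the set contains `{(x0, x') : ∃ q ∈ Qs, x' ∈ Bq q, x0 ∈ X0 q}`,
whose sections over `x' ∈ ⋃ Bq` have measure at least `φ(q)/q ≥ 4^{-4·4^m}` (`Measure.prod_apply`).
-/

namespace Vale.Agent.P076

open MeasureTheory

theorem good_measurable (N m : ℕ) : MeasurableSet (good N m) := by
  unfold good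
  have hc : ∀ i : Fin (m + 1), Measurable fun x : E (m + 1) => x i := fun i => by fun_prop
  refine MeasurableSet.inter (s₁ := {x : E (m + 1) | ∀ i, 0 ≤ x i ∧ x i ≤ 1})
    (s₂ := {x : E (m + 1) | ∃ q a : ℕ, 25 * N ^ m ≤ 4 * q ∧ q ≤ (100 * N) ^ m ∧
    1 ≤ a ∧ a ≤ 2 * q * N ^ 2 ∧ Nat.Coprime a (2 * q) ∧
    |(x 0 : ℝ) - (a : ℝ) / (2 * (q : ℝ) * (N : ℝ) ^ 2)| ≤ 1 / (2 * (q : ℝ) * (N : ℝ) ^ 2) ∧
    ∀ j : Fin m, ∃ b : ℤ, |(q : ℝ) * (N : ℝ) ^ (m + 3) * (x j.succ : ℝ) - b|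
      ≤ 1 / (100 * (N : ℝ))}) ?_ ?_
  · have e1 : {x : E (m + 1) | ∀ i, 0 ≤ x i ∧ x i ≤ 1}
        = ⋂ i : Fin (m + 1), ({x : E (m + 1) | 0 ≤ x i} ∩ {x : E (m + 1) | x i ≤ 1}) := by
      ext x
      simp
    rw [e1]
    refine MeasurableSet.iInter (fun i => ?_)
    exact (measurableSet_le measurable_const (hc i)).inter
      (measurableSet_le (hc i) measurable_const)
  · have e2 : {x : E (m + 1) | ∃ q a : ℕ, 25 * N ^ m ≤ 4 * q ∧ q ≤ (100 * N) ^ m ∧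
        1 ≤ a ∧ a ≤ 2 * q * N ^ 2 ∧ Nat.Coprime a (2 * q) ∧
        |(x 0 : ℝ) - (a : ℝ) / (2 * (q : ℝ) * (N : ℝ) ^ 2)| ≤ 1 / (2 * (q : ℝ) * (N : ℝ) ^ 2) ∧
        ∀ j : Fin m, ∃ b : ℤ, |(q : ℝ) * (N : ℝ) ^ (m + 3) * (x j.succ : ℝ) - b|
          ≤ 1 / (100 * (N : ℝ))}
        = ⋃ q : ℕ, ⋃ a : ℕ, ({x : E (m + 1) | 25 * N ^ m ≤ 4 * q ∧ q ≤ (100 * N) ^ m ∧
        1 ≤ a ∧ a ≤ 2 * q * N ^ 2 ∧ Nat.Coprime a (2 * q)} ∩
        ({x : E (m + 1) | |(x 0 : ℝ) - (a : ℝ) / (2 * (q : ℝ) * (N : ℝ) ^ 2)|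
          ≤ 1 / (2 * (q : ℝ) * (N : ℝ) ^ 2)} ∩
        ⋂ j : Fin m, ⋃ b : ℤ, {x : E (m + 1) |
          |(q : ℝ) * (N : ℝ) ^ (m + 3) * (x j.succ : ℝ) - b| ≤ 1 / (100 * (N : ℝ))})) := by
      ext x
      simp only [Set.mem_ofPred_eq, Set.mem_iUnion, Set.mem_inter_iff, Set.mem_iInter]
      constructor
      · rintro ⟨q, a, h1, h2, h3, h4, h5, h6, h7⟩
        exact ⟨q, a, ⟨h1, h2, h3, h4, h5⟩, h6, h7⟩
      · rintro ⟨q, a, ⟨h1, h2, h3, h4, h5⟩, h6, h7⟩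
        exact ⟨q, a, h1, h2, h3, h4, h5, h6, h7⟩
    rw [e2]
    refine MeasurableSet.iUnion (fun q => MeasurableSet.iUnion (fun a => ?_))
    refine (MeasurableSet.const _).inter (MeasurableSet.inter ?_ ?_)
    · exact measurableSet_le (by fun_prop) measurable_const
    · refine MeasurableSet.iInter (fun j => MeasurableSet.iUnion (fun b => ?_))
      exact measurableSet_le (by fun_prop) measurable_const

theorem good_volume_le (N m : ℕ) : volume (good N m) ≤ 1 := by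
  have hsub : good N m ⊆ (WithLp.ofLp : E (m + 1) → (Fin (m + 1) → ℝ)) ⁻¹'
      (Set.Icc (fun _ => (0 : ℝ)) (fun _ => 1)) := by
    rintro x ⟨hx, _⟩
    rw [Set.mem_preimage, Set.mem_Icc]
    exact ⟨fun i => (hx i).1, fun i => (hx i).2⟩
  refine (measure_mono hsub).trans ?_
  rw [(PiLp.volume_preserving_ofLp (Fin (m + 1))).measure_preimage
    measurableSet_Icc.nullMeasurableSet, Real.volume_Icc_pi]
  simp

private theorem good_T_sub (N m : ℕ) (x : Fin (m + 1) → ℝ)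
    (h : ∃ q ∈ Qs N m, (fun j : Fin m => x j.succ) ∈ Bq N m q ∧ x 0 ∈ X0 N q) :
    (WithLp.toLp 2 x : E (m + 1)) ∈ good N m := by
  obtain ⟨q, hq, hB, h0, h1, a, ha1, ha2, ha3, ha4⟩ := h
  have hq1 := Finset.mem_filter.1 hq
  have hq2 := Finset.mem_Icc.1 hq1.1
  refine ⟨?_, q, a, hq1.2.1, hq2.2, ha1, ha2, ha3, ha4, fun j => (hB j).2.2⟩
  intro i
  refine Fin.cases ?_ (fun j => ?_) i
  · exact ⟨h0, h1⟩
  · exact ⟨(hB j).1, (hB j).2.1⟩

theorem good_volume (N m : ℕ) (hN : 1 ≤ N) (hm : 1 ≤ m) :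
    ENNReal.ofReal (1 / 2 * (4 : ℝ) ^ (-(4 * 4 ^ m : ℝ))) ≤ volume (good N m) := by
  set c : ℝ := (4 : ℝ) ^ (-(4 * 4 ^ m : ℝ)) with hc
  have hcpos : 0 < c := by positivity
  -- the product set
  set T : Set (ℝ × (Fin m → ℝ)) := ⋃ q ∈ Qs N m, (X0 N q) ×ˢ (Bq N m q) with hT
  have hTm : MeasurableSet T :=
    MeasurableSet.biUnion (Set.to_countable _)
      (fun q _ => (X0_measurable N q).prod (Bq_measurable N m q))
  have hTvol : ENNReal.ofReal (1 / 2 * c) ≤ volume T := by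
    rw [show (volume : Measure (ℝ × (Fin m → ℝ))) = (volume : Measure ℝ).prod volume from rfl,
      Measure.prod_apply_symm hTm]
    set U : Set (Fin m → ℝ) := ⋃ q ∈ Qs N m, Bq N m q with hU
    have hUm : MeasurableSet U :=
      MeasurableSet.biUnion (Set.to_countable _) (fun q _ => Bq_measurable N m q)
    have h1 : ∫⁻ y, U.indicator (fun _ => ENNReal.ofReal c) y ∂(volume : Measure (Fin m → ℝ))
        ≤ ∫⁻ y, volume ((fun x : ℝ => (x, y)) ⁻¹' T) ∂(volume : Measure (Fin m → ℝ)) := by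
      refine lintegral_mono (fun y => ?_)
      by_cases hy : y ∈ U
      · rw [Set.indicator_of_mem hy]
        obtain ⟨q, hq, hyq⟩ : ∃ q ∈ Qs N m, y ∈ Bq N m q := by
          simpa [hU] using hy
        have hsub : X0 N q ⊆ (fun x : ℝ => (x, y)) ⁻¹' T := by
          intro x hx
          rw [Set.mem_preimage, hT]
          simp only [Set.mem_iUnion, exists_prop]
          exact ⟨q, hq, hx, hyq⟩
        refine le_trans ?_ (measure_mono hsub)
        have hq1 := Finset.mem_filter.1 hq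
        have hq2 := Finset.mem_Icc.1 hq1.1
        refine le_trans ?_ (X0_volume N q hN hq2.1)
        refine ENNReal.ofReal_le_ofReal ?_
        have hqpos : (0 : ℝ) < q := by exact_mod_cast hq2.1
        rw [le_div_iff₀ hqpos]
        exact hq1.2.2
      · rw [Set.indicator_of_notMem hy]
        exact zero_le
    refine le_trans ?_ h1
    rw [lintegral_indicator_const hUm, mul_comm (1 / 2 : ℝ), ENNReal.ofReal_mul hcpos.le]
    exact mul_le_mul_right (good1 N m hN hm) _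
  -- transport
  have hmp := (volume_preserving_piFinSuccAbove (fun _ : Fin (m + 1) => ℝ) 0)
  have hmp2 := hmp.comp (PiLp.volume_preserving_ofLp (Fin (m + 1)))
  rw [← hmp2.measure_preimage hTm.nullMeasurableSet] at hTvol
  refine hTvol.trans (measure_mono ?_)
  intro x hx
  rw [Set.mem_preimage, hT] at hx
  simp only [Set.mem_iUnion, exists_prop] at hx
  obtain ⟨q, hq, hx0, hxq⟩ := hx
  exact good_T_sub N m (WithLp.ofLp x) ⟨q, hq, hxq, hx0⟩

end Vale.Agent.P076
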