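import Mathlib
import Vale.Agent.P076.Basic

/-!
# P076 module NORMG: integrability, norm and support of the product data

The boxes of `g1` are disjoint (`N^{m+3} ≥ 1 > 1/16`), so `|g1|² = g1` and
`∫ |g1|² = N^{m+1} / 16`, `∫ |g0|² = N^{m+2} / 4`.
-/

namespace Vale.Agent.P076

open MeasureTheory Complex Finset

private theorem normG_box_meas (c r : ℝ) : Measurable (box c r) := by
  unfold box
  exact measurable_const.indicator measurableSet_Icc

private theorem normG_box_cases (c r η : ℝ) :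
    (box c r η = 1 ∧ |η - c| ≤ r) ∨ (box c r η = 0 ∧ ¬ |η - c| ≤ r) := by
  unfold box
  by_cases h : |η - c| ≤ r
  · left
    refine ⟨?_, h⟩
    rw [Set.indicator_of_mem]
    rw [abs_le] at h
    exact ⟨by linarith [h.1], by linarith [h.2]⟩
  · right
    refine ⟨?_, h⟩
    rw [Set.indicator_of_notMem]
    intro h'
    apply h
    rw [abs_le]
    exact ⟨by linarith [h'.1], by linarith [h'.2]⟩

private theorem normG_box_norm_le (c r η : ℝ) : ‖box c r η‖ ≤ 1 := by
  rcases normG_box_cases c r η with h | h <;> simp [h.1]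

private theorem normG_g0_meas (N m : ℕ) : Measurable (g0 N m) := by
  unfold g0
  exact normG_box_meas _ _

private theorem normG_g1_meas (N m : ℕ) : Measurable (g1 N m) := by
  unfold g1
  exact Finset.measurable_fun_sum _ fun l _ => normG_box_meas _ _

private theorem normG_coord_meas {n : ℕ} (i : Fin n) : Measurable (fun η : E n => η i) := by
  have : Continuous (fun η : E n => η i) := by fun_prop
  exact this.measurable

theorem G_measurable (N m : ℕ) : Measurable (G N m) := by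
  unfold G
  apply Measurable.mul
  · exact (normG_g0_meas N m).comp (normG_coord_meas 0)
  · exact Finset.measurable_fun_prod _ fun j _ =>
      (normG_g1_meas N m).comp (normG_coord_meas j.succ)

private theorem normG_g1_cases (N m : ℕ) (hN : 1 ≤ N) (η : ℝ) : g1 N m η = 0 ∨ g1 N m η = 1 := by
  unfold g1
  by_cases h : ∃ l ∈ range (N ^ (m + 1)), |η - (N : ℝ) ^ (m + 3) * l| ≤ 1 / 32
  · right
    obtain ⟨l0, hl0, h0⟩ := h
    have hb : ∀ l ∈ range (N ^ (m + 1)), l ≠ l0 → box ((N : ℝ) ^ (m + 3) * l) (1 / 32) η = 0 := by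
      intro l _ hl
      rcases normG_box_cases ((N : ℝ) ^ (m + 3) * l) (1 / 32) η with h1 | h1
      · exfalso
        have h2 : |(N : ℝ) ^ (m + 3) * l - (N : ℝ) ^ (m + 3) * l0| ≤ 1 / 16 := by
          have h3 := h1.2
          rw [abs_le] at h3 h0 ⊢
          constructor <;> linarith [h3.1, h3.2, h0.1, h0.2]
        rw [← mul_sub, abs_mul] at h2
        have h4 : (1 : ℝ) ≤ |(N : ℝ) ^ (m + 3)| := by
          rw [abs_of_nonneg (by positivity)]
          exact one_le_pow₀ (by exact_mod_cast hN)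
        have h5 : (1 : ℝ) ≤ |(l : ℝ) - l0| := by
          have h6 : (1 : ℤ) ≤ |(l : ℤ) - l0| := by
            apply Int.one_le_abs
            omega
          exact_mod_cast h6
        nlinarith
      · exact h1.1
    rw [Finset.sum_eq_single_of_mem l0 hl0 hb]
    rcases normG_box_cases ((N : ℝ) ^ (m + 3) * l0) (1 / 32) η with h1 | h1
    · exact h1.1
    · exact absurd h0 h1.2
  · left
    apply Finset.sum_eq_zero
    intro l hl
    rcases normG_box_cases ((N : ℝ) ^ (m + 3) * l) (1 / 32) η with h1 | h1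
    · exact absurd ⟨l, hl, h1.2⟩ h
    · exact h1.1

private theorem normG_g1_norm_le (N m : ℕ) (hN : 1 ≤ N) (η : ℝ) : ‖g1 N m η‖ ≤ 1 := by
  rcases normG_g1_cases N m hN η with h | h <;> simp [h]

/-- `0 ≤ |G| ≤ 1` -/
theorem norm_G_le (N m : ℕ) (hN : 1 ≤ N) (η : E (m + 1)) : ‖G N m η‖ ≤ 1 := by
  unfold G
  rw [norm_mul, norm_prod]
  have h1 : ‖g0 N m (η 0)‖ ≤ 1 := normG_box_norm_le _ _ _
  have h2 : ∏ j : Fin m, ‖g1 N m (η j.succ)‖ ≤ 1 :=
    Finset.prod_le_one (fun j _ => norm_nonneg _) fun j _ => normG_g1_norm_le N m hN _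
  have h3 : 0 ≤ ∏ j : Fin m, ‖g1 N m (η j.succ)‖ := Finset.prod_nonneg fun j _ => norm_nonneg _
  nlinarith [norm_nonneg (g0 N m (η 0))]

private theorem normG_g1_norm_le' (N m : ℕ) (η : ℝ) : ‖g1 N m η‖ ≤ (N : ℝ) ^ (m + 1) := by
  unfold g1
  refine (norm_sum_le _ _).trans ?_
  refine (Finset.sum_le_sum fun l _ => normG_box_norm_le _ _ _).trans ?_
  simp

private theorem norm_G_le' (N m : ℕ) (η : E (m + 1)) :
    ‖G N m η‖ ≤ ((N : ℝ) ^ (m + 1)) ^ m := by
  unfold G
  rw [norm_mul, norm_prod]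
  have h1 : ‖g0 N m (η 0)‖ ≤ 1 := normG_box_norm_le _ _ _
  have h2 : ∏ j : Fin m, ‖g1 N m (η j.succ)‖ ≤ ((N : ℝ) ^ (m + 1)) ^ m := by
    have := Finset.prod_le_prod (s := (univ : Finset (Fin m)))
      (f := fun j => ‖g1 N m (η j.succ)‖) (g := fun _ => (N : ℝ) ^ (m + 1))
      (fun j _ => norm_nonneg _) fun j _ => normG_g1_norm_le' N m _
    simpa using this
  have h3 : 0 ≤ ∏ j : Fin m, ‖g1 N m (η j.succ)‖ := Finset.prod_nonneg fun j _ => norm_nonneg _
  nlinarith [norm_nonneg (g0 N m (η 0))]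

theorem G_supp0 (N m : ℕ) {η : E (m + 1)} (h : G N m η ≠ 0) :
    |η 0 - (N : ℝ) ^ (2 * m + 4)| ≤ (N : ℝ) ^ (m + 2) / 8 := by
  unfold G at h
  have h1 := left_ne_zero_of_mul h
  unfold g0 at h1
  rcases normG_box_cases ((N : ℝ) ^ (2 * m + 4)) ((N : ℝ) ^ (m + 2) / 8) (η 0) with h2 | h2
  · exact h2.2
  · exact absurd h2.1 h1

private theorem normG_coord_le (N m : ℕ) {η : E (m + 1)} (h : G N m η ≠ 0) (i : Fin (m + 1)) :
    |η i| ≤ (N : ℝ) ^ (2 * m + 4) + (N : ℝ) ^ (2 * m + 4) / 8 ∨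
      (|η i| ≤ (N : ℝ) ^ (2 * m + 4) + 1 / 32 ∧ 1 ≤ N) := by
  have hpow : (N : ℝ) ^ (m + 2) ≤ (N : ℝ) ^ (2 * m + 4) := by
    rcases Nat.eq_zero_or_pos N with h0 | h0
    · subst h0
      simp
    · exact pow_le_pow_right₀ (by exact_mod_cast h0) (by omega)
  refine Fin.cases ?_ (fun j => ?_) i
  · left
    have h1 := G_supp0 N m h
    have h2 : |η 0| ≤ |η 0 - (N : ℝ) ^ (2 * m + 4)| + |(N : ℝ) ^ (2 * m + 4)| := by
      have := abs_add_le (η 0 - (N : ℝ) ^ (2 * m + 4)) ((N : ℝ) ^ (2 * m + 4))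
      simpa using this
    rw [abs_of_nonneg (by positivity : (0 : ℝ) ≤ (N : ℝ) ^ (2 * m + 4))] at h2
    linarith
  · right
    unfold G at h
    have h1 := right_ne_zero_of_mul h
    have h2 : g1 N m (η j.succ) ≠ 0 := Finset.prod_ne_zero_iff.mp h1 j (Finset.mem_univ j)
    unfold g1 at h2
    obtain ⟨l, hl, hl2⟩ := Finset.exists_ne_zero_of_sum_ne_zero h2
    have hN : 1 ≤ N := by
      rcases Nat.eq_zero_or_pos N with h0 | h0
      · subst h0
        simp at hl
      · exact h0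
    refine ⟨?_, hN⟩
    rcases normG_box_cases ((N : ℝ) ^ (m + 3) * l) (1 / 32) (η j.succ) with h3 | h3
    · have h4 := h3.2
      have h5 : |η j.succ| ≤ |η j.succ - (N : ℝ) ^ (m + 3) * l| + |(N : ℝ) ^ (m + 3) * l| := by
        have := abs_add_le (η j.succ - (N : ℝ) ^ (m + 3) * l) ((N : ℝ) ^ (m + 3) * l)
        simpa using this
      rw [abs_of_nonneg (by positivity : (0 : ℝ) ≤ (N : ℝ) ^ (m + 3) * l)] at h5
      have h6 : (l : ℝ) ≤ (N : ℝ) ^ (m + 1) := by
        have := (Finset.mem_range.mp hl).le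
        exact_mod_cast this
      have h7 : (N : ℝ) ^ (m + 3) * l ≤ (N : ℝ) ^ (m + 3) * (N : ℝ) ^ (m + 1) :=
        mul_le_mul_of_nonneg_left h6 (by positivity)
      rw [← pow_add] at h7
      have h8 : m + 3 + (m + 1) = 2 * m + 4 := by ring
      rw [h8] at h7
      linarith
    · exact absurd h3.1 hl2

private theorem normG_norm_le_of_coord {n : ℕ} (η : E n) (B : ℝ) (hB : 0 ≤ B)
    (h : ∀ i, |η i| ≤ B) : ‖η‖ ≤ n * B := by
  have h1 : ‖η‖ ^ 2 ≤ (n * B) ^ 2 := by
    rw [EuclideanSpace.real_norm_sq_eq]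
    have h2 : ∑ i, (η i) ^ 2 ≤ ∑ _i : Fin n, B ^ 2 := by
      apply Finset.sum_le_sum
      intro i _
      rw [← sq_abs]
      exact pow_le_pow_left₀ (abs_nonneg _) (h i) 2
    refine h2.trans ?_
    simp only [Finset.sum_const, Finset.card_univ, Fintype.card_fin, nsmul_eq_mul]
    rw [mul_pow]
    apply mul_le_mul_of_nonneg_right _ (by positivity)
    rcases Nat.eq_zero_or_pos n with h0 | h0
    · subst h0
      simp
    · have : (1 : ℝ) ≤ n := by exact_mod_cast h0
      nlinarith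
  exact abs_le_of_sq_le_sq' h1 (by positivity) |>.2

private theorem normG_supp' (N m : ℕ) {η : E (m + 1)} (h : G N m η ≠ 0) :
    ‖η‖ ≤ (m + 1) * (2 * (N : ℝ) ^ (2 * m + 4) + 1) := by
  have h1 := normG_norm_le_of_coord η (2 * (N : ℝ) ^ (2 * m + 4) + 1) (by positivity) (by
    intro i
    have hp : (0 : ℝ) ≤ (N : ℝ) ^ (2 * m + 4) := by positivity
    rcases normG_coord_le N m h i with h2 | h2
    · linarith
    · linarith [h2.1])
  push_cast at h1
  exact h1

theorem G_supp (N m : ℕ) (hN : 1 ≤ N) {η : E (m + 1)} (h : G N m η ≠ 0) :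
    ‖η‖ ≤ 2 * (m + 1) * (N : ℝ) ^ (2 * m + 4) := by
  have h1 := normG_norm_le_of_coord η (2 * (N : ℝ) ^ (2 * m + 4)) (by positivity) (by
    intro i
    have hp : (1 : ℝ) ≤ (N : ℝ) ^ (2 * m + 4) := one_le_pow₀ (by exact_mod_cast hN)
    rcases normG_coord_le N m h i with h2 | h2
    · linarith
    · linarith [h2.1])
  push_cast at h1
  linarith

private theorem normG_eq_indicator (N m : ℕ) :
    (Metric.closedBall (0 : E (m + 1)) ((m + 1) * (2 * (N : ℝ) ^ (2 * m + 4) + 1))).indicator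
      (G N m) = G N m := by
  rw [Set.indicator_eq_self]
  intro η hη
  rw [mem_closedBall_zero_iff]
  exact normG_supp' N m hη

private theorem normG_memLp (N m : ℕ) (p : ENNReal) : MemLp (G N m) p := by
  rw [← normG_eq_indicator N m, memLp_indicator_iff_restrict Metric.isClosed_closedBall.measurableSet]
  haveI : IsFiniteMeasure ((volume : Measure (E (m + 1))).restrict
      (Metric.closedBall (0 : E (m + 1)) ((m + 1) * (2 * (N : ℝ) ^ (2 * m + 4) + 1)))) := by
    constructor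
    rw [Measure.restrict_apply_univ]
    exact measure_closedBall_lt_top
  exact MemLp.of_bound (G_measurable N m).aestronglyMeasurable (((N : ℝ) ^ (m + 1)) ^ m)
    (Filter.Eventually.of_forall fun η => norm_G_le' N m η)

theorem G_integrable (N m : ℕ) : Integrable (G N m) :=
  memLp_one_iff_integrable.mp (normG_memLp N m 1)

theorem G_memLp (N m : ℕ) : MemLp (G N m) 2 := normG_memLp N m 2

private theorem normG_box_norm_sq (c r : ℝ) (η : ℝ) :
    ‖box c r η‖ ^ 2 = (Set.Icc (c - r) (c + r)).indicator (fun _ => (1 : ℝ)) η := by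
  unfold box
  by_cases h : η ∈ Set.Icc (c - r) (c + r)
  · rw [Set.indicator_of_mem h, Set.indicator_of_mem h]
    simp
  · rw [Set.indicator_of_notMem h, Set.indicator_of_notMem h]
    simp

private theorem normG_int_ind (c r : ℝ) (hr : 0 ≤ r) :
    ∫ η, (Set.Icc (c - r) (c + r)).indicator (fun _ => (1 : ℝ)) η = 2 * r := by
  rw [integral_indicator measurableSet_Icc]
  simp only [integral_const, smul_eq_mul, mul_one, measureReal_def, Measure.restrict_apply_univ,
    Real.volume_Icc]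
  rw [ENNReal.toReal_ofReal (by linarith)]
  ring

private theorem normG_int_ind_integrable (c r : ℝ) :
    Integrable ((Set.Icc (c - r) (c + r)).indicator (fun _ => (1 : ℝ))) := by
  rw [integrable_indicator_iff measurableSet_Icc]
  exact integrableOn_const (by rw [Real.volume_Icc]; exact ENNReal.ofReal_ne_top)

private theorem normG_g1_norm_sq (N m : ℕ) (hN : 1 ≤ N) (η : ℝ) :
    ‖g1 N m η‖ ^ 2 = ∑ l ∈ range (N ^ (m + 1)),
      (Set.Icc ((N : ℝ) ^ (m + 3) * l - 1 / 32) ((N : ℝ) ^ (m + 3) * l + 1 / 32)).indicator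
        (fun _ => (1 : ℝ)) η := by
  have h1 : g1 N m η = ((∑ l ∈ range (N ^ (m + 1)),
      (Set.Icc ((N : ℝ) ^ (m + 3) * l - 1 / 32) ((N : ℝ) ^ (m + 3) * l + 1 / 32)).indicator
        (fun _ => (1 : ℝ)) η : ℝ) : ℂ) := by
    unfold g1
    push_cast
    apply Finset.sum_congr rfl
    intro l _
    unfold box
    by_cases h : η ∈ Set.Icc ((N : ℝ) ^ (m + 3) * l - 1 / 32) ((N : ℝ) ^ (m + 3) * l + 1 / 32)
    · rw [Set.indicator_of_mem h, Set.indicator_of_mem h]
      simp
    · rw [Set.indicator_of_notMem h, Set.indicator_of_notMem h]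
      simp
  set R : ℝ := ∑ l ∈ range (N ^ (m + 1)),
      (Set.Icc ((N : ℝ) ^ (m + 3) * l - 1 / 32) ((N : ℝ) ^ (m + 3) * l + 1 / 32)).indicator
        (fun _ => (1 : ℝ)) η with hR
  rcases normG_g1_cases N m hN η with h | h
  · rw [h1] at h
    have h2 : R = 0 := by exact_mod_cast h
    rw [h1, h2]
    simp
  · rw [h1] at h
    have h2 : R = 1 := by exact_mod_cast h
    rw [h1, h2]
    simp

theorem G_norm_sq (N m : ℕ) (hN : 1 ≤ N) :
    ∫ η, ‖G N m η‖ ^ 2 = (N : ℝ) ^ (m + 2) / 4 * ((N : ℝ) ^ (m + 1) / 16) ^ m := by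
  have key : ∀ η : E (m + 1), ‖G N m η‖ ^ 2
      = ∏ i : Fin (m + 1), (Fin.cons (fun t : ℝ => ‖g0 N m t‖ ^ 2)
          (fun (_ : Fin m) (t : ℝ) => ‖g1 N m t‖ ^ 2)
          : Fin (m + 1) → ℝ → ℝ) i (η i) := by
    intro η
    rw [Fin.prod_univ_succ]
    simp only [Fin.cons_zero, Fin.cons_succ]
    unfold G
    rw [norm_mul, norm_prod, mul_pow, Finset.prod_pow]
  simp_rw [key]
  have hmp := EuclideanSpace.volume_preserving_symm_measurableEquiv_toLp (Fin (m + 1))
  have h2 := hmp.integral_comp' (g := fun η : Fin (m + 1) → ℝ =>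
    ∏ i : Fin (m + 1), (Fin.cons (fun t : ℝ => ‖g0 N m t‖ ^ 2)
          (fun (_ : Fin m) (t : ℝ) => ‖g1 N m t‖ ^ 2)
          : Fin (m + 1) → ℝ → ℝ) i (η i))
  have h3 := integral_fintype_prod_volume_eq_prod (fun i : Fin (m + 1) =>
    (Fin.cons (fun t : ℝ => ‖g0 N m t‖ ^ 2)
          (fun (_ : Fin m) (t : ℝ) => ‖g1 N m t‖ ^ 2)
          : Fin (m + 1) → ℝ → ℝ) i)
  rw [h3, Fin.prod_univ_succ] at h2
  simp only [Fin.cons_zero, Fin.cons_succ] at h2
  have h4 : ∫ t : ℝ, ‖g0 N m t‖ ^ 2 = (N : ℝ) ^ (m + 2) / 4 := by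
    unfold g0
    simp_rw [normG_box_norm_sq]
    rw [normG_int_ind _ _ (by positivity)]
    ring
  have h5 : ∫ t : ℝ, ‖g1 N m t‖ ^ 2 = (N : ℝ) ^ (m + 1) / 16 := by
    simp_rw [normG_g1_norm_sq N m hN]
    rw [integral_finset_sum _ fun l _ => normG_int_ind_integrable _ _]
    rw [Finset.sum_congr rfl fun l _ => normG_int_ind _ _ (by norm_num)]
    simp
    ring
  rw [h4, h5, Finset.prod_const, Finset.card_univ, Fintype.card_fin] at h2
  exact h2

end Vale.Agent.P076
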