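import Mathlib
import Vale.Agent.P076.Basic

/-!
# P076 module PROD: the evolution of the product data factorises

`⟪x, η⟫ = ∑ x i η i`, `‖η‖² = ∑ η i ^ 2`, and `integral_fintype_prod_eq_prod` after transport of the
volume of `EuclideanSpace` to `Fin (m+1) → ℝ` (`EuclideanSpace.volume_preserving_symm_measurableEquiv_toLp`
or similar), `Fin.prod_univ_succ`.
-/

namespace Vale.Agent.P076

open MeasureTheory Complex Finset

private theorem prod_e_sum {ι : Type} (s : Finset ι) (f : ι → ℝ) :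
    e (∑ i ∈ s, f i) = ∏ i ∈ s, e (f i) := by
  classical
  induction s using Finset.induction_on with
  | empty => simp [e_zero]
  | insert a s ha ih => rw [Finset.sum_insert ha, Finset.prod_insert ha, e_add, ih]

private theorem prod_inner {n : ℕ} (x η : E n) :
    inner ℝ x η = ∑ i, x i * η i := by
  rw [PiLp.inner_apply]
  apply Finset.sum_congr rfl
  intro i _
  simp [mul_comm]

theorem S_G (N m : ℕ) (s : ℝ) (x : E (m + 1)) :
    S (G N m) 0 s x = I1 (g0 N m) (x 0) s * ∏ j : Fin m, I1 (g1 N m) (x j.succ) s := by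
  unfold S
  have key : ∀ η : E (m + 1), e (inner ℝ x η - s * ‖η‖ ^ 2)
        * ((Real.exp (-(0 * ‖η‖ ^ 2)) : ℝ) : ℂ) * G N m η
      = ∏ i : Fin (m + 1), (Fin.cons (fun t : ℝ => e (x 0 * t - s * t ^ 2) * g0 N m t)
          (fun (j : Fin m) (t : ℝ) => e (x j.succ * t - s * t ^ 2) * g1 N m t)
          : Fin (m + 1) → ℝ → ℂ) i (η i) := by
    intro η
    rw [Fin.prod_univ_succ]
    simp only [Fin.cons_zero, Fin.cons_succ]
    rw [Finset.prod_mul_distrib]
    unfold G
    have h1 : inner ℝ x η - s * ‖η‖ ^ 2 = ∑ i, (x i * η i - s * (η i) ^ 2) := by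
      rw [Finset.sum_sub_distrib, prod_inner, EuclideanSpace.real_norm_sq_eq, Finset.mul_sum]
    rw [h1, prod_e_sum, Fin.prod_univ_succ]
    simp
    ring
  simp_rw [key]
  have hmp := EuclideanSpace.volume_preserving_symm_measurableEquiv_toLp (Fin (m + 1))
  have h2 := hmp.integral_comp' (g := fun η : Fin (m + 1) → ℝ =>
    ∏ i : Fin (m + 1), (Fin.cons (fun t : ℝ => e (x 0 * t - s * t ^ 2) * g0 N m t)
          (fun (j : Fin m) (t : ℝ) => e (x j.succ * t - s * t ^ 2) * g1 N m t)
          : Fin (m + 1) → ℝ → ℂ) i (η i))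
  have h3 := integral_fintype_prod_volume_eq_prod (fun i : Fin (m + 1) =>
    (Fin.cons (fun t : ℝ => e (x 0 * t - s * t ^ 2) * g0 N m t)
          (fun (j : Fin m) (t : ℝ) => e (x j.succ * t - s * t ^ 2) * g1 N m t)
          : Fin (m + 1) → ℝ → ℂ) i)
  rw [h3, Fin.prod_univ_succ] at h2
  simp only [Fin.cons_zero, Fin.cons_succ] at h2
  exact h2

end Vale.Agent.P076
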