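import Mathlib
import Vale.Agent.P076.Coord
import Vale.Agent.P076.Prod
import Vale.Agent.P076.NormG
import Vale.Agent.P076.Good
import Vale.Agent.P076.BlkDef

/-!
# P076 module BLOCK: the loss-free example at scale `N`

For `x ∈ good N m` take `s = a / (4 q N^{2m+6})`; then `2 s N^{2m+4} = a / (2 q N²) ≤ 1`, first coordinate:
`I1_g0`, other coordinates: `coord1` with `th = N^{m+3} x_j - b / q`, `|th| ≤ 1/(100 N q)`.  The product is
at least `N^{m+2}/8 (N^{m+1} / (64 √(2 (100N)^m)))^m`, and after division by the norm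
(`G_norm_sq`) this is `N^{m+1} / (4 √(512·100^m)^m)`.
-/

namespace Vale.Agent.P076

open MeasureTheory Complex Finset

/-- the times -/
noncomputable def blkT (N m : ℕ) : Finset ℝ :=
  (Finset.Icc 1 ((100 * N) ^ m)).biUnion fun q : ℕ =>
    (Finset.Icc 1 (2 * q * N ^ 2)).image fun a : ℕ => (a : ℝ) / (4 * q * (N : ℝ) ^ (2 * m + 6))

theorem blkT_spec {N m : ℕ} (hN : 1 ≤ N) {s : ℝ} (hs : s ∈ blkT N m) : 0 < s ∧ s ≤ 1 / N := by
  unfold blkT at hs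
  simp only [mem_biUnion, mem_image, Finset.mem_Icc] at hs
  obtain ⟨q, ⟨hq, -⟩, a, ⟨ha, ha2⟩, rfl⟩ := hs
  have hN' : (1 : ℝ) ≤ N := by exact_mod_cast hN
  have hq' : (1 : ℝ) ≤ q := by exact_mod_cast hq
  have ha' : (1 : ℝ) ≤ a := by exact_mod_cast ha
  have ha2' : (a : ℝ) ≤ 2 * q * N ^ 2 := by exact_mod_cast ha2
  refine ⟨by positivity, ?_⟩
  rw [div_le_div_iff₀ (by positivity) (by positivity), one_mul]
  have h1 : (N : ℝ) ^ 3 ≤ (N : ℝ) ^ (2 * m + 6) := pow_le_pow_right₀ hN' (by omega)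
  calc (a : ℝ) * N ≤ 2 * q * N ^ 2 * N := by gcongr
    _ = 2 * q * (N : ℝ) ^ 3 := by ring
    _ ≤ 4 * q * (N : ℝ) ^ (2 * m + 6) := by
        have h2 : (0 : ℝ) ≤ (q : ℝ) := by positivity
        have h3 : (q : ℝ) * (N : ℝ) ^ 3 ≤ q * (N : ℝ) ^ (2 * m + 6) := by gcongr
        have h4 : (0 : ℝ) ≤ q * (N : ℝ) ^ (2 * m + 6) := by positivity
        linarith

/-- the product bound -/
theorem blk_prod {N m : ℕ} (hN : 1 ≤ N)
    (hlarge : ∀ q : ℕ, 1 ≤ q → q ≤ (100 * N) ^ m →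
      Real.sqrt (2 * q) + 5 / 4 * Wb q ≤ 1 / 4 * ((N : ℝ) ^ (m + 1) / Real.sqrt (2 * q)))
    {x : E (m + 1)} (hx : x ∈ good N m) :
    ∃ s ∈ blkT N m, ∃ q : ℕ, 1 ≤ q ∧ q ≤ (100 * N) ^ m ∧
      (N : ℝ) ^ (m + 2) / 8 * (1 / 64 * ((N : ℝ) ^ (m + 1) / Real.sqrt (2 * q))) ^ m ≤
        ‖S (G N m) 0 s x‖ := by
  obtain ⟨hx01, q, a, hq1, hq2, ha1, ha2, hcop, hx0, hxj⟩ := hx
  have hN' : (1 : ℝ) ≤ N := by exact_mod_cast hN
  have hNm : 1 ≤ N ^ m := Nat.one_le_pow _ _ hN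
  have hq : 1 ≤ q := by omega
  have hq' : (1 : ℝ) ≤ q := by exact_mod_cast hq
  have ha1' : (1 : ℝ) ≤ a := by exact_mod_cast ha1
  have ha2' : (a : ℝ) ≤ 2 * q * N ^ 2 := by exact_mod_cast ha2
  have hq1' : 25 * (N : ℝ) ^ m ≤ 4 * q := by exact_mod_cast hq1
  have hN0 : (0 : ℝ) < N := by linarith
  have hq0 : (0 : ℝ) < q := by linarith
  set s : ℝ := (a : ℝ) / (4 * q * (N : ℝ) ^ (2 * m + 6)) with hs
  have hs0 : 0 ≤ s := by positivity
  have e1 : 2 * s * (N : ℝ) ^ (2 * m + 4) = a / (2 * q * (N : ℝ) ^ 2) := by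
    rw [hs]
    have : (N : ℝ) ^ (2 * m + 6) = (N : ℝ) ^ (2 * m + 4) * (N : ℝ) ^ 2 := by
      rw [← pow_add]
    rw [this]
    field_simp
    norm_num
  have e2 : s * ((N : ℝ) ^ (m + 3)) ^ 2 = a / (4 * q) := by
    rw [hs]
    have : (N : ℝ) ^ (2 * m + 6) = ((N : ℝ) ^ (m + 3)) ^ 2 := by
      rw [← pow_mul]
      congr 1
      ring
    rw [this]
    field_simp
  have hs1 : 2 * s * (N : ℝ) ^ (2 * m + 4) ≤ 1 := by
    rw [e1, div_le_one (by positivity)]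
    exact ha2'
  refine ⟨s, ?_, q, hq, hq2, ?_⟩
  · unfold blkT
    simp only [mem_biUnion, mem_image, Finset.mem_Icc]
    exact ⟨q, ⟨hq, hq2⟩, a, ⟨ha1, ha2⟩, rfl⟩
  · rw [S_G, norm_mul, norm_prod]
    have h1 : (N : ℝ) ^ (m + 2) / 8 ≤ ‖I1 (g0 N m) (x 0) s‖ := by
      refine I1_g0 N m hs0 hs1 ?_
      rw [e1]
      calc |x 0 - (a : ℝ) / (2 * q * (N : ℝ) ^ 2)| * (N : ℝ) ^ (m + 2)
          ≤ 1 / (2 * (q : ℝ) * (N : ℝ) ^ 2) * (N : ℝ) ^ (m + 2) := by gcongr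
        _ = (N : ℝ) ^ m / (2 * q) := by
            rw [pow_add]
            field_simp
        _ ≤ 1 := by
            rw [div_le_one (by positivity)]
            linarith
    have h2 : ∀ j : Fin m, 1 / 64 * ((N : ℝ) ^ (m + 1) / Real.sqrt (2 * q)) ≤
        ‖I1 (g1 N m) (x j.succ) s‖ := by
      intro j
      obtain ⟨b, hb⟩ := hxj j
      refine coord1 N m q a b hN (by omega) hcop (hlarge q hq hq2) (hx01 j.succ).1
        (hx01 j.succ).2 hs0 hs1 e2 (th := (N : ℝ) ^ (m + 3) * x j.succ - b / q) (by ring) ?_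
      have h3 : |(N : ℝ) ^ (m + 3) * x j.succ - b / q| ≤ 1 / (100 * (N : ℝ)) / q := by
        rw [le_div_iff₀ hq0]
        have h4 : |(N : ℝ) ^ (m + 3) * x j.succ - b / q| * q =
            |(q : ℝ) * (N : ℝ) ^ (m + 3) * x j.succ - b| := by
          rw [← abs_of_pos hq0, ← abs_mul, abs_of_pos hq0]
          congr 1
          field_simp
        rw [h4]
        exact hb
      calc |(N : ℝ) ^ (m + 3) * x j.succ - b / q| * (N : ℝ) ^ (m + 1)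
          ≤ 1 / (100 * (N : ℝ)) / q * (N : ℝ) ^ (m + 1) := by gcongr
        _ = (N : ℝ) ^ m / (100 * q) := by
            rw [pow_succ]
            field_simp
        _ ≤ 1 / 600 := by
            rw [div_le_div_iff₀ (by positivity) (by norm_num)]
            linarith
    have h3 : (1 / 64 * ((N : ℝ) ^ (m + 1) / Real.sqrt (2 * q))) ^ m ≤
        ∏ j : Fin m, ‖I1 (g1 N m) (x j.succ) s‖ := by
      calc (1 / 64 * ((N : ℝ) ^ (m + 1) / Real.sqrt (2 * q))) ^ m =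
          ∏ _j : Fin m, (1 / 64 * ((N : ℝ) ^ (m + 1) / Real.sqrt (2 * q))) := by simp
        _ ≤ _ := Finset.prod_le_prod (fun _ _ => by positivity) (fun j _ => h2 j)
    gcongr

/-- the numbers -/
theorem blk_num {N m q : ℕ} (hN : 1 ≤ N) (hq : 1 ≤ q) (hq2 : q ≤ (100 * N) ^ m) :
    (1 / (16 * (512 * 100 ^ m) ^ m) : ℝ) * ((N : ℝ) ^ (m + 1)) ^ 2 *
      ((N : ℝ) ^ (m + 2) / 4 * ((N : ℝ) ^ (m + 1) / 16) ^ m) ≤
      ((N : ℝ) ^ (m + 2) / 8 * (1 / 64 * ((N : ℝ) ^ (m + 1) / Real.sqrt (2 * q))) ^ m) ^ 2 := by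
  have hN' : (1 : ℝ) ≤ N := by exact_mod_cast hN
  have hq' : (1 : ℝ) ≤ q := by exact_mod_cast hq
  have hN0 : (0 : ℝ) < N := by linarith
  have hq0 : (0 : ℝ) < q := by linarith
  have hq2' : (q : ℝ) ≤ (100 * N) ^ m := by exact_mod_cast hq2
  have e1 : ((N : ℝ) ^ (m + 2) / 8 * (1 / 64 * ((N : ℝ) ^ (m + 1) / Real.sqrt (2 * q))) ^ m) ^ 2 =
      ((N : ℝ) ^ (m + 2)) ^ 2 / 64 * (((N : ℝ) ^ (m + 1)) ^ 2 / (8192 * q)) ^ m := by
    have e0 : (1 / 64 * ((N : ℝ) ^ (m + 1) / Real.sqrt (2 * q))) ^ 2 =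
        ((N : ℝ) ^ (m + 1)) ^ 2 / (8192 * q) := by
      rw [mul_pow, div_pow, div_pow, Real.sq_sqrt (by positivity)]
      field_simp
      norm_num
    rw [mul_pow, ← pow_mul, mul_comm m 2, pow_mul, e0]
    congr 1
    rw [div_pow]
    norm_num
  rw [e1]
  have e2 : (((N : ℝ) ^ (m + 1)) ^ 2 / (8192 * (100 * N) ^ m)) ^ m ≤
      (((N : ℝ) ^ (m + 1)) ^ 2 / (8192 * q)) ^ m := by
    gcongr
  have e3 : (((N : ℝ) ^ (m + 1)) ^ 2 / (8192 * (100 * N) ^ m)) =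
      ((N : ℝ) / (512 * 100 ^ m)) * ((N : ℝ) ^ (m + 1) / 16) := by
    rw [mul_pow, pow_succ]
    field_simp
    ring
  rw [e3, mul_pow] at e2
  calc (1 / (16 * (512 * 100 ^ m) ^ m) : ℝ) * ((N : ℝ) ^ (m + 1)) ^ 2 *
      ((N : ℝ) ^ (m + 2) / 4 * ((N : ℝ) ^ (m + 1) / 16) ^ m)
      = ((N : ℝ) ^ (m + 2)) ^ 2 / 64 *
        (((N : ℝ) / (512 * 100 ^ m)) ^ m * ((N : ℝ) ^ (m + 1) / 16) ^ m) := by
        have h1 : ((N : ℝ) / (512 * 100 ^ m)) ^ m = (N : ℝ) ^ m / (512 * 100 ^ m) ^ m :=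
          div_pow _ _ _
        have h2 : ((N : ℝ) ^ (m + 1)) ^ 2 = (N : ℝ) ^ (m + 2) * (N : ℝ) ^ m := by
          rw [← pow_mul, ← pow_add]
          congr 1
          ring
        rw [h1, h2]
        field_simp
        norm_num
    _ ≤ _ := by gcongr

theorem block (m : ℕ) (hm : 1 ≤ m) : ∃ c C : ℝ, 0 < c ∧ 0 < C ∧ ∃ N0 : ℕ, 1 ≤ N0 ∧ ∀ N ≥ N0,
    ∃ H T A, Blk m c C N H T A := by
  obtain ⟨N0, hN0, hlarge⟩ := large m
  set c1 : ℝ := 1 / 2 * (4 : ℝ) ^ (-(4 * 4 ^ m : ℝ)) with hc1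
  set c2 : ℝ := Real.sqrt (1 / (16 * (512 * 100 ^ m) ^ m)) with hc2
  have hc1p : 0 < c1 := by positivity
  have hc2p : 0 < c2 := Real.sqrt_pos.2 (by positivity)
  refine ⟨min c1 c2, 2 * (m + 1), lt_min hc1p hc2p, by positivity, N0, hN0, fun N hN => ?_⟩
  have hN1 : 1 ≤ N := hN0.trans hN
  have hN' : (1 : ℝ) ≤ N := by exact_mod_cast hN1
  have hN0' : (0 : ℝ) < N := by linarith
  set n2 : ℝ := (N : ℝ) ^ (m + 2) / 4 * ((N : ℝ) ^ (m + 1) / 16) ^ m with hn2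
  have hn2p : 0 < n2 := by positivity
  set k : ℂ := (((Real.sqrt n2)⁻¹ : ℝ) : ℂ) with hk
  have hkn : ‖k‖ = (Real.sqrt n2)⁻¹ := by
    rw [hk, Complex.norm_real, Real.norm_eq_abs, abs_of_nonneg (by positivity)]
  have hS : ∀ s (x : E (m + 1)), S (fun η => k * G N m η) 0 s x = k * S (G N m) 0 s x := by
    intro s x
    unfold S
    rw [← integral_const_mul]
    congr 1
    funext η
    ring
  refine ⟨fun η => k * G N m η, blkT N m, good N m, ?_⟩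
  refine ⟨(G_measurable N m).const_mul k, (G_integrable N m).const_mul k,
    (G_memLp N m).const_mul k, ?_, ?_, ?_, fun s hs => (blkT_spec hN1 hs).1,
    fun s hs => (blkT_spec hN1 hs).2, good_measurable N m, ?_, fun x hx => hx.1, ?_⟩
  · simp only [norm_mul, mul_pow]
    rw [integral_const_mul, G_norm_sq N m hN1, hkn, inv_pow, Real.sq_sqrt hn2p.le, ← hn2,
      inv_mul_cancel₀ hn2p.ne']
  · intro η hη
    exact G_supp0 N m (right_ne_zero_of_mul hη)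
  · intro η hη
    exact G_supp N m hN1 (right_ne_zero_of_mul hη)
  · refine le_trans (ENNReal.ofReal_le_ofReal (min_le_left _ _)) (good_volume N m hN1 hm)
  · intro x hx
    obtain ⟨s, hs, q, hq, hq2, h1⟩ := blk_prod hN1 (hlarge N hN) hx
    refine ⟨s, hs, ?_⟩
    rw [hS, norm_mul, hkn, inv_mul_eq_div, le_div_iff₀ (Real.sqrt_pos.2 hn2p)]
    refine le_trans ?_ h1
    have h2 := blk_num hN1 hq hq2
    have h3 : min c1 c2 * (N : ℝ) ^ (m + 1) * Real.sqrt n2 ≤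
        c2 * (N : ℝ) ^ (m + 1) * Real.sqrt n2 := by
      gcongr
      exact min_le_right _ _
    refine h3.trans ?_
    refine abs_le_of_sq_le_sq' ?_ (by positivity) |>.2
    rw [mul_pow, mul_pow, hc2, Real.sq_sqrt (by positivity), Real.sq_sqrt hn2p.le]
    exact h2

end Vale.Agent.P076
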