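import Mathlib
import Vale.Agent.P076.Basic

/-!
# P076 module LIN: elementary properties of the regularised evolution
-/

namespace Vale.Agent.P076

open MeasureTheory Complex Finset Filter Topology

variable {n : ℕ}

theorem lin_factor_continuous (a s : ℝ) (x : E n) :
    Continuous fun η : E n => e (inner ℝ x η - s * ‖η‖ ^ 2) *
      ((Real.exp (-(a * ‖η‖ ^ 2)) : ℝ) : ℂ) := by
  have h1 : Continuous fun η : E n => e (inner ℝ x η - s * ‖η‖ ^ 2) :=
    continuous_e.comp (by fun_prop)
  have h2 : Continuous fun η : E n => ((Real.exp (-(a * ‖η‖ ^ 2)) : ℝ) : ℂ) := by fun_prop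
  exact h1.mul h2

theorem lin_factor_norm (a s : ℝ) (x η : E n) :
    ‖e (inner ℝ x η - s * ‖η‖ ^ 2) * ((Real.exp (-(a * ‖η‖ ^ 2)) : ℝ) : ℂ)‖ =
      Real.exp (-(a * ‖η‖ ^ 2)) := by
  rw [norm_mul, norm_e, one_mul, Complex.norm_real, Real.norm_eq_abs, Real.abs_exp]

theorem lin_factor_le {a : ℝ} (ha : 0 ≤ a) (s : ℝ) (x η : E n) :
    ‖e (inner ℝ x η - s * ‖η‖ ^ 2) * ((Real.exp (-(a * ‖η‖ ^ 2)) : ℝ) : ℂ)‖ ≤ 1 := by
  rw [lin_factor_norm]
  refine Real.exp_le_one_iff.2 ?_
  have : 0 ≤ a * ‖η‖ ^ 2 := by positivity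
  linarith

theorem integrand_int {H : E n → ℂ} (hH : Integrable H) {a : ℝ} (ha : 0 ≤ a) (s : ℝ) (x : E n) :
    Integrable fun η : E n =>
      e (inner ℝ x η - s * ‖η‖ ^ 2) * ((Real.exp (-(a * ‖η‖ ^ 2)) : ℝ) : ℂ) * H η :=
  hH.bdd_mul (c := 1) (lin_factor_continuous a s x).aestronglyMeasurable
    (Eventually.of_forall fun η => lin_factor_le ha s x η)

/-- for `a > 0` square integrable data are enough (Gaussians are in `L²`) -/
theorem integrand_int' {H : E n → ℂ} (hH : MemLp H 2) {a : ℝ} (ha : 0 < a) (s : ℝ) (x : E n) :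
    Integrable fun η : E n =>
      e (inner ℝ x η - s * ‖η‖ ^ 2) * ((Real.exp (-(a * ‖η‖ ^ 2)) : ℝ) : ℂ) * H η := by
  have hf : MemLp (fun η : E n => e (inner ℝ x η - s * ‖η‖ ^ 2) *
      ((Real.exp (-(a * ‖η‖ ^ 2)) : ℝ) : ℂ)) 2 := by
    rw [memLp_two_iff_integrable_sq_norm (lin_factor_continuous a s x).aestronglyMeasurable]
    simp only [lin_factor_norm]
    have h := GaussianFourier.integrable_cexp_neg_mul_sq_norm_add (V := E n) (b := ((2 * a : ℝ) : ℂ))
      (by simpa using ha) 0 0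
    have h' := h.norm
    refine h'.congr (Eventually.of_forall fun η => ?_)
    simp only [inner_zero_left, ofReal_zero, mul_zero, add_zero]
    rw [Complex.norm_exp, ← Real.exp_nat_mul]
    congr 1
    have : (-(((2 * a : ℝ) : ℂ)) * (‖η‖ : ℂ) ^ 2) = ((-(2 * a) * ‖η‖ ^ 2 : ℝ) : ℂ) := by
      push_cast; ring
    rw [this, Complex.ofReal_re]
    push_cast
    ring
  exact hf.integrable_mul hH

theorem S_add {H K : E n → ℂ} (hH : MemLp H 2) (hK : MemLp K 2) {a : ℝ} (ha : 0 < a) (s : ℝ)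
    (x : E n) : S (fun η => H η + K η) a s x = S H a s x + S K a s x := by
  unfold S
  rw [← integral_add (integrand_int' hH ha s x) (integrand_int' hK ha s x)]
  refine integral_congr_ae (Eventually.of_forall fun η => ?_)
  simp only [mul_add]

theorem S_add_int {H K : E n → ℂ} (hH : Integrable H) (hK : Integrable K) {a : ℝ} (ha : 0 ≤ a)
    (s : ℝ) (x : E n) : S (fun η => H η + K η) a s x = S H a s x + S K a s x := by
  unfold S
  rw [← integral_add (integrand_int hH ha s x) (integrand_int hK ha s x)]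
  refine integral_congr_ae (Eventually.of_forall fun η => ?_)
  simp only [mul_add]

theorem S_smul (H : E n → ℂ) (c : ℂ) (a s : ℝ) (x : E n) :
    S (fun η => c * H η) a s x = c * S H a s x := by
  unfold S
  rw [← integral_const_mul]
  refine integral_congr_ae (Eventually.of_forall fun η => ?_)
  simp only
  ring

theorem norm_S_le {H : E n → ℂ} (hH : Integrable H) {a : ℝ} (ha : 0 ≤ a) (s : ℝ) (x : E n) :
    ‖S H a s x‖ ≤ ∫ η, ‖H η‖ := by
  unfold S
  refine (norm_integral_le_integral_norm _).trans ?_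
  refine integral_mono (integrand_int hH ha s x).norm hH.norm fun η => ?_
  simp only
  rw [norm_mul]
  calc _ ≤ 1 * ‖H η‖ := by
        gcongr
        exact lin_factor_le ha s x η
    _ = ‖H η‖ := one_mul _

theorem S_tendsto {H : E n → ℂ} (hH : Integrable H) (s : ℝ) (x : E n) :
    Tendsto (fun a => S H a s x) (𝓝[>] 0) (𝓝 (S H 0 s x)) := by
  unfold S
  refine tendsto_integral_filter_of_dominated_convergence (fun η => ‖H η‖) ?_ ?_ hH.norm ?_
  · filter_upwards [self_mem_nhdsWithin] with a ha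
    exact (integrand_int hH (le_of_lt ha) s x).aestronglyMeasurable
  · filter_upwards [self_mem_nhdsWithin] with a ha
    refine Eventually.of_forall fun η => ?_
    rw [norm_mul]
    calc _ ≤ 1 * ‖H η‖ := by
          gcongr
          exact lin_factor_le (le_of_lt ha) s x η
      _ = ‖H η‖ := one_mul _
  · refine Eventually.of_forall fun η => ?_
    have hc : Continuous fun a : ℝ => e (inner ℝ x η - s * ‖η‖ ^ 2) *
        ((Real.exp (-(a * ‖η‖ ^ 2)) : ℝ) : ℂ) * H η := by fun_prop
    exact (hc.tendsto 0).mono_left nhdsWithin_le_nhds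

end Vale.Agent.P076
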