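import Mathlib
import Vale.Agent.P076.Lin

/-!
# P076 module PLAN: Plancherel for `L¹ ∩ L²` and for the regularised evolution

For `H ∈ L¹ ∩ L²` the `L²` Fourier transform of Mathlib (`MeasureTheory.Lp.fourierTransformₗᵢ`) agrees
almost everywhere with the Fourier integral: test against Schwartz functions
(`Lp.fourier_toTemperedDistribution_eq`, `integral_fourierIntegral_smul_eq_flip`,
`ae_eq_zero_of_integral_contDiff_smul_eq_zero`).
-/

namespace Vale.Agent.P076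

open MeasureTheory Complex Finset Filter Topology FourierTransform

variable {n : ℕ}

/-- the `L²` Fourier transform agrees with the Fourier integral -/
theorem plan_fourier_ae {H : E n → ℂ} (h1 : Integrable H) (h2 : MemLp H 2) :
    ((𝓕 (h2.toLp H) : Lp ℂ 2 (volume : Measure (E n))) : E n → ℂ) =ᵐ[volume] 𝓕 H := by
  have hcont : Continuous (𝓕 H) := by
    have := VectorFourier.fourierIntegral_continuous (e := Real.fourierChar) (μ := volume)
      (L := innerₗ (E n)) Real.continuous_fourierChar continuous_inner h1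
    exact this
  refine ae_eq_of_integral_contDiff_smul_eq ?_ hcont.locallyIntegrable ?_
  · exact (Lp.memLp _).locallyIntegrable (by norm_num)
  intro g hg hgs
  have hg' : ContDiff ℝ ((⊤ : ℕ∞) : WithTop ℕ∞) (fun x => (g x : ℂ)) := by
    exact Complex.ofRealCLM.contDiff.comp hg
  have hgs' : HasCompactSupport (fun x => (g x : ℂ)) := by
    have := hgs.comp_left (g := fun y : ℝ => (y : ℂ)) (by simp)
    exact this
  let G : SchwartzMap (E n) ℂ := hgs'.toSchwartzMap hg'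
  have hGv : ∀ x, G x = (g x : ℂ) := fun x => rfl
  have e1 := MeasureTheory.Lp.fourier_toTemperedDistribution_eq (h2.toLp H)
  have e2 := congrArg (fun T => T G) e1
  simp only [TemperedDistribution.fourier_apply, Lp.toTemperedDistribution_apply] at e2
  have e3 : ∫ x, g x • ((𝓕 (h2.toLp H) : Lp ℂ 2 (volume : Measure (E n))) : E n → ℂ) x =
      ∫ x, G x • ((𝓕 (h2.toLp H) : Lp ℂ 2 (volume : Measure (E n))) : E n → ℂ) x := by
    refine integral_congr_ae (Eventually.of_forall fun x => ?_)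
    simp [hGv]
  rw [e3, ← e2]
  have e4 : ∫ x, (𝓕 G) x • (h2.toLp H : E n → ℂ) x = ∫ x, (𝓕 G) x • H x := by
    refine integral_congr_ae ?_
    filter_upwards [h2.coeFn_toLp] with x hx
    rw [hx]
  rw [e4]
  have e5 := VectorFourier.integral_fourierIntegral_smul_eq_flip (e := Real.fourierChar)
    (μ := volume) (ν := volume) (L := innerₗ (E n)) (f := fun x => G x) (g := H)
    Real.continuous_fourierChar continuous_inner G.integrable h1
  have e6 : ∫ x, (𝓕 G) x • H x = ∫ x, G x • (𝓕 H) x := by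
    have e7 : ∫ x, (𝓕 G) x • H x = ∫ ξ, (VectorFourier.fourierIntegral Real.fourierChar volume
      (innerₗ (E n)) (fun x => G x) ξ) • (H ξ) := rfl
    refine e7.trans (e5.trans ?_)
    refine integral_congr_ae (Eventually.of_forall fun x => ?_)
    simp only [flip_innerₗ]
    rfl
  rw [e6]
  refine integral_congr_ae (Eventually.of_forall fun x => ?_)
  simp [hGv]

theorem plancherel_le {H : E n → ℂ} (h1 : Integrable H) (h2 : MemLp H 2) :
    ∫⁻ x, ‖𝓕⁻ H x‖ₑ ^ 2 ≤ ∫⁻ η, ‖H η‖ₑ ^ 2 := by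
  have e1 : ∫⁻ x, ‖𝓕⁻ H x‖ₑ ^ 2 = ∫⁻ x, ‖𝓕 H x‖ₑ ^ 2 := by
    have : ∀ x, 𝓕⁻ H x = 𝓕 H (-x) := fun x => Real.fourierInv_eq_fourier_neg H x
    simp only [this]
    exact (Measure.measurePreserving_neg (volume : Measure (E n))).lintegral_comp_emb
      (MeasurableEquiv.neg (E n)).measurableEmbedding (fun x => ‖𝓕 H x‖ₑ ^ 2)
  have e2 : ∫⁻ x, ‖𝓕 H x‖ₑ ^ 2 = ∫⁻ x, ‖(𝓕 (h2.toLp H) : Lp ℂ 2 (volume : Measure (E n))) x‖ₑ ^ 2 := by
    refine lintegral_congr_ae ?_
    filter_upwards [plan_fourier_ae h1 h2] with x hx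
    rw [hx]
  have e3 : ∫⁻ x, ‖H x‖ₑ ^ 2 = ∫⁻ x, ‖(h2.toLp H : Lp ℂ 2 (volume : Measure (E n))) x‖ₑ ^ 2 := by
    refine lintegral_congr_ae ?_
    filter_upwards [h2.coeFn_toLp] with x hx
    rw [hx]
  have key : ∀ f : Lp ℂ 2 (volume : Measure (E n)), ∫⁻ x, ‖f x‖ₑ ^ 2 = ‖f‖ₑ ^ 2 := by
    intro f
    rw [Lp.enorm_def, eLpNorm_eq_lintegral_rpow_enorm_toReal (by norm_num) (by norm_num)]
    simp only [ENNReal.toReal_ofNat, ENNReal.rpow_ofNat]
    rw [← ENNReal.rpow_natCast, ← ENNReal.rpow_mul]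
    norm_num
  rw [e1, e2, e3, key, key]
  have e4 : ‖(𝓕 (h2.toLp H) : Lp ℂ 2 (volume : Measure (E n)))‖ = ‖(h2.toLp H : Lp ℂ 2 (volume : Measure (E n)))‖ :=
    MeasureTheory.Lp.norm_fourier_eq _
  have e5 : ‖(𝓕 (h2.toLp H) : Lp ℂ 2 (volume : Measure (E n)))‖ₑ = ‖(h2.toLp H : Lp ℂ 2 (volume : Measure (E n)))‖ₑ := by
    rw [← ofReal_norm, ← ofReal_norm, e4]
  rw [e5]

theorem S_plancherel {H : E n → ℂ} (h2 : MemLp H 2) {a : ℝ} (ha : 0 < a) (s : ℝ) :
    ∫⁻ x, ‖S H a s x‖ₑ ^ 2 ≤ ∫⁻ η, ‖H η‖ₑ ^ 2 := by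
  set K : E n → ℂ := fun η => e (inner ℝ (0 : E n) η - s * ‖η‖ ^ 2) *
    ((Real.exp (-(a * ‖η‖ ^ 2)) : ℝ) : ℂ) * H η with hK
  have hKi : Integrable K := integrand_int' h2 ha s 0
  have hKn : ∀ η, ‖K η‖ ≤ ‖H η‖ := by
    intro η
    simp only [hK, norm_mul, norm_e, one_mul, Complex.norm_real, Real.norm_eq_abs, Real.abs_exp]
    have : Real.exp (-(a * ‖η‖ ^ 2)) ≤ 1 := Real.exp_le_one_iff.2 (by
      have : 0 ≤ a * ‖η‖ ^ 2 := by positivity
      linarith)
    nlinarith [norm_nonneg (H η)]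
  have hK2 : MemLp K 2 := h2.mono hKi.aestronglyMeasurable (Eventually.of_forall hKn)
  have hS : ∀ x, S H a s x = 𝓕⁻ K x := by
    intro x
    rw [Real.fourierInv_eq']
    unfold S
    refine integral_congr_ae (Eventually.of_forall fun η => ?_)
    simp only [hK, smul_eq_mul, inner_zero_left, zero_sub]
    rw [← mul_assoc, ← mul_assoc]
    congr 2
    rw [sub_eq_add_neg, e_add]
    congr 1
    unfold e
    congr 1
    rw [real_inner_comm]
  calc ∫⁻ x, ‖S H a s x‖ₑ ^ 2 = ∫⁻ x, ‖𝓕⁻ K x‖ₑ ^ 2 := by simp only [hS]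
    _ ≤ ∫⁻ η, ‖K η‖ₑ ^ 2 := plancherel_le hKi hK2
    _ ≤ ∫⁻ η, ‖H η‖ₑ ^ 2 := by
      refine lintegral_mono fun η => ?_
      gcongr
      exact enorm_le_iff_norm_le.2 (hKn η)

end Vale.Agent.P076
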