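import Mathlib
import Vale.Agent.P076.Plan

/-!
# P076 module CHEB: the exceptional set of a tail

The set is `⋃_M ⋂_{k ≥ M} {1 < ‖S H (1/(k+1)) s x‖}` (increasing union), each intersection has measure
at most `∫ ‖H‖²` (Chebyshev, `S_plancherel`).  (Measurability of `x ↦ S H a s x`: it is continuous.)
-/

namespace Vale.Agent.P076

open MeasureTheory Complex Finset Filter Topology

variable {n : ℕ}

theorem cheb_cont {H : E n → ℂ} (h2 : MemLp H 2) {a : ℝ} (ha : 0 < a) (s : ℝ) :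
    Continuous (fun x => S H a s x) := by
  have hKi : Integrable (fun η => e (inner ℝ (0 : E n) η - s * ‖η‖ ^ 2) *
      ((Real.exp (-(a * ‖η‖ ^ 2)) : ℝ) : ℂ) * H η) := integrand_int' h2 ha s 0
  have h := VectorFourier.fourierIntegral_continuous (e := Real.fourierChar) (μ := volume)
      (L := innerₗ (E n)) Real.continuous_fourierChar continuous_inner hKi
  have h' : Continuous fun x : E n => VectorFourier.fourierIntegral Real.fourierChar volume
      (innerₗ (E n)) (fun η => e (inner ℝ (0 : E n) η - s * ‖η‖ ^ 2) *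
      ((Real.exp (-(a * ‖η‖ ^ 2)) : ℝ) : ℂ) * H η) (-x) := h.comp continuous_neg
  refine h'.congr fun x => ?_
  symm
  unfold S
  unfold VectorFourier.fourierIntegral
  refine integral_congr_ae (Eventually.of_forall fun η => ?_)
  simp only [innerₗ_apply_apply, inner_neg_right, neg_neg, inner_zero_left, zero_sub]
  rw [Circle.smul_def, Real.fourierChar_apply, smul_eq_mul, ← mul_assoc, ← mul_assoc]
  congr 2
  rw [sub_eq_add_neg, e_add]
  congr 1
  unfold e
  rw [real_inner_comm]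

theorem cheb_one {H : E n → ℂ} (h2 : MemLp H 2) {a : ℝ} (ha : 0 < a) (s : ℝ) :
    volume {x : E n | 1 < ‖S H a s x‖} ≤ ∫⁻ η, ‖H η‖ₑ ^ 2 := by
  refine le_trans ?_ (S_plancherel h2 ha s)
  have h1 : volume {x : E n | 1 < ‖S H a s x‖} ≤ volume {x : E n | 1 ≤ ‖S H a s x‖ₑ ^ 2} := by
    refine measure_mono fun x hx => ?_
    have hx' : 1 < ‖S H a s x‖ := hx
    show 1 ≤ ‖S H a s x‖ₑ ^ 2
    have : (1 : ENNReal) ≤ ‖S H a s x‖ₑ := by
      rw [← ofReal_norm, ← ENNReal.ofReal_one]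
      exact ENNReal.ofReal_le_ofReal hx'.le
    exact one_le_pow₀ this
  refine h1.trans ?_
  have := mul_meas_ge_le_lintegral₀ (μ := (volume : Measure (E n)))
    (f := fun x => ‖S H a s x‖ₑ ^ 2) ?_ 1
  · simpa using this
  · exact ((cheb_cont h2 ha s).measurable.enorm.pow_const 2).aemeasurable

theorem cheb {H : E n → ℂ} (h2 : MemLp H 2) (s : ℝ) :
    volume {x : E n | ∀ᶠ k : ℕ in atTop, 1 < ‖S H (1 / ((k : ℝ) + 1)) s x‖} ≤
      ∫⁻ η, ‖H η‖ₑ ^ 2 := by
  have h : {x : E n | ∀ᶠ k : ℕ in atTop, 1 < ‖S H (1 / ((k : ℝ) + 1)) s x‖} =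
      ⋃ M : ℕ, {x : E n | ∀ k ≥ M, 1 < ‖S H (1 / ((k : ℝ) + 1)) s x‖} := by
    ext x
    simp [eventually_atTop]
  rw [h]
  have hmono : Monotone fun M : ℕ => {x : E n | ∀ k ≥ M, 1 < ‖S H (1 / ((k : ℝ) + 1)) s x‖} := by
    intro M M' hMM x hx k hk
    exact hx k (hMM.trans hk)
  rw [hmono.measure_iUnion]
  refine iSup_le fun M => ?_
  refine le_trans (measure_mono ?_) (cheb_one h2 (a := 1 / ((M : ℝ) + 1)) (by positivity) s)
  intro x hx
  exact hx M le_rfl

end Vale.Agent.P076
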