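import Mathlib
import Vale.Agent.P076.Defs

/-!
# P076 module LIMINF: the hypothesis on the weight at the scales `N^{2m+4}`

Given a large `r` with `w r ≤ ε' r^{(m+1)/(m+2)}` let `N` be the largest integer with
`C N^{2m+4} ≤ r`; `(C (N+1)^{2m+4})^{(m+1)/(m+2)} = C^{..} (N+1)^{2m+2} ≤ C^{..} 2^{2m+2} N^{2m+2}`.
-/

namespace Vale.Agent.P076

theorem weight_scale (m : ℕ) (w : ℝ → ℝ) (hw : MonotoneOn w (Set.Ici 0))
    (hlim : ∀ ε > 0, ∀ M : ℝ, ∃ r ≥ M, w r ≤ ε * r ^ (((m : ℝ) + 1) / ((m : ℝ) + 2)))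
    (C : ℝ) (hC : 0 < C) (ε : ℝ) (hε : 0 < ε) (N0 : ℕ) :
    ∃ N ≥ N0, w (C * (N : ℝ) ^ (2 * m + 4)) ≤ ε * (N : ℝ) ^ (2 * m + 2) := by
  set p : ℝ := ((m : ℝ) + 1) / ((m : ℝ) + 2) with hp
  have hm0 : (0 : ℝ) ≤ m := Nat.cast_nonneg m
  have hp0 : 0 ≤ p := by positivity
  have hCp : 0 < C ^ p := Real.rpow_pos_of_pos hC p
  set K : ℝ := C ^ p * 2 ^ (2 * m + 2) with hK
  have hKpos : 0 < K := by positivity
  obtain ⟨r, hr, hwr⟩ := hlim (ε / K) (div_pos hε hKpos) (C * ((N0 : ℝ) + 1) ^ (2 * m + 4))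
  have hrpos : 0 < r := lt_of_lt_of_le (by positivity) hr
  -- the largest integer
  have hex : ∃ n : ℕ, r < C * ((n : ℝ) + 1) ^ (2 * m + 4) := by
    obtain ⟨n, hn⟩ := exists_nat_gt (r / C)
    refine ⟨n, ?_⟩
    have h1 : r < C * n := by
      rw [div_lt_iff₀ hC] at hn
      linarith
    have h2 : (n : ℝ) ≤ ((n : ℝ) + 1) ^ (2 * m + 4) := by
      have h3 : (1 : ℝ) ≤ (n : ℝ) + 1 := by
        have : (0 : ℝ) ≤ n := Nat.cast_nonneg n
        linarith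
      have h4 : ((n : ℝ) + 1) ^ 1 ≤ ((n : ℝ) + 1) ^ (2 * m + 4) :=
        pow_le_pow_right₀ h3 (by omega)
      rw [pow_one] at h4
      linarith
    nlinarith
  classical
  let n := Nat.find hex
  have hn1 : r < C * ((n : ℝ) + 1) ^ (2 * m + 4) := Nat.find_spec hex
  have hnN0 : N0 + 1 ≤ n := by
    by_contra hcon
    have hcon' : n ≤ N0 := by omega
    have : C * ((n : ℝ) + 1) ^ (2 * m + 4) ≤ C * ((N0 : ℝ) + 1) ^ (2 * m + 4) := by
      have h5 : (n : ℝ) ≤ N0 := by exact_mod_cast hcon'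
      have h6 : ((n : ℝ) + 1) ^ (2 * m + 4) ≤ ((N0 : ℝ) + 1) ^ (2 * m + 4) :=
        pow_le_pow_left₀ (by positivity) (by linarith) _
      exact mul_le_mul_of_nonneg_left h6 hC.le
    linarith
  have hn2 : C * (n : ℝ) ^ (2 * m + 4) ≤ r := by
    have h7 := Nat.find_min hex (m := n - 1) (by omega)
    have h8 : ((n - 1 : ℕ) : ℝ) + 1 = n := by
      have : 1 ≤ n := by omega
      push_cast [Nat.cast_sub this]
      ring
    rw [h8] at h7
    exact not_lt.1 h7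
  refine ⟨n, by omega, ?_⟩
  have hn1' : (1 : ℝ) ≤ n := by
    have : 1 ≤ n := by omega
    exact_mod_cast this
  have hwn : w (C * (n : ℝ) ^ (2 * m + 4)) ≤ w r :=
    hw (Set.mem_Ici.2 (by positivity)) (Set.mem_Ici.2 hrpos.le) hn2
  have hrp : r ^ p ≤ K * (n : ℝ) ^ (2 * m + 2) := by
    have h9 : r ^ p ≤ (C * ((n : ℝ) + 1) ^ (2 * m + 4)) ^ p :=
      Real.rpow_le_rpow hrpos.le hn1.le hp0
    have h10 : (C * ((n : ℝ) + 1) ^ (2 * m + 4)) ^ p = C ^ p * ((n : ℝ) + 1) ^ (2 * m + 2) := by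
      rw [Real.mul_rpow hC.le (by positivity)]
      congr 1
      rw [← Real.rpow_natCast, ← Real.rpow_mul (by positivity), ← Real.rpow_natCast]
      congr 1
      rw [hp]
      push_cast
      field_simp
      ring
    have h11 : ((n : ℝ) + 1) ^ (2 * m + 2) ≤ (2 * (n : ℝ)) ^ (2 * m + 2) :=
      pow_le_pow_left₀ (by positivity) (by linarith) _
    rw [mul_pow] at h11
    calc r ^ p ≤ C ^ p * ((n : ℝ) + 1) ^ (2 * m + 2) := by rw [← h10]; exact h9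
      _ ≤ C ^ p * (2 ^ (2 * m + 2) * (n : ℝ) ^ (2 * m + 2)) :=
        mul_le_mul_of_nonneg_left h11 hCp.le
      _ = K * (n : ℝ) ^ (2 * m + 2) := by rw [hK]; ring
  calc w (C * (n : ℝ) ^ (2 * m + 4)) ≤ w r := hwn
    _ ≤ ε / K * r ^ p := hwr
    _ ≤ ε / K * (K * (n : ℝ) ^ (2 * m + 2)) :=
      mul_le_mul_of_nonneg_left hrp (div_pos hε hKpos).le
    _ = ε * (n : ℝ) ^ (2 * m + 2) := by field_simp

end Vale.Agent.P076
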