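import Mathlib
import Vale.Agent.P076.BlkDef
import Vale.Agent.P076.Liminf

/-!
# P076 module SEL: choice of the scales and amplitudes

Recursive choice.  State before step `k`: the number `S_k = ∑_{j<k} α_j ∫ ‖H_j‖`, a bound
`δ_k = min_{j<k} 1/(1 + |T_j|)` and the previous scale.  Put `α_k = (k + 2 + S_k) / (c N^{m+1})` and choose
`N` (from `weight_scale` with `C' = 2 π C`, and larger than the previous scale, `k` and `N0`) so that
`α_k² w (2 π C N^{2m+4}) ≤ 4^{-k}` and `α_k ≤ 2^{-k} δ_k`.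
-/

namespace Vale.Agent.P076

open MeasureTheory Complex Finset Filter Topology

/-- the chosen data -/
structure Sel (m : ℕ) (c C : ℝ) (w : ℝ → ℝ) (N : ℕ → ℕ) (H : ℕ → E (m + 1) → ℂ)
    (T : ℕ → Finset ℝ) (A : ℕ → Set (E (m + 1))) (α : ℕ → ℝ) : Prop where
  blk : ∀ k, Blk m c C (N k) (H k) (T k) (A k)
  mono : StrictMono N
  N_ge : ∀ k, k + 1 ≤ N k
  α_pos : ∀ k, 0 < α k
  α_le : ∀ k, α k ≤ (1 / 2 : ℝ) ^ k
  amp : ∀ k, k + 2 + ∑ j ∈ range k, α j * ∫ η, ‖H j η‖ ≤ α k * (c * (N k : ℝ) ^ (m + 1))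
  wt : ∀ k, α k ^ 2 * w (2 * Real.pi * (C * (N k : ℝ) ^ (2 * m + 4))) ≤ (1 / 4 : ℝ) ^ k
  tail : ∀ j k, k < j → α j * (1 + (T k).card) ≤ (1 / 2 : ℝ) ^ j

/-- the output of one step of the recursion -/
private structure SelOut (m : ℕ) where
  N : ℕ
  H : E (m + 1) → ℂ
  T : Finset ℝ
  A : Set (E (m + 1))
  α : ℝ

/-- the state of the recursion: previous scale, sum of the `L¹` norms, bound for the cardinalities -/
private structure SelSt where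
  N : ℕ
  S : ℝ
  D : ℝ

private theorem sel_step (m : ℕ) (c C : ℝ) (hc : 0 < c) (hC : 0 < C) (N0 : ℕ)
    (hblk : ∀ N ≥ N0, ∃ H T A, Blk m c C N H T A) (w : ℝ → ℝ)
    (hw : MonotoneOn w (Set.Ici 0))
    (hlim : ∀ ε > 0, ∀ M : ℝ, ∃ r ≥ M, w r ≤ ε * r ^ (((m : ℝ) + 1) / ((m : ℝ) + 2)))
    (k : ℕ) (s : SelSt) : ∃ o : SelOut m, 0 ≤ s.S → 1 ≤ s.D →
      Blk m c C o.N o.H o.T o.A ∧ s.N < o.N ∧ k + 1 ≤ o.N ∧ 0 < o.α ∧
      k + 2 + s.S ≤ o.α * (c * (o.N : ℝ) ^ (m + 1)) ∧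
      o.α ^ 2 * w (2 * Real.pi * (C * (o.N : ℝ) ^ (2 * m + 4))) ≤ (1 / 4 : ℝ) ^ k ∧
      o.α * s.D ≤ (1 / 2 : ℝ) ^ k := by
  by_cases hS : 0 ≤ s.S
  swap
  · exact ⟨⟨0, fun _ => 0, ∅, ∅, 0⟩, fun h => absurd h hS⟩
  by_cases hD : 1 ≤ s.D
  swap
  · exact ⟨⟨0, fun _ => 0, ∅, ∅, 0⟩, fun _ h => absurd h hD⟩
  have hK : (0 : ℝ) < k + 2 + s.S := by positivity
  obtain ⟨M, hM⟩ := exists_nat_ge ((k + 2 + s.S) * s.D * 2 ^ k / c)
  obtain ⟨N, hN, hwN⟩ := weight_scale m w hw hlim (2 * Real.pi * C) (by positivity)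
    ((1 / 4 : ℝ) ^ k * c ^ 2 / (k + 2 + s.S) ^ 2) (by positivity)
    (max N0 (max (s.N + 1) (max (k + 1) M)))
  have hN1 : N0 ≤ N := le_trans (le_max_left _ _) hN
  have hN2 : s.N + 1 ≤ N := le_trans (le_trans (le_max_left _ _) (le_max_right _ _)) hN
  have hN3 : k + 1 ≤ N :=
    le_trans (le_trans (le_trans (le_max_left _ _) (le_max_right _ _)) (le_max_right _ _)) hN
  have hN4 : M ≤ N :=
    le_trans (le_trans (le_trans (le_max_right _ _) (le_max_right _ _)) (le_max_right _ _)) hN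
  have hNpos : 1 ≤ N := by omega
  have hNR : (1 : ℝ) ≤ N := by exact_mod_cast hNpos
  have hNp : (0 : ℝ) < (N : ℝ) ^ (m + 1) := by positivity
  obtain ⟨H, T, A, hB⟩ := hblk N hN1
  refine ⟨⟨N, H, T, A, (k + 2 + s.S) / (c * (N : ℝ) ^ (m + 1))⟩, fun _ _ =>
    ⟨hB, by simpa using hN2, hN3, by positivity, ?_, ?_, ?_⟩⟩
  · show (k : ℝ) + 2 + s.S ≤ (k + 2 + s.S) / (c * (N : ℝ) ^ (m + 1)) * (c * (N : ℝ) ^ (m + 1))
    rw [div_mul_cancel₀ _ (by positivity)]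
  · show ((k + 2 + s.S) / (c * (N : ℝ) ^ (m + 1))) ^ 2 *
      w (2 * Real.pi * (C * (N : ℝ) ^ (2 * m + 4))) ≤ (1 / 4 : ℝ) ^ k
    rw [← mul_assoc]
    calc ((k + 2 + s.S) / (c * (N : ℝ) ^ (m + 1))) ^ 2 * w (2 * Real.pi * C * (N : ℝ) ^ (2 * m + 4))
        ≤ ((k + 2 + s.S) / (c * (N : ℝ) ^ (m + 1))) ^ 2 *
          ((1 / 4 : ℝ) ^ k * c ^ 2 / (k + 2 + s.S) ^ 2 * (N : ℝ) ^ (2 * m + 2)) := by
          gcongr
      _ = (1 / 4 : ℝ) ^ k := by
          have h2 : (N : ℝ) ^ (2 * m + 2) = ((N : ℝ) ^ (m + 1)) ^ 2 := by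
            rw [← pow_mul]; ring_nf
          rw [h2]
          have h3 : (N : ℝ) ^ (m + 1) ≠ 0 := hNp.ne'
          have h4 : (k : ℝ) + 2 + s.S ≠ 0 := hK.ne'
          field_simp
  · show (k + 2 + s.S) / (c * (N : ℝ) ^ (m + 1)) * s.D ≤ (1 / 2 : ℝ) ^ k
    rw [div_mul_eq_mul_div, div_le_iff₀ (by positivity)]
    have h5 : (k + 2 + s.S) * s.D * 2 ^ k / c ≤ (N : ℝ) ^ (m + 1) := by
      calc (k + 2 + s.S) * s.D * 2 ^ k / c ≤ M := hM
        _ ≤ (N : ℝ) := by exact_mod_cast hN4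
        _ = (N : ℝ) ^ 1 := (pow_one _).symm
        _ ≤ (N : ℝ) ^ (m + 1) := pow_le_pow_right₀ hNR (by omega)
    rw [div_le_iff₀ hc] at h5
    have h6 : ((1 : ℝ) / 2) ^ k * 2 ^ k = 1 := by
      rw [← mul_pow]; norm_num
    calc (k + 2 + s.S) * s.D = ((1 : ℝ) / 2) ^ k * ((k + 2 + s.S) * s.D * 2 ^ k) := by
          rw [mul_comm ((k + 2 + s.S) * s.D), ← mul_assoc, h6, one_mul]
      _ ≤ ((1 : ℝ) / 2) ^ k * ((N : ℝ) ^ (m + 1) * c) := by gcongr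
      _ = ((1 : ℝ) / 2) ^ k * (c * (N : ℝ) ^ (m + 1)) := by ring

theorem exists_sel (m : ℕ) (c C : ℝ) (hc : 0 < c) (hC : 0 < C) (N0 : ℕ)
    (hblk : ∀ N ≥ N0, ∃ H T A, Blk m c C N H T A) (w : ℝ → ℝ) (hw0 : ∀ r, 0 ≤ w r)
    (hw : MonotoneOn w (Set.Ici 0))
    (hlim : ∀ ε > 0, ∀ M : ℝ, ∃ r ≥ M, w r ≤ ε * r ^ (((m : ℝ) + 1) / ((m : ℝ) + 2))) :
    ∃ N H T A α, Sel m c C w N H T A α := by
  choose f hf using sel_step m c C hc hC N0 hblk w hw hlim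
  let st : ℕ → SelSt := fun k => Nat.rec ⟨0, 0, 1⟩ (fun k s =>
    ⟨(f k s).N, s.S + (f k s).α * ∫ η, ‖(f k s).H η‖, s.D + (1 + ((f k s).T.card : ℝ))⟩) k
  have st0 : st 0 = ⟨0, 0, 1⟩ := rfl
  have stS : ∀ k, st (k + 1) = ⟨(f k (st k)).N, (st k).S + (f k (st k)).α *
      ∫ η, ‖(f k (st k)).H η‖, (st k).D + (1 + ((f k (st k)).T.card : ℝ))⟩ := fun k => rfl
  have inv : ∀ k, 0 ≤ (st k).S ∧ 1 ≤ (st k).D := by
    intro k
    induction k with
    | zero => rw [st0]; exact ⟨le_refl _, le_refl _⟩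
    | succ k ih =>
      have h := hf k (st k) ih.1 ih.2
      rw [stS k]
      refine ⟨?_, ?_⟩
      · show 0 ≤ (st k).S + (f k (st k)).α * ∫ η, ‖(f k (st k)).H η‖
        have h1 : 0 ≤ ∫ η, ‖(f k (st k)).H η‖ := integral_nonneg fun _ => norm_nonneg _
        have h2 := h.2.2.2.1
        have h3 := ih.1
        positivity
      · show 1 ≤ (st k).D + (1 + ((f k (st k)).T.card : ℝ))
        have h1 : (0 : ℝ) ≤ ((f k (st k)).T.card : ℝ) := Nat.cast_nonneg _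
        linarith [ih.2]
  have hsum : ∀ k, (st k).S = ∑ j ∈ range k, (f j (st j)).α * ∫ η, ‖(f j (st j)).H η‖ := by
    intro k
    induction k with
    | zero => rw [st0]; simp
    | succ k ih => rw [stS k, sum_range_succ, ← ih]
  have hDmono : ∀ k j, k < j → 1 + ((f k (st k)).T.card : ℝ) ≤ (st j).D := by
    intro k j hkj
    induction j with
    | zero => omega
    | succ j ih =>
      rw [stS j]
      show 1 + ((f k (st k)).T.card : ℝ) ≤ (st j).D + (1 + ((f j (st j)).T.card : ℝ))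
      rcases Nat.lt_succ_iff_lt_or_eq.mp hkj with h | h
      · have h1 := ih h
        have h2 : (0 : ℝ) ≤ ((f j (st j)).T.card : ℝ) := Nat.cast_nonneg _
        linarith
      · subst h
        linarith [(inv k).2]
  refine ⟨fun k => (f k (st k)).N, fun k => (f k (st k)).H, fun k => (f k (st k)).T,
    fun k => (f k (st k)).A, fun k => (f k (st k)).α, ?_⟩
  have P := fun k => hf k (st k) (inv k).1 (inv k).2
  refine ⟨fun k => (P k).1, ?_, fun k => (P k).2.2.1, fun k => (P k).2.2.2.1, ?_, ?_,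
    fun k => (P k).2.2.2.2.2.1, ?_⟩
  · refine strictMono_nat_of_lt_succ fun k => ?_
    have h := (P (k + 1)).2.1
    have h2 : (st (k + 1)).N = (f k (st k)).N := by rw [stS k]
    rw [h2] at h
    exact h
  · intro k
    have h1 := (P k).2.2.2.2.2.2
    have h2 := (P k).2.2.2.1
    calc (f k (st k)).α = (f k (st k)).α * 1 := (mul_one _).symm
      _ ≤ (f k (st k)).α * (st k).D := by gcongr; exact (inv k).2
      _ ≤ _ := h1
  · intro k
    have h1 := (P k).2.2.2.2.1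
    rw [hsum k] at h1
    exact h1
  · intro j k hkj
    have h1 := (P j).2.2.2.2.2.2
    have h2 := (P j).2.2.2.1
    calc (f j (st j)).α * (1 + ((f k (st k)).T.card : ℝ)) ≤ (f j (st j)).α * (st j).D := by
          gcongr; exact hDmono k j hkj
      _ ≤ _ := h1

end Vale.Agent.P076
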