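import Mathlib
import Vale.Agent.P076.Sel

/-!
# P076 module FSUM: the sum of the pieces

The supports are disjoint (`supp0` and `StrictMono N`: `(M+1)^{2m+4} - M^{2m+4} > (M^{m+2} + (M+1)^{m+2})/8`),
so at every `η` at most one term is nonzero and `‖F η‖² = ∑ α k² ‖H k η‖²`.
-/

namespace Vale.Agent.P076

open MeasureTheory Complex Finset Filter Topology

variable {m : ℕ} {c C : ℝ} {w : ℝ → ℝ} {N : ℕ → ℕ} {H : ℕ → E (m + 1) → ℂ}
    {T : ℕ → Finset ℝ} {A : ℕ → Set (E (m + 1))} {α : ℕ → ℝ}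

/-- the tail `∑_{j ≥ k} α_j H_j` -/
noncomputable def Ft (H : ℕ → E (m + 1) → ℂ) (α : ℕ → ℝ) (k : ℕ) (η : E (m + 1)) : ℂ :=
  ∑' j : ℕ, if k ≤ j then (α j : ℂ) * H j η else 0

/-- the partial sum `∑_{j < k} α_j H_j` -/
noncomputable def Fp (H : ℕ → E (m + 1) → ℂ) (α : ℕ → ℝ) (k : ℕ) (η : E (m + 1)) : ℂ :=
  ∑ j ∈ range k, (α j : ℂ) * H j η

private theorem disj_lt (h : Sel m c C w N H T A α) {j k : ℕ} (hjk : j < k) (η : E (m + 1)) :
    H j η = 0 ∨ H k η = 0 := by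
  by_contra hcon
  push Not at hcon
  obtain ⟨h1, h2⟩ := hcon
  have s1 := (h.blk j).supp0 η h1
  have s2 := (h.blk k).supp0 η h2
  have hN : N j < N k := h.mono hjk
  have hp : N j ^ (m + 2) + 1 ≤ N k ^ (m + 2) :=
    Nat.succ_le_of_lt (Nat.pow_lt_pow_left hN (by omega))
  have hj1 : 1 ≤ N j ^ (m + 2) := Nat.one_le_pow _ _ (by have := h.N_ge j; omega)
  set a : ℝ := (N j : ℝ) ^ (m + 2) with ha
  set b : ℝ := (N k : ℝ) ^ (m + 2) with hb
  have hab : a + 1 ≤ b := by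
    rw [ha, hb]
    exact_mod_cast hp
  have ha1 : 1 ≤ a := by
    rw [ha]
    exact_mod_cast hj1
  have e1 : (N j : ℝ) ^ (2 * m + 4) = a ^ 2 := by rw [ha]; ring
  have e2 : (N k : ℝ) ^ (2 * m + 4) = b ^ 2 := by rw [hb]; ring
  rw [e1] at s1
  rw [e2] at s2
  have t1 := abs_le.1 s1
  have t2 := abs_le.1 s2
  nlinarith [t1.1, t1.2, t2.1, t2.2]

theorem disj (h : Sel m c C w N H T A α) {j k : ℕ} (hjk : j ≠ k) (η : E (m + 1)) :
    H j η = 0 ∨ H k η = 0 := by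
  rcases lt_or_gt_of_ne hjk with h1 | h1
  · exact disj_lt h h1 η
  · exact (disj_lt h h1 η).symm

private theorem fsum_one (h : Sel m c C w N H T A α) (η : E (m + 1)) :
    ∃ j₀, ∀ j, j ≠ j₀ → H j η = 0 := by
  by_cases hz : ∀ j, H j η = 0
  · exact ⟨0, fun j _ => hz j⟩
  · push Not at hz
    obtain ⟨j₀, hj⟩ := hz
    exact ⟨j₀, fun j hne => (disj h hne η).resolve_right hj⟩

private theorem fsum_val (k : ℕ) {η : E (m + 1)} {j₀ : ℕ} (h0 : ∀ j, j ≠ j₀ → H j η = 0) :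
    Ft H α k η = if k ≤ j₀ then (α j₀ : ℂ) * H j₀ η else 0 := by
  unfold Ft
  rw [tsum_eq_single j₀]
  intro j hj
  rw [h0 j hj]
  simp

theorem Ft_zero_eq (h : Sel m c C w N H T A α) (k : ℕ) (η : E (m + 1)) :
    Ft H α 0 η = Fp H α k η + Ft H α k η := by
  obtain ⟨j₀, h0⟩ := fsum_one h η
  rw [fsum_val 0 h0, fsum_val k h0, if_pos (Nat.zero_le _)]
  unfold Fp
  by_cases hk : k ≤ j₀
  · rw [if_pos hk, sum_eq_zero, zero_add]
    intro j hj
    rw [mem_range] at hj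
    rw [h0 j (by omega), mul_zero]
  · rw [if_neg hk, add_zero, sum_eq_single_of_mem j₀ (mem_range.2 (by omega))]
    intro j _ hj
    rw [h0 j hj, mul_zero]

theorem Ft_measurable (h : Sel m c C w N H T A α) (k : ℕ) : Measurable (Ft H α k) := by
  have h1 : ∀ n : ℕ, Measurable (fun η : E (m + 1) =>
      ∑ j ∈ range n, if k ≤ j then (α j : ℂ) * H j η else 0) := by
    intro n
    refine Finset.measurable_fun_sum _ fun j _ => ?_
    split_ifs
    · exact (h.blk j).meas.const_mul _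
    · exact measurable_const
  refine measurable_of_tendsto_metrizable h1 ?_
  rw [tendsto_pi_nhds]
  intro η
  obtain ⟨j₀, h0⟩ := fsum_one h η
  have hs : Summable (fun j : ℕ => if k ≤ j then (α j : ℂ) * H j η else 0) := by
    refine summable_of_ne_finset_zero (s := {j₀}) fun j hj => ?_
    rw [mem_singleton] at hj
    rw [h0 j hj]
    simp
  exact hs.hasSum.tendsto_sum_nat

private theorem fsum_lint (h : Sel m c C w N H T A α) (j : ℕ) :
    ∫⁻ η, ‖H j η‖ₑ ^ 2 ≤ 1 := by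
  have h1 : ∀ η, ‖H j η‖ₑ ^ 2 = ENNReal.ofReal (‖H j η‖ ^ 2) := by
    intro η
    rw [← ofReal_norm, ENNReal.ofReal_pow (norm_nonneg _)]
  simp_rw [h1]
  rw [← ofReal_integral_eq_lintegral_ofReal ((h.blk j).memLp.integrable_norm_pow two_ne_zero)
    (Eventually.of_forall fun η => by positivity)]
  exact ENNReal.ofReal_le_one.2 (h.blk j).norm

private theorem fsum_meas (h : Sel m c C w N H T A α) (j : ℕ) :
    Measurable (fun η => ‖H j η‖ₑ ^ 2) := (h.blk j).meas.enorm.pow_const 2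

private theorem fsum_sq (a : ℝ) (z : ℂ) :
    ‖(a : ℂ) * z‖ₑ ^ 2 = ENNReal.ofReal (a ^ 2) * ‖z‖ₑ ^ 2 := by
  rw [enorm_mul, mul_pow]
  congr 1
  rw [← ofReal_norm, ← ENNReal.ofReal_pow (norm_nonneg _)]
  congr 1
  rw [Complex.norm_real, Real.norm_eq_abs, sq_abs]

private theorem fsum_summable (h : Sel m c C w N H T A α) (k : ℕ) :
    Summable (fun j : ℕ => if k ≤ j then α j ^ 2 else 0) := by
  refine Summable.of_nonneg_of_le (g := fun j : ℕ => if k ≤ j then α j ^ 2 else 0)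
    (f := fun j : ℕ => ((1 / 4 : ℝ)) ^ j) (fun j => ?_) (fun j => ?_)
    (summable_geometric_of_lt_one (by norm_num) (by norm_num))
  · split_ifs
    · positivity
    · exact le_rfl
  · have h1 : α j ^ 2 ≤ (1 / 4 : ℝ) ^ j := by
      have h2 := pow_le_pow_left₀ (h.α_pos j).le (h.α_le j) 2
      have h3 : (((1 : ℝ) / 2) ^ j) ^ 2 = (1 / 4 : ℝ) ^ j := by
        rw [← pow_mul, mul_comm, pow_mul]
        norm_num
      rwa [h3] at h2
    split_ifs
    · exact h1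
    · positivity

theorem Ft_norm_sq (h : Sel m c C w N H T A α) (k : ℕ) :
    ∫⁻ η, ‖Ft H α k η‖ₑ ^ 2 ≤ ENNReal.ofReal (∑' j : ℕ, if k ≤ j then α j ^ 2 else 0) := by
  have hpt : ∀ η, ‖Ft H α k η‖ₑ ^ 2 ≤
      ∑' j : ℕ, ENNReal.ofReal (if k ≤ j then α j ^ 2 else 0) * ‖H j η‖ₑ ^ 2 := by
    intro η
    obtain ⟨j₀, h0⟩ := fsum_one h η
    rw [fsum_val k h0]
    refine le_trans ?_ (ENNReal.le_tsum j₀)
    split_ifs
    · rw [fsum_sq]
    · simp
  calc ∫⁻ η, ‖Ft H α k η‖ₑ ^ 2 ≤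
      ∫⁻ η, ∑' j : ℕ, ENNReal.ofReal (if k ≤ j then α j ^ 2 else 0) * ‖H j η‖ₑ ^ 2 :=
        lintegral_mono hpt
    _ = ∑' j : ℕ, ∫⁻ η, ENNReal.ofReal (if k ≤ j then α j ^ 2 else 0) * ‖H j η‖ₑ ^ 2 :=
        lintegral_tsum fun j => ((fsum_meas h j).const_mul _).aemeasurable
    _ ≤ ∑' j : ℕ, ENNReal.ofReal (if k ≤ j then α j ^ 2 else 0) := by
        refine ENNReal.tsum_le_tsum fun j => ?_
        rw [lintegral_const_mul _ (fsum_meas h j)]
        calc _ ≤ ENNReal.ofReal (if k ≤ j then α j ^ 2 else 0) * 1 := by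
              gcongr
              exact fsum_lint h j
          _ = _ := mul_one _
    _ = ENNReal.ofReal (∑' j : ℕ, if k ≤ j then α j ^ 2 else 0) := by
        rw [ENNReal.ofReal_tsum_of_nonneg _ (fsum_summable h k)]
        intro j
        split_ifs
        · positivity
        · exact le_rfl

theorem Ft_memLp (h : Sel m c C w N H T A α) (k : ℕ) : MemLp (Ft H α k) 2 := by
  refine ⟨(Ft_measurable h k).aestronglyMeasurable, ?_⟩
  rw [eLpNorm_lt_top_iff_lintegral_rpow_enorm_lt_top two_ne_zero ENNReal.ofNat_ne_top]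
  have h1 : ∀ η, ‖Ft H α k η‖ₑ ^ (2 : ENNReal).toReal = ‖Ft H α k η‖ₑ ^ 2 := by
    intro η
    rw [ENNReal.toReal_ofNat]
    exact ENNReal.rpow_natCast _ 2
  simp_rw [h1]
  exact (Ft_norm_sq h k).trans_lt ENNReal.ofReal_lt_top

theorem Fp_integrable (h : Sel m c C w N H T A α) (k : ℕ) : Integrable (Fp H α k) := by
  unfold Fp
  exact integrable_finsetSum _ fun j _ => (h.blk j).int.const_mul _

theorem Fp_memLp (h : Sel m c C w N H T A α) (k : ℕ) : MemLp (Fp H α k) 2 := by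
  unfold Fp
  exact memLp_finsetSum _ fun j _ => (h.blk j).memLp.const_mul _

theorem weighted (h : Sel m c C w N H T A α) (hw0 : ∀ r, 0 ≤ w r)
    (hw : MonotoneOn w (Set.Ici 0)) :
    Integrable fun η : E (m + 1) => w (2 * Real.pi * ‖η‖) * ‖Ft H α 0 η‖ ^ 2 := by
  have hwm : Measurable (fun η : E (m + 1) => w (2 * Real.pi * ‖η‖)) := by
    have h1 : Monotone (fun r : ℝ => w (max r 0)) := by
      intro r r' hr
      exact hw (Set.mem_Ici.2 (le_max_right _ _)) (Set.mem_Ici.2 (le_max_right _ _))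
        (max_le_max_right 0 hr)
    have h2 : (fun η : E (m + 1) => w (2 * Real.pi * ‖η‖)) =
        fun η : E (m + 1) => (fun r : ℝ => w (max r 0)) (2 * Real.pi * ‖η‖) := by
      funext η
      have : 0 ≤ 2 * Real.pi * ‖η‖ := by positivity
      simp only [max_eq_left this]
    rw [h2]
    exact h1.measurable.comp (measurable_norm.const_mul _)
  have hmeas : Measurable fun η : E (m + 1) => w (2 * Real.pi * ‖η‖) * ‖Ft H α 0 η‖ ^ 2 :=
    hwm.mul ((Ft_measurable h 0).norm.pow_const 2)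
  refine ⟨hmeas.aestronglyMeasurable, ?_⟩
  rw [hasFiniteIntegral_iff_enorm]
  have hpt : ∀ η : E (m + 1), ‖w (2 * Real.pi * ‖η‖) * ‖Ft H α 0 η‖ ^ 2‖ₑ ≤
      ∑' j : ℕ, ENNReal.ofReal ((1 / 4 : ℝ) ^ j) * ‖H j η‖ₑ ^ 2 := by
    intro η
    obtain ⟨j₀, h0⟩ := fsum_one h η
    rw [fsum_val 0 h0, if_pos (Nat.zero_le _)]
    refine le_trans ?_ (ENNReal.le_tsum j₀)
    rw [Real.enorm_eq_ofReal (mul_nonneg (hw0 _) (by positivity)), ← ofReal_norm,
      ← ENNReal.ofReal_pow (norm_nonneg _), ← ENNReal.ofReal_mul (by positivity)]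
    refine ENNReal.ofReal_le_ofReal ?_
    by_cases hz : H j₀ η = 0
    · rw [hz]
      simp
    · rw [norm_mul, Complex.norm_real, mul_pow, Real.norm_eq_abs, sq_abs, ← mul_assoc]
      refine mul_le_mul_of_nonneg_right ?_ (by positivity)
      have hsup := (h.blk j₀).supp η hz
      have hpos : 0 ≤ 2 * Real.pi * ‖η‖ := by positivity
      have hle : 2 * Real.pi * ‖η‖ ≤ 2 * Real.pi * (C * (N j₀ : ℝ) ^ (2 * m + 4)) := by gcongr
      have hmon := hw (Set.mem_Ici.2 hpos) (Set.mem_Ici.2 (hpos.trans hle)) hle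
      calc w (2 * Real.pi * ‖η‖) * α j₀ ^ 2
          ≤ w (2 * Real.pi * (C * (N j₀ : ℝ) ^ (2 * m + 4))) * α j₀ ^ 2 := by gcongr
        _ = α j₀ ^ 2 * w (2 * Real.pi * (C * (N j₀ : ℝ) ^ (2 * m + 4))) := mul_comm _ _
        _ ≤ _ := h.wt j₀
  calc ∫⁻ η : E (m + 1), ‖w (2 * Real.pi * ‖η‖) * ‖Ft H α 0 η‖ ^ 2‖ₑ ≤
      ∫⁻ η, ∑' j : ℕ, ENNReal.ofReal ((1 / 4 : ℝ) ^ j) * ‖H j η‖ₑ ^ 2 := lintegral_mono hpt
    _ = ∑' j : ℕ, ∫⁻ η, ENNReal.ofReal ((1 / 4 : ℝ) ^ j) * ‖H j η‖ₑ ^ 2 :=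
        lintegral_tsum fun j => ((fsum_meas h j).const_mul _).aemeasurable
    _ ≤ ∑' j : ℕ, ENNReal.ofReal ((1 / 4 : ℝ) ^ j) := by
        refine ENNReal.tsum_le_tsum fun j => ?_
        rw [lintegral_const_mul _ (fsum_meas h j)]
        calc _ ≤ ENNReal.ofReal ((1 / 4 : ℝ) ^ j) * 1 := by
              gcongr
              exact fsum_lint h j
          _ = _ := mul_one _
    _ = ENNReal.ofReal (∑' j : ℕ, (1 / 4 : ℝ) ^ j) := by
        rw [ENNReal.ofReal_tsum_of_nonneg (fun j => by positivity)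
          (summable_geometric_of_lt_one (by norm_num) (by norm_num))]
    _ < ⊤ := ENNReal.ofReal_lt_top

end Vale.Agent.P076
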