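import Mathlib
import Vale.Agent.P076.Defs

/-!
# P076 module LIMSUP: reverse Fatou for sets in the unit cube
-/

namespace Vale.Agent.P076

open MeasureTheory Filter

theorem cube_volume (n : ℕ) : volume {x : E n | ∀ i, 0 ≤ x i ∧ x i ≤ 1} ≤ 1 := by
  have hmp := EuclideanSpace.volume_preserving_symm_measurableEquiv_toLp (Fin n)
  have hset : {x : E n | ∀ i, 0 ≤ x i ∧ x i ≤ 1} =
      (MeasurableEquiv.toLp 2 (Fin n → ℝ)).symm ⁻¹' (Set.Icc (0 : Fin n → ℝ) 1) := by
    ext x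
    simp only [Set.mem_setOf_eq, Set.mem_preimage, Set.mem_Icc, Pi.le_def]
    constructor
    · intro h
      exact ⟨fun i => (h i).1, fun i => (h i).2⟩
    · rintro ⟨h1, h2⟩ i
      exact ⟨h1 i, h2 i⟩
  rw [hset, hmp.measure_preimage measurableSet_Icc.nullMeasurableSet, Real.volume_Icc_pi]
  simp

theorem limsup_ge {n : ℕ} (A : ℕ → Set (E n)) (hm : ∀ k, MeasurableSet (A k))
    (hs : ∀ k, ∀ x ∈ A k, ∀ i, 0 ≤ x i ∧ x i ≤ 1) (c : ENNReal) (hc : ∀ k, c ≤ volume (A k)) :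
    c ≤ volume {x : E n | ∃ᶠ k in atTop, x ∈ A k} := by
  have hset : {x : E n | ∃ᶠ k in atTop, x ∈ A k} = ⋂ N : ℕ, ⋃ k ≥ N, A k := by
    ext x
    simp only [Set.mem_setOf_eq, frequently_atTop, Set.mem_iInter, Set.mem_iUnion, exists_prop]
  have hcube : volume (⋃ k ≥ 0, A k) ≠ ⊤ := by
    refine ne_top_of_le_ne_top (ENNReal.one_ne_top) (le_trans (measure_mono ?_) (cube_volume n))
    intro x hx
    simp only [Set.mem_iUnion, exists_prop] at hx
    obtain ⟨k, _, hk⟩ := hx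
    exact hs k x hk
  have hanti : Antitone fun N : ℕ => ⋃ k ≥ N, A k := by
    intro a b hab x hx
    simp only [Set.mem_iUnion, exists_prop] at hx ⊢
    obtain ⟨k, hk, hx⟩ := hx
    exact ⟨k, le_trans hab hk, hx⟩
  have hlim := tendsto_measure_iInter_atTop (μ := (volume : Measure (E n)))
    (s := fun N : ℕ => ⋃ k ≥ N, A k)
    (fun N => (MeasurableSet.iUnion fun k => MeasurableSet.iUnion fun _ => hm k).nullMeasurableSet)
    hanti ⟨0, hcube⟩
  rw [hset]
  refine ge_of_tendsto hlim (Eventually.of_forall fun N => ?_)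
  refine le_trans (hc N) (measure_mono ?_)
  intro x hx
  simp only [Set.mem_iUnion, exists_prop]
  exact ⟨N, le_refl N, hx⟩

end Vale.Agent.P076
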