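import Mathlib
import Vale.Agent.P076.Fsum
import Vale.Agent.P076.Cheb
import Vale.Agent.P076.Limsup
import Vale.Agent.P076.Block

/-!
# P076 module FINAL: divergence

`Bad k = ⋃_{s ∈ T k} {x | eventually 1 < ‖S (Ft (k+1)) (1/(i+1)) s x‖}` has measure at most
`|T k| ∑_{j>k} α_j² ≤ ∑_{j>k} 4^{-j}` (by `tail`), so almost every `x` is in finitely many `Bad k`
(`measure_limsup_atTop_eq_zero`).  Let `x` be in infinitely many `A k` and in finitely many `Bad k`, and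
assume that `u s` exists for small `s` and stays bounded by `M` (this follows from convergence).  For large
`k` with `x ∈ A k`, take `s ∈ T k` from `low`; `S (Fp (k+1)) a s x → S (Fp (k+1)) 0 s x`, whose norm is at
least `α k c N_k^{m+1} - ∑_{j<k} α_j ∫‖H_j‖ ≥ k + 2` (`S_add_int`, `norm_S_le`, `S_smul`), and frequently
`‖S (Ft (k+1)) (1/(i+1)) s x‖ ≤ 1`; so `‖u s‖ ≥ k + 1`.
-/

namespace Vale.Agent.P076

open MeasureTheory Complex Finset Filter Topology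

variable {m : ℕ} {c C : ℝ} {w : ℝ → ℝ} {N : ℕ → ℕ} {H : ℕ → E (m + 1) → ℂ}
    {T : ℕ → Finset ℝ} {A : ℕ → Set (E (m + 1))} {α : ℕ → ℝ}

/-- existence of the regularised evolution for small times, and of its limit -/
def Conv {n : ℕ} (F : E n → ℂ) (x : E n) : Prop :=
  ∃ (u : ℝ → ℂ) (z : ℂ), (∀ᶠ s in 𝓝[>] 0, Tendsto (fun a => S F a s x) (𝓝[>] 0) (𝓝 (u s))) ∧
    Tendsto u (𝓝[>] 0) (𝓝 z)

private lemma final_tail_sum (h : Sel m c C w N H T A α) (k : ℕ) :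
    ((T k).card : ℝ) * (∑' j : ℕ, if k + 1 ≤ j then α j ^ 2 else 0) ≤ (1 / 4 : ℝ) ^ k := by
  have hgeo : Summable fun j : ℕ => (1 / 4 : ℝ) ^ j :=
    summable_geometric_of_lt_one (by norm_num) (by norm_num)
  have hterm : ∀ j : ℕ, ((T k).card : ℝ) * (if k + 1 ≤ j then α j ^ 2 else 0) ≤
      if k + 1 ≤ j then (1 / 4 : ℝ) ^ j else 0 := by
    intro j
    split_ifs with hj
    · have h1 := h.tail j k (by omega)
      have h2 := h.α_pos j
      have h3 : (0 : ℝ) ≤ ((T k).card : ℝ) := Nat.cast_nonneg _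
      have h4 : (α j * (1 + (T k).card)) ^ 2 ≤ ((1 / 2 : ℝ) ^ j) ^ 2 := by
        apply pow_le_pow_left₀ _ h1
        positivity
      have h5 : ((1 / 2 : ℝ) ^ j) ^ 2 = (1 / 4 : ℝ) ^ j := by
        rw [← pow_mul, mul_comm, pow_mul]; norm_num
      rw [h5] at h4
      refine le_trans ?_ h4
      have h6 : ((T k).card : ℝ) ≤ (1 + (T k).card) ^ 2 := by nlinarith
      calc ((T k).card : ℝ) * α j ^ 2 ≤ (1 + (T k).card) ^ 2 * α j ^ 2 := by gcongr
        _ = (α j * (1 + (T k).card)) ^ 2 := by ring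
    · simp
  have hs0 : Summable fun j : ℕ => if k + 1 ≤ j then (1 / 4 : ℝ) ^ j else 0 := by
    refine hgeo.of_nonneg_of_le (fun j => ?_) (fun j => ?_)
    · split_ifs <;> positivity
    · split_ifs
      · exact le_rfl
      · positivity
  rw [← tsum_mul_left]
  have hs1 : Summable fun j : ℕ => ((T k).card : ℝ) * (if k + 1 ≤ j then α j ^ 2 else 0) := by
    refine hs0.of_nonneg_of_le (fun j => ?_) hterm
    split_ifs <;> positivity
  refine (hs1.tsum_le_tsum hterm hs0).trans ?_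
  have hsplit := hs0.sum_add_tsum_nat_add (k + 1)
  rw [← hsplit]
  have hz : ∑ j ∈ range (k + 1), (if k + 1 ≤ j then (1 / 4 : ℝ) ^ j else 0) = 0 := by
    refine Finset.sum_eq_zero fun j hj => ?_
    rw [if_neg]
    have := Finset.mem_range.1 hj
    omega
  rw [hz, zero_add]
  have he : (fun j : ℕ => if k + 1 ≤ j + (k + 1) then (1 / 4 : ℝ) ^ (j + (k + 1)) else 0) =
      fun j : ℕ => (1 / 4 : ℝ) ^ (k + 1) * (1 / 4 : ℝ) ^ j := by
    funext j
    rw [if_pos (by omega), pow_add, mul_comm]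
  rw [he, tsum_mul_left, tsum_geometric_of_lt_one (by norm_num) (by norm_num), pow_succ]
  have : (0 : ℝ) ≤ (1 / 4 : ℝ) ^ k := by positivity
  nlinarith

theorem bad_volume (h : Sel m c C w N H T A α) (k : ℕ) :
    volume (⋃ s ∈ T k, {x : E (m + 1) | ∀ᶠ i : ℕ in atTop,
      1 < ‖S (Ft H α (k + 1)) (1 / ((i : ℝ) + 1)) s x‖}) ≤ ENNReal.ofReal ((1 / 4 : ℝ) ^ k) := by
  refine (measure_biUnion_finset_le _ _).trans ?_
  have h1 : ∀ s ∈ T k, volume {x : E (m + 1) | ∀ᶠ i : ℕ in atTop,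
      1 < ‖S (Ft H α (k + 1)) (1 / ((i : ℝ) + 1)) s x‖} ≤
        ENNReal.ofReal (∑' j : ℕ, if k + 1 ≤ j then α j ^ 2 else 0) := fun s _ =>
    (cheb (Ft_memLp h (k + 1)) s).trans (Ft_norm_sq h (k + 1))
  refine (Finset.sum_le_sum h1).trans ?_
  rw [Finset.sum_const, nsmul_eq_mul, ← ENNReal.ofReal_natCast, ← ENNReal.ofReal_mul (by positivity)]
  exact ENNReal.ofReal_le_ofReal (final_tail_sum h k)

private lemma final_norm_Fp (h : Sel m c C w N H T A α) (k : ℕ) (s : ℝ) (x : E (m + 1)) :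
    ‖S (Fp H α k) 0 s x‖ ≤ ∑ j ∈ range k, α j * ∫ η, ‖H j η‖ := by
  refine (norm_S_le (Fp_integrable h k) le_rfl s x).trans ?_
  have h1 : ∀ j ∈ range k, Integrable fun η => α j * ‖H j η‖ := fun j _ =>
    ((h.blk j).int.norm).const_mul _
  have h2 : ∑ j ∈ range k, α j * ∫ η, ‖H j η‖ = ∫ η, ∑ j ∈ range k, α j * ‖H j η‖ := by
    rw [integral_finsetSum _ h1]
    refine Finset.sum_congr rfl fun j _ => ?_
    rw [integral_const_mul]
  rw [h2]
  refine integral_mono (Fp_integrable h k).norm (integrable_finsetSum _ h1) fun η => ?_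
  refine (norm_sum_le _ _).trans (Finset.sum_le_sum fun j _ => ?_)
  rw [norm_mul, Complex.norm_real, Real.norm_of_nonneg (h.α_pos j).le]

private lemma final_low (h : Sel m c C w N H T A α) (k : ℕ) (s : ℝ) (x : E (m + 1))
    (hlow : c * (N k : ℝ) ^ (m + 1) ≤ ‖S (H k) 0 s x‖) :
    (k : ℝ) + 2 ≤ ‖S (Fp H α (k + 1)) 0 s x‖ := by
  have e1 : S (Fp H α (k + 1)) 0 s x = S (Fp H α k) 0 s x + (α k : ℂ) * S (H k) 0 s x := by
    rw [← S_smul, ← S_add_int (Fp_integrable h k) ((h.blk k).int.const_mul _) le_rfl]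
    congr 1
    funext η
    simp only [Fp, Finset.sum_range_succ]
  have h1 := final_norm_Fp h k s x
  have h2 := h.amp k
  have h3 : α k * (c * (N k : ℝ) ^ (m + 1)) ≤ ‖(α k : ℂ) * S (H k) 0 s x‖ := by
    rw [norm_mul, Complex.norm_real, Real.norm_of_nonneg (h.α_pos k).le]
    exact mul_le_mul_of_nonneg_left hlow (h.α_pos k).le
  have h4 : ‖(α k : ℂ) * S (H k) 0 s x‖ ≤ ‖S (Fp H α (k + 1)) 0 s x‖ + ‖S (Fp H α k) 0 s x‖ := by
    have : (α k : ℂ) * S (H k) 0 s x = S (Fp H α (k + 1)) 0 s x - S (Fp H α k) 0 s x := by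
      rw [e1]; ring
    rw [this]
    exact norm_sub_le _ _
  linarith

theorem not_conv (h : Sel m c C w N H T A α) {x : E (m + 1)} (hA : ∃ᶠ k in atTop, x ∈ A k)
    (hB : ∀ᶠ k in atTop, x ∉ ⋃ s ∈ T k, {x : E (m + 1) | ∀ᶠ i : ℕ in atTop,
      1 < ‖S (Ft H α (k + 1)) (1 / ((i : ℝ) + 1)) s x‖}) : ¬ Conv (Ft H α 0) x := by
  rintro ⟨u, z, h1, h2⟩
  have h3 : ∀ᶠ s in 𝓝[>] (0 : ℝ), ‖u s‖ < ‖z‖ + 1 :=
    h2.norm.eventually (gt_mem_nhds (by linarith))
  obtain ⟨δ, hδ, h4⟩ := (mem_nhdsGT_iff_exists_Ioo_subset (a := (0 : ℝ))).1 (h1.and h3)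
  have hδ' : (0 : ℝ) < δ := hδ
  have h5 : ∀ᶠ k : ℕ in atTop, ‖z‖ + 1 ≤ (k : ℝ) :=
    tendsto_natCast_atTop_atTop.eventually_ge_atTop _
  have h6 : ∀ᶠ k : ℕ in atTop, 1 / δ ≤ (k : ℝ) :=
    tendsto_natCast_atTop_atTop.eventually_ge_atTop _
  obtain ⟨k, hk, hkB, hk1, hk2⟩ := (hA.and_eventually (hB.and (h5.and h6))).exists
  obtain ⟨s, hs, hlow⟩ := (h.blk k).low x hk
  have hs0 := (h.blk k).T_pos s hs
  have hsδ : s < δ := by
    have hN : (k : ℝ) + 1 ≤ N k := by exact_mod_cast h.N_ge k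
    have hk0 : (0 : ℝ) ≤ k := Nat.cast_nonneg k
    refine lt_of_le_of_lt ((h.blk k).T_le s hs) ?_
    rw [div_lt_iff₀ (by linarith)]
    rw [div_le_iff₀ hδ'] at hk2
    nlinarith
  obtain ⟨h7, h8⟩ := h4 ⟨hs0, hsδ⟩
  -- the sequence a_i
  have ha : Tendsto (fun i : ℕ => 1 / ((i : ℝ) + 1)) atTop (𝓝[>] 0) := by
    refine tendsto_nhdsWithin_iff.2 ⟨tendsto_one_div_add_atTop_nhds_zero_nat, ?_⟩
    exact Eventually.of_forall fun i => Set.mem_Ioi.2 (by positivity)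
  have h9 := h7.comp ha
  have h10 := (S_tendsto (Fp_integrable h (k + 1)) s x).comp ha
  have h11 : Tendsto (fun i : ℕ => S (Ft H α (k + 1)) (1 / ((i : ℝ) + 1)) s x) atTop
      (𝓝 (u s - S (Fp H α (k + 1)) 0 s x)) := by
    refine (h9.sub h10).congr fun i => ?_
    simp only [Function.comp_def]
    have hi : (0 : ℝ) < 1 / ((i : ℝ) + 1) := by positivity
    have := S_add (Fp_memLp h (k + 1)) (Ft_memLp h (k + 1)) hi s x
    have e2 : (fun η => Fp H α (k + 1) η + Ft H α (k + 1) η) = Ft H α 0 := by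
      funext η; exact (Ft_zero_eq h (k + 1) η).symm
    rw [e2] at this
    rw [this]; ring
  have h12 : ∃ᶠ i : ℕ in atTop, ‖S (Ft H α (k + 1)) (1 / ((i : ℝ) + 1)) s x‖ ≤ 1 := by
    intro hcon
    apply hkB
    simp only [Set.mem_iUnion, Set.mem_ofPred_eq]
    refine ⟨s, hs, ?_⟩
    filter_upwards [hcon] with i hi
    exact not_le.1 hi
  have h13 : ‖u s - S (Fp H α (k + 1)) 0 s x‖ ≤ 1 := by
    by_contra hcon
    have h14 := h11.norm.eventually (lt_mem_nhds (not_le.1 hcon))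
    obtain ⟨i, hi1, hi2⟩ := (h12.and_eventually h14).exists
    linarith
  have h15 := final_low h k s x hlow
  have h16 : ‖S (Fp H α (k + 1)) 0 s x‖ ≤ ‖u s‖ + ‖u s - S (Fp H α (k + 1)) 0 s x‖ := by
    have : S (Fp H α (k + 1)) 0 s x = u s - (u s - S (Fp H α (k + 1)) 0 s x) := by ring
    conv_lhs => rw [this]
    exact norm_sub_le _ _
  linarith

theorem final (m : ℕ) (hm : 1 ≤ m) (w : ℝ → ℝ) (hw0 : ∀ r, 0 ≤ w r)
    (hw : MonotoneOn w (Set.Ici 0))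
    (hlim : ∀ ε > 0, ∀ M : ℝ, ∃ r ≥ M, w r ≤ ε * r ^ (((m : ℝ) + 1) / ((m : ℝ) + 2))) :
    ∃ F : E (m + 1) → ℂ, MemLp F 2 ∧
      Integrable (fun η : E (m + 1) => w (2 * Real.pi * ‖η‖) * ‖F η‖ ^ 2) ∧
      ∃ c : ℝ, 0 < c ∧ ∃ X : Set (E (m + 1)), ENNReal.ofReal c ≤ volume X ∧
        ∀ x ∈ X, ¬ Conv F x := by
  obtain ⟨c, C, hc, hC, N0, hN0, hblk⟩ := block m hm
  obtain ⟨N, H, T, A, α, h⟩ := exists_sel m c C hc hC N0 hblk w hw0 hw hlim
  refine ⟨Ft H α 0, Ft_memLp h 0, weighted h hw0 hw, c, hc, ?_⟩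
  set Bad : ℕ → Set (E (m + 1)) := fun k => ⋃ s ∈ T k, {x : E (m + 1) | ∀ᶠ i : ℕ in atTop,
      1 < ‖S (Ft H α (k + 1)) (1 / ((i : ℝ) + 1)) s x‖} with hBad
  have hsum : ∑' k, volume (Bad k) ≠ ⊤ := by
    refine ne_top_of_le_ne_top ?_ (ENNReal.tsum_le_tsum fun k => bad_volume h k)
    rw [← ENNReal.ofReal_tsum_of_nonneg (fun k => by positivity)
      (summable_geometric_of_lt_one (by norm_num) (by norm_num))]
    exact ENNReal.ofReal_ne_top
  have hnull : volume (limsup Bad atTop) = 0 := measure_limsup_atTop_eq_zero hsum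
  refine ⟨{x | ∃ᶠ k in atTop, x ∈ A k} \ limsup Bad atTop, ?_, ?_⟩
  · rw [measure_sdiff_null hnull]
    exact limsup_ge A (fun k => (h.blk k).A_meas) (fun k => (h.blk k).A_sub) _
      (fun k => (h.blk k).A_ge)
  · rintro x ⟨hx1, hx2⟩
    refine not_conv h hx1 ?_
    rw [Filter.mem_limsup_iff_frequently_mem] at hx2
    rw [not_frequently] at hx2
    exact hx2

end Vale.Agent.P076
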