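import Mathlib
import Vale.Agent.P076.Final

/-!
# P076 module RES: the statement in the convention of the problem

`ξ = 2 π η`, `s = 2 π t`; `f` is the inverse `L²` Fourier transform of `F`.
-/

namespace Vale.Agent.P076

open MeasureTheory Complex Finset Filter Topology FourierTransform

/-- Gaussian regularisation of `e^{it∆} f (x)`:
`∫ exp (i x·ξ - i t |ξ|² - a |ξ|²) f^(ξ) dξ / (2π)^n` written with `ξ = 2 π η`
(`𝓕 f` is the `L²` Fourier transform `∫ e^{-2πi x·η} f(x) dx`, `f^(ξ) = 𝓕 f (ξ / 2π)`). -/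
noncomputable def evol {n : ℕ} (f : Lp ℂ 2 (volume : Measure (EuclideanSpace ℝ (Fin n)))) (a t : ℝ)
    (x : EuclideanSpace ℝ (Fin n)) : ℂ :=
  ∫ η : EuclideanSpace ℝ (Fin n),
    Complex.exp (I * inner ℝ x ((2 * Real.pi) • η) - I * t * ‖(2 * Real.pi) • η‖ ^ 2
      - a * ‖(2 * Real.pi) • η‖ ^ 2) * (𝓕 f : Lp ℂ 2 (volume : Measure _)) η

/-- `e^{it∆} f (x)` is defined for all small `t > 0` and has a limit as `t ↓ 0` -/
def Converges {n : ℕ} (f : Lp ℂ 2 (volume : Measure (EuclideanSpace ℝ (Fin n))))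
    (x : EuclideanSpace ℝ (Fin n)) : Prop :=
  ∃ (u : ℝ → ℂ) (z : ℂ), (∀ᶠ t in 𝓝[>] 0, Tendsto (fun a => evol f a t x) (𝓝[>] 0) (𝓝 (u t))) ∧
    Tendsto u (𝓝[>] 0) (𝓝 z)

private lemma res_phase {n : ℕ} (a t : ℝ) (x η : EuclideanSpace ℝ (Fin n)) :
    Complex.exp (I * inner ℝ x ((2 * Real.pi) • η) - I * t * ‖(2 * Real.pi) • η‖ ^ 2
      - a * ‖(2 * Real.pi) • η‖ ^ 2) =
    e (inner ℝ x η - (2 * Real.pi * t) * ‖η‖ ^ 2) *
      ((Real.exp (-((4 * Real.pi ^ 2 * a) * ‖η‖ ^ 2)) : ℝ) : ℂ) := by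
  have hn : ‖(2 * Real.pi) • η‖ = 2 * Real.pi * ‖η‖ := by
    rw [norm_smul, Real.norm_of_nonneg (by positivity)]
  rw [hn, inner_smul_right, e, Complex.ofReal_exp, ← Complex.exp_add]
  congr 1
  push_cast
  ring

private lemma evol_eq {n : ℕ} (f : Lp ℂ 2 (volume : Measure (EuclideanSpace ℝ (Fin n))))
    (F : E n → ℂ) (h : (𝓕 f : Lp ℂ 2 (volume : Measure (EuclideanSpace ℝ (Fin n)))) =ᵐ[volume] F)
    (a t : ℝ) (x : EuclideanSpace ℝ (Fin n)) :
    evol f a t x = S F (4 * Real.pi ^ 2 * a) (2 * Real.pi * t) x := by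
  unfold evol S
  refine integral_congr_ae ?_
  filter_upwards [h] with η hη
  rw [res_phase, hη]

private lemma conv_of {n : ℕ} (f : Lp ℂ 2 (volume : Measure (EuclideanSpace ℝ (Fin n))))
    (F : E n → ℂ) (h : (𝓕 f : Lp ℂ 2 (volume : Measure (EuclideanSpace ℝ (Fin n)))) =ᵐ[volume] F)
    {x : EuclideanSpace ℝ (Fin n)} (hx : Converges f x) : Conv F x := by
  obtain ⟨u, z, h1, h2⟩ := hx
  have hp : 0 < 2 * Real.pi := by positivity
  have hdiv : Tendsto (fun s : ℝ => s / (2 * Real.pi)) (𝓝[>] 0) (𝓝[>] 0) := by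
    refine tendsto_nhdsWithin_iff.2 ⟨?_, ?_⟩
    · have : Tendsto (fun s : ℝ => s / (2 * Real.pi)) (𝓝 0) (𝓝 (0 / (2 * Real.pi))) :=
        tendsto_id.div_const _
      rw [zero_div] at this
      exact this.mono_left nhdsWithin_le_nhds
    · filter_upwards [self_mem_nhdsWithin] with s hs
      exact div_pos hs hp
  have hdiv2 : Tendsto (fun a : ℝ => a / (4 * Real.pi ^ 2)) (𝓝[>] 0) (𝓝[>] 0) := by
    refine tendsto_nhdsWithin_iff.2 ⟨?_, ?_⟩
    · have : Tendsto (fun s : ℝ => s / (4 * Real.pi ^ 2)) (𝓝 0) (𝓝 (0 / (4 * Real.pi ^ 2))) :=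
        tendsto_id.div_const _
      rw [zero_div] at this
      exact this.mono_left nhdsWithin_le_nhds
    · filter_upwards [self_mem_nhdsWithin] with s hs
      have hs' : (0 : ℝ) < s := hs
      exact div_pos hs' (by positivity)
  refine ⟨fun s => u (s / (2 * Real.pi)), z, ?_, h2.comp hdiv⟩
  filter_upwards [hdiv.eventually h1] with s hs
  have := hs.comp hdiv2
  refine this.congr fun a => ?_
  simp only [Function.comp_def]
  rw [evol_eq f F h]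
  congr 1
  · field_simp
  · field_simp

theorem res (n : ℕ) (hn : 2 ≤ n) (w : ℝ → ℝ) (hw0 : ∀ r, 0 ≤ w r)
    (hw : MonotoneOn w (Set.Ici 0))
    (hlim : ∀ ε > 0, ∀ M : ℝ, ∃ r ≥ M, w r ≤ ε * r ^ ((n : ℝ) / ((n : ℝ) + 1))) :
    ∃ f : Lp ℂ 2 (volume : Measure (EuclideanSpace ℝ (Fin n))),
      Integrable (fun η : EuclideanSpace ℝ (Fin n) => w ‖(2 * Real.pi) • η‖ * ‖(𝓕 f : Lp ℂ 2 (volume : Measure (EuclideanSpace ℝ (Fin n)))) η‖ ^ 2) ∧
      ¬ ∀ᵐ x : EuclideanSpace ℝ (Fin n), Converges f x := by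
  obtain ⟨m, rfl⟩ : ∃ m, n = m + 1 := ⟨n - 1, by omega⟩
  have hlim' : ∀ ε > 0, ∀ M : ℝ, ∃ r ≥ M, w r ≤ ε * r ^ (((m : ℝ) + 1) / ((m : ℝ) + 2)) := by
    intro ε hε M
    obtain ⟨r, hr, h⟩ := hlim ε hε M
    refine ⟨r, hr, ?_⟩
    have e1 : ((m + 1 : ℕ) : ℝ) / (((m + 1 : ℕ) : ℝ) + 1) = ((m : ℝ) + 1) / ((m : ℝ) + 2) := by
      push_cast; ring_nf
    rwa [e1] at h
  obtain ⟨F, hF, hwt, c, hc, X, hX, hnc⟩ := final m (by omega) w hw0 hw hlim'
  set f : Lp ℂ 2 (volume : Measure (EuclideanSpace ℝ (Fin (m + 1)))) := 𝓕⁻ (hF.toLp F) with hf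
  have hff : 𝓕 f = hF.toLp F := by
    rw [hf]; exact FourierTransform.fourier_fourierInv_eq _
  have hae : (𝓕 f : Lp ℂ 2 (volume : Measure (EuclideanSpace ℝ (Fin (m + 1))))) =ᵐ[volume] F := by
    rw [hff]; exact hF.coeFn_toLp
  refine ⟨f, ?_, ?_⟩
  · refine hwt.congr ?_
    filter_upwards [hae] with η hη
    rw [hη, norm_smul, Real.norm_of_nonneg (by positivity)]
  · intro hall
    have h0 : volume X = 0 := by
      refine measure_mono_null (fun x hx => ?_) (ae_iff.1 hall)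
      exact fun hcx => hnc x hx (conv_of f F hae hcx)
    rw [h0] at hX
    have := ENNReal.ofReal_pos.2 hc
    exact absurd (le_antisymm hX zero_le) this.ne'

end Vale.Agent.P076
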