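import Mathlib
import Vale.Agent.P076.Res

/-!
# P076: the statement in the exact convention of the problem
-/

namespace Vale.Agent.P076

open MeasureTheory Complex Filter Topology FourierTransform

/-- `ℝⁿ` -/
abbrev V (n : ℕ) := EuclideanSpace ℝ (Fin n)

/-- `L²(ℝⁿ)` -/
abbrev L2 (n : ℕ) : Type := ↥(Lp ℂ 2 (volume : Measure (V n)))

/-- the `L²` Fourier transform with `e^{-2 π i x·η}` -/
noncomputable def four {n : ℕ} (f : L2 n) (η : V n) : ℂ := (𝓕 f : L2 n) η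

/-- `f^(ξ) = ∫ e^{-i x·ξ} f(x) dx` -/
noncomputable def hat {n : ℕ} (f : L2 n) (ξ : V n) : ℂ := four f ((2 * Real.pi)⁻¹ • ξ)

/-- `(2 π)^{-n} ∫ exp (i x·ξ - i t |ξ|² - a |ξ|²) f^(ξ) dξ` -/
noncomputable def reg {n : ℕ} (f : L2 n) (a t : ℝ) (x : V n) : ℂ :=
  (2 * (Real.pi : ℂ)) ^ (-(n : ℤ)) *
    ∫ ξ : V n, Complex.exp (I * (inner ℝ x ξ : ℝ) - I * t * ‖ξ‖ ^ 2 - a * ‖ξ‖ ^ 2) * hat f ξ

/-- `e^{it∆} f (x)` is defined for all small `t > 0` and has a limit as `t ↓ 0` -/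
def HasLimit {n : ℕ} (f : L2 n) (x : V n) : Prop :=
  ∃ (u : ℝ → ℂ) (z : ℂ), (∀ᶠ t in 𝓝[>] 0, Tendsto (fun a => reg f a t x) (𝓝[>] 0) (𝓝 (u t))) ∧
    Tendsto u (𝓝[>] 0) (𝓝 z)

private lemma res2_evol {n : ℕ} (f : L2 n) (a t : ℝ) (x : V n) : reg f a t x = evol f a t x := by
  have hp : (0 : ℝ) < 2 * Real.pi := by positivity
  have key := MeasureTheory.Measure.integral_comp_smul (volume : Measure (V n))
    (fun ξ : V n => Complex.exp (I * (inner ℝ x ξ : ℝ) - I * t * ‖ξ‖ ^ 2 - a * ‖ξ‖ ^ 2) * hat f ξ)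
    (2 * Real.pi)
  have hR : ∫ η : V n, Complex.exp (I * (inner ℝ x ((2 * Real.pi) • η) : ℝ)
        - I * t * ‖(2 * Real.pi) • η‖ ^ 2 - a * ‖(2 * Real.pi) • η‖ ^ 2) *
        hat f ((2 * Real.pi) • η) = evol f a t x := by
    unfold evol
    refine integral_congr_ae (Eventually.of_forall fun η => ?_)
    simp only [hat, four]
    rw [smul_smul, inv_mul_cancel₀ hp.ne', one_smul]
  rw [hR] at key
  rw [key, finrank_euclideanSpace, Fintype.card_fin, reg, abs_of_pos (by positivity),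
    Complex.real_smul]
  congr 1
  push_cast
  rw [zpow_neg, zpow_natCast]

theorem res2 (n : ℕ) (hn : 2 ≤ n) (w : ℝ → ℝ) (hw0 : ∀ r, 0 ≤ w r)
    (hw : MonotoneOn w (Set.Ici 0))
    (hlim : ∀ ε > 0, ∀ M : ℝ, ∃ r ≥ M, w r ≤ ε * r ^ ((n : ℝ) / ((n : ℝ) + 1))) :
    ∃ f : L2 n, Integrable (fun ξ : V n => w ‖ξ‖ * ‖hat f ξ‖ ^ 2) ∧
      ¬ ∀ᵐ x : V n, HasLimit f x := by
  obtain ⟨f, h1, h2⟩ := res n hn w hw0 hw hlim
  have hp : (0 : ℝ) < 2 * Real.pi := by positivity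
  refine ⟨f, ?_, ?_⟩
  · rw [← MeasureTheory.integrable_comp_smul_iff (volume : Measure (V n)) _ hp.ne']
    refine h1.congr (Eventually.of_forall fun η => ?_)
    simp only [hat, four]
    rw [smul_smul, inv_mul_cancel₀ hp.ne', one_smul]
  · intro h
    apply h2
    filter_upwards [h] with x hx
    obtain ⟨u, z, h3, h4⟩ := hx
    refine ⟨u, z, ?_, h4⟩
    filter_upwards [h3] with t ht
    exact ht.congr fun a => res2_evol f a t x

end Vale.Agent.P076
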